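import Vale.Agent.P065.H268.TimePull

/-!
# P065, package TIME: the choice of one time shift (helper268)

The shifts are `sh R i = i / 2 ^ R`, `i < 2 ^ R`.
-/

set_option autoImplicit false

namespace Vale.Agent.P065.H268

open Finset

/-- **one good element for finitely many averages** -/
lemma exists_good {ι κ : Type*} {S : Finset ι} (hS : S.Nonempty) (K : Finset κ)
    (F : κ → ι → ℝ) (a : κ → ℝ) (hF : ∀ k ∈ K, ∀ i ∈ S, 0 ≤ F k i) (ha : ∀ k ∈ K, 0 < a k)
    (hav : ∀ k ∈ K, ∑ i ∈ S, F k i ≤ #S * a k) :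
    ∃ i ∈ S, ∀ k ∈ K, F k i ≤ #K * a k := by
  have h1 : ∑ i ∈ S, ∑ k ∈ K, F k i / a k ≤ ∑ i ∈ S, (#K : ℝ) := by
    rw [sum_comm, sum_const, nsmul_eq_mul, ← nsmul_eq_mul, nsmul_eq_mul, mul_comm, ← nsmul_eq_mul,
      ← sum_const]
    refine sum_le_sum fun k hk => ?_
    rw [← sum_div, div_le_iff₀ (ha k hk)]
    exact hav k hk
  obtain ⟨i, hi, h2⟩ := exists_le_of_sum_le hS h1
  refine ⟨i, hi, fun k hk => ?_⟩
  have h3 : F k i / a k ≤ ∑ k ∈ K, F k i / a k :=
    single_le_sum (f := fun k => F k i / a k) (fun k hk => div_nonneg (hF k hk i hi) (ha k hk).le) hk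
  rw [← div_le_iff₀ (ha k hk)]
  exact h3.trans h2

namespace Pcs

variable {Ω : Type*} [Fintype Ω] (P : Pcs Ω)

open Classical in
/-- the blocks which are cut by the shifted grid -/
noncomputable def cutB (P : Pcs Ω) (g n : ℕ) (u : ℝ) (ω : Ω) : Finset ℕ :=
  {j ∈ range n | g ≤ P.tm j ω ∧ (P.shift u).Cut (P.tm j ω - g) j ω}

/-- the average number of blocks which are cut by the grid -/
theorem sum_cutB_le {ν : Ω → ℝ} (hν : ∀ ω, 0 ≤ ν ω) {R : ℕ} (hR : P.T ≤ R) (g n : ℕ) :
    ∑ i ∈ range (2 ^ R), ∑ ω, ν ω * #(P.cutB g n (sh R i) ω) ≤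
      2 ^ R * (9 / 2 ^ g * n * ∑ ω, ν ω) := by
  classical
  rw [sum_comm]
  have h1 : ∀ ω, ∑ i ∈ range (2 ^ R), ν ω * #(P.cutB g n (sh R i) ω) ≤
      ν ω * (2 ^ R * (9 / 2 ^ g * n)) := by
    intro ω
    rw [← mul_sum]
    refine mul_le_mul_of_nonneg_left ?_ (hν ω)
    have h2 : ∀ i, (#(P.cutB g n (sh R i) ω) : ℝ) =
        ∑ j ∈ range n, if g ≤ P.tm j ω ∧ (P.shift (sh R i)).Cut (P.tm j ω - g) j ω
          then 1 else 0 := by
      intro i
      unfold cutB
      rw [card_filter]
      push_cast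
      rfl
    rw [sum_congr rfl fun i _ => h2 i, sum_comm]
    calc ∑ j ∈ range n, ∑ i ∈ range (2 ^ R),
          (if g ≤ P.tm j ω ∧ (P.shift (sh R i)).Cut (P.tm j ω - g) j ω then (1 : ℝ) else 0)
        ≤ ∑ j ∈ range n, 2 ^ R * (9 / 2 ^ g) := by
          refine sum_le_sum fun j _ => ?_
          by_cases hg : g ≤ P.tm j ω
          · have h3 := P.card_Cut_le hR j ω hg
            have h4 : ∑ i ∈ range (2 ^ R),
                (if g ≤ P.tm j ω ∧ (P.shift (sh R i)).Cut (P.tm j ω - g) j ω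
                  then (1 : ℝ) else 0) =
                #{i ∈ range (2 ^ R) | (P.shift (sh R i)).Cut (P.tm j ω - g) j ω} := by
              rw [card_filter]
              push_cast
              refine sum_congr rfl fun i _ => ?_
              by_cases h5 : (P.shift (sh R i)).Cut (P.tm j ω - g) j ω
              · rw [if_pos ⟨hg, h5⟩, if_pos h5]
              · rw [if_neg fun h => h5 h.2, if_neg h5]
            rw [h4]
            exact h3
          · rw [sum_eq_zero fun i _ => if_neg fun h => hg h.1]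
            positivity
      _ = 2 ^ R * (9 / 2 ^ g * n) := by
          rw [sum_const, card_range, nsmul_eq_mul]
          ring
  refine (sum_le_sum fun ω _ => h1 ω).trans (le_of_eq ?_)
  rw [← sum_mul]
  ring

/-- **the choice of one time shift**: the grid cuts few blocks, and finitely many other
nonnegative functions of the shift are at most `#K + 1` times their averages -/
theorem exists_shift {ν : Ω → ℝ} (hν : ∀ ω, 0 ≤ ν ω) (hν1 : ∑ ω, ν ω = 1) {R : ℕ}
    (hR : P.T ≤ R) (g : ℕ) {n : ℕ} (hn : 0 < n) {κ : Type*} (K : Finset κ) (F : κ → ℝ → ℝ)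
    (a : κ → ℝ) (hF : ∀ k ∈ K, ∀ u, 0 ≤ F k u) (ha : ∀ k ∈ K, 0 < a k)
    (hav : ∀ k ∈ K, ∑ i ∈ range (2 ^ R), F k (sh R i) ≤ 2 ^ R * a k) :
    ∃ i < 2 ^ R, ∑ ω, ν ω * #(P.cutB g n (sh R i) ω) ≤ (#K + 1) * (9 / 2 ^ g * n) ∧
      ∀ k ∈ K, F k (sh R i) ≤ (#K + 1) * a k := by
  classical
  have hn' : (0 : ℝ) < n := by exact_mod_cast hn
  let K' : Finset (Option κ) := insertNone K
  let F' : Option κ → ℕ → ℝ := fun k i => match k with
    | none => ∑ ω, ν ω * #(P.cutB g n (sh R i) ω)
    | some k => F k (sh R i)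
  let a' : Option κ → ℝ := fun k => match k with
    | none => 9 / 2 ^ g * n
    | some k => a k
  have hK' : #K' = #K + 1 := card_insertNone K
  obtain ⟨i, hi, h⟩ := exists_good (S := range (2 ^ R)) (by simp) K' F' a'
    (by
      intro k hk i _
      match k with
      | none => exact sum_nonneg fun ω _ => mul_nonneg (hν ω) (Nat.cast_nonneg _)
      | some k => exact hF k (by simpa [K'] using hk) _)
    (by
      intro k hk
      match k with
      | none => show (0 : ℝ) < 9 / 2 ^ g * n; positivity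
      | some k => exact ha k (by simpa [K'] using hk))
    (by
      intro k hk
      rw [card_range]
      push_cast
      match k with
      | none =>
        have := P.sum_cutB_le hν hR g n
        rw [hν1, mul_one] at this
        exact this
      | some k => exact hav k (by simpa [K'] using hk))
  refine ⟨i, mem_range.1 hi, ?_, fun k hk => ?_⟩
  · have := h none (by simp [K'])
    rw [hK'] at this
    push_cast at this
    exact this
  · have := h (some k) (by simpa [K'] using hk)
    rw [hK'] at this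
    push_cast at this
    exact this

omit [Fintype Ω] in
/-- for dyadic points the shift may be rounded down to a dyadic number -/
lemma D_shift_round {R t : ℕ} (ht : t ≤ R) {ω : Ω} {z : ℤ} (hz : 2 ^ R * P.x ω = z) (u : ℝ) :
    (P.shift u).D t ω = (P.shift (⌊2 ^ R * u⌋ / 2 ^ R)).D t ω := by
  rw [shift_D, shift_D]
  set m : ℕ := 2 ^ (R - t) with hm
  have hm0 : 0 < m := by positivity
  have hR : (2 : ℝ) ^ R = 2 ^ t * m := by
    rw [hm]
    push_cast
    rw [← pow_add]
    congr 1
    omega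
  have hm' : (m : ℝ) ≠ 0 := by positivity
  have ht' : (2 : ℝ) ^ t ≠ 0 := by positivity
  have key : ∀ v : ℝ, (2 : ℝ) ^ t * (P.x ω + v) = (2 ^ R * v + z) / m := by
    intro v
    rw [← hz, hR]
    field_simp
    ring
  rw [key, key]
  have e1 : (2 : ℝ) ^ R * (⌊2 ^ R * u⌋ / 2 ^ R) = (⌊(2 : ℝ) ^ R * u⌋ : ℝ) := by
    field_simp
  rw [e1, Int.floor_div_natCast, Int.floor_div_natCast, Int.floor_add_intCast,
    Int.floor_add_intCast, Int.floor_intCast]

end Pcs

end Vale.Agent.P065.H268
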