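import Vale.Agent.P065.H268.TimeGrid

/-!
# P065, package TIME: pieces on an extended space (helper268)

`P.pull f` for a map `f : Ω' → Ω` (e.g. `Prod.snd` on columns × flags). If `f` is surjective then
`hi`, `lo`, `len`, `tm`, `D`, `Cut` are the ones of `P`.
-/

set_option autoImplicit false

namespace Vale.Agent.P065.H268

open Finset

namespace Pcs

variable {Ω Ω' : Type*}

/-- the pieces on an extended space -/
def pull (P : Pcs Ω) (f : Ω' → Ω) : Pcs Ω' where
  x := fun a => P.x (f a)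
  W := fun j a => P.W j (f a)
  δ := P.δ
  T := P.T
  mono := fun j a b h => P.mono j (f a) (f b) h
  nest := fun j a b h => P.nest j (f a) (f b) h
  δ_pos := P.δ_pos
  sep := fun a b h => P.sep (f a) (f b) h
  diam := fun a b => P.diam (f a) (f b)
  bot := P.bot

variable [Fintype Ω] [Fintype Ω'] (P : Pcs Ω) {f : Ω' → Ω}

omit [Fintype Ω] [Fintype Ω'] in
@[simp] lemma pull_x (f : Ω' → Ω) (a : Ω') : (P.pull f).x a = P.x (f a) := rfl

omit [Fintype Ω] [Fintype Ω'] in
@[simp] lemma pull_W (f : Ω' → Ω) (j : ℕ) (a : Ω') : (P.pull f).W j a = P.W j (f a) := rfl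

omit [Fintype Ω] [Fintype Ω'] in
@[simp] lemma pull_T (f : Ω' → Ω) : (P.pull f).T = P.T := rfl

omit [Fintype Ω] [Fintype Ω'] in
@[simp] lemma pull_δ (f : Ω' → Ω) : (P.pull f).δ = P.δ := rfl

omit [Fintype Ω] [Fintype Ω'] in
@[simp] lemma pull_D (f : Ω' → Ω) (t : ℕ) (a : Ω') : (P.pull f).D t a = P.D t (f a) := rfl

omit [Fintype Ω] [Fintype Ω'] in
lemma shift_D (u : ℝ) (t : ℕ) (ω : Ω) : (P.shift u).D t ω = ⌊(2 : ℝ) ^ t * (P.x ω + u)⌋ := rfl

omit [Fintype Ω] [Fintype Ω'] in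
lemma pull_shift (f : Ω' → Ω) (u : ℝ) : (P.pull f).shift u = (P.shift u).pull f := rfl

lemma pull_hi (hf : Function.Surjective f) (j : ℕ) (a : Ω') : (P.pull f).hi j a = P.hi j (f a) := by
  apply le_antisymm
  · obtain ⟨b, hb, hb'⟩ := (P.pull f).exists_hi j a
    rw [← hb']
    exact P.le_hi hb
  · obtain ⟨c, hc, hc'⟩ := P.exists_hi j (f a)
    obtain ⟨b, rfl⟩ := hf c
    rw [← hc']
    exact (P.pull f).le_hi (ω' := b) (ω := a) hc

lemma pull_lo (hf : Function.Surjective f) (j : ℕ) (a : Ω') : (P.pull f).lo j a = P.lo j (f a) := by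
  apply le_antisymm
  · obtain ⟨c, hc, hc'⟩ := P.exists_lo j (f a)
    obtain ⟨b, rfl⟩ := hf c
    rw [← hc']
    exact (P.pull f).lo_le (ω' := b) (ω := a) hc
  · obtain ⟨b, hb, hb'⟩ := (P.pull f).exists_lo j a
    rw [← hb']
    exact P.lo_le hb

lemma pull_len (hf : Function.Surjective f) (j : ℕ) (a : Ω') :
    (P.pull f).len j a = P.len j (f a) := by
  unfold len
  rw [P.pull_hi hf, P.pull_lo hf, pull_δ]

lemma pull_tm (hf : Function.Surjective f) (j : ℕ) (a : Ω') :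
    (P.pull f).tm j a = P.tm j (f a) := by
  apply le_antisymm
  · apply (P.pull f).tm_le
    rw [P.pull_len hf]
    exact P.tm_spec j (f a)
  · apply P.tm_le
    rw [← P.pull_len hf]
    exact (P.pull f).tm_spec j a

omit [Fintype Ω] [Fintype Ω'] in
lemma pull_Cut (hf : Function.Surjective f) (s j : ℕ) (a : Ω') :
    (P.pull f).Cut s j a ↔ P.Cut s j (f a) := by
  constructor
  · rintro ⟨b, h1, h2⟩
    exact ⟨f b, h1, h2⟩
  · rintro ⟨c, h1, h2⟩
    obtain ⟨b, rfl⟩ := hf c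
    exact ⟨b, h1, h2⟩

end Pcs

end Vale.Agent.P065.H268
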