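import Vale.Agent.P065.H268.TimeFrame

/-!
# P065: counting near-cut scales (helper268)
-/

set_option autoImplicit false

open Finset Real

noncomputable section

namespace Vale.Agent.P065.H268

open Vale.Agent.P065.UB Vale.Agent.P065.Ent Vale.Agent.P065.H154

open Classical in
/-- **`Cov` from a good part**: the thick scales which are not `ok` cost `M + 1` digits each -/
theorem card_Cov_le {Ω : Type*} [Fintype Ω] (P : Pcs Ω) (th ok : ℕ → Ω → Prop) (M : ℕ) (ω : Ω) :
    #(Cov P th M ω) ≤ #{z ∈ range P.T | ∃ v, v < P.T ∧ th v ω ∧ ok v ω ∧ z ≤ v ∧ v ≤ z + M} +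
      (M + 1) * #{v ∈ range P.T | th v ω ∧ ¬ ok v ω} := by
  have h1 : Cov P th M ω ⊆
      {z ∈ range P.T | ∃ v, v < P.T ∧ th v ω ∧ ok v ω ∧ z ≤ v ∧ v ≤ z + M} ∪
      ({v ∈ range P.T | th v ω ∧ ¬ ok v ω}).biUnion (fun v => Icc (v - M) v) := by
    intro z hz
    obtain ⟨hz1, v, hv, hth, hzv, hvz⟩ := mem_filter.1 hz
    rw [mem_union]
    by_cases hok : ok v ω
    · left
      rw [mem_filter]
      exact ⟨hz1, v, hv, hth, hok, hzv, hvz⟩
    · right
      rw [mem_biUnion]
      exact ⟨v, mem_filter.2 ⟨mem_range.2 hv, hth, hok⟩, mem_Icc.2 ⟨by omega, hzv⟩⟩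
  refine (card_le_card h1).trans ((card_union_le _ _).trans (add_le_add le_rfl ?_))
  refine card_biUnion_le.trans ?_
  calc ∑ v ∈ {v ∈ range P.T | th v ω ∧ ¬ ok v ω}, #(Icc (v - M) v)
      ≤ ∑ _v ∈ {v ∈ range P.T | th v ω ∧ ¬ ok v ω}, (M + 1) := by
        refine sum_le_sum fun v _ => ?_
        rw [Nat.card_Icc]
        omega
    _ = (M + 1) * #{v ∈ range P.T | th v ω ∧ ¬ ok v ω} := by
        rw [sum_const, smul_eq_mul, mul_comm]

section frame

variable {Ω : Type*} [Fintype Ω] {F : Fr Ω} {ln : Ω → Pt} {p : Prm}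

lemma le_neg_log {x ps : ℝ} (hx0 : 0 < x) (hx : x ≤ 1 - ps) : ps ≤ -log x := by
  have := log_le_sub_one_of_pos hx0
  linarith

open Classical in
/-- **thick scales near the cut are rare**: if both halves of a thick box have a share at least
`ps`, the expected number of thick scales where the flag is near the cut is at most `1 / ps` times
the near-cut content -/
theorem thick_near_le {Q : p.Col × Ω → ℝ} (hQ : IsProb Q) (th : ℕ → p.Col × Ω → Prop)
    (γ g T s : ℕ) (u : ℝ) {ps : ℝ} (hps : 0 < ps)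
    (hth : ∀ t < T, ∀ q, 0 < Q q → th t q →
      Avg.ka ((F.Q u s).pull (Prod.snd : p.Col × Ω → Ω)) Q (Rt F ln p u γ) t q ≤ 1 - ps) :
    ∑ q, Q q * #{t ∈ range T | th t q ∧ nearU u g t (F.P.x q.2)} ≤
      ncut F ln p Q γ g T s u / ps := by
  rw [le_div_iff₀ hps]
  unfold ncut
  rw [sum_mul]
  refine sum_le_sum fun q _ => ?_
  rcases (hQ.nonneg q).eq_or_lt with h0 | h0
  · rw [← h0]; simp
  · rw [mul_assoc]
    refine mul_le_mul_of_nonneg_left ?_ h0.le
    rw [card_filter]
    push_cast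
    rw [sum_mul]
    refine sum_le_sum fun t ht => ?_
    have hk0 := Avg.ka_pos (P := (F.Q u s).pull (Prod.snd : p.Col × Ω → Ω))
      (R := Rt F ln p u γ) hQ t h0
    have hk1 := Avg.ka_le_one (P := (F.Q u s).pull (Prod.snd : p.Col × Ω → Ω))
      (R := Rt F ln p u γ) hQ t q
    by_cases hn : nearU u g t (F.P.x q.2)
    · rw [if_pos hn]
      by_cases ht' : th t q
      · rw [if_pos ⟨ht', hn⟩, one_mul]
        exact le_neg_log hk0 (hth t (mem_range.1 ht) q h0 ht')
      · rw [if_neg fun h => ht' h.1, zero_mul]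
        have := log_nonpos hk0.le hk1
        linarith
    · rw [if_neg fun h => hn h.2, if_neg hn, zero_mul]

open Classical in
/-- the thick scales are few, in terms of the content of the boxes -/
theorem thick_le {Q : p.Col × Ω → ℝ} (hQ : IsProb Q) (th : ℕ → p.Col × Ω → Prop)
    (γ T s : ℕ) (u : ℝ) {ps : ℝ} (hps : 0 < ps)
    (hth : ∀ t < T, ∀ q, 0 < Q q → th t q →
      Avg.ka ((F.Q u s).pull (Prod.snd : p.Col × Ω → Ω)) Q (Rt F ln p u γ) t q ≤ 1 - ps) :
    ∑ q, Q q * #{t ∈ range T | th t q} ≤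
      (∑ t ∈ range T, Hc Q (fun q => F.D u (t + 1) q.2) (Rt F ln p u γ t)) / ps := by
  rw [le_div_iff₀ hps]
  have e : ∑ t ∈ range T, Hc Q (fun q => F.D u (t + 1) q.2) (Rt F ln p u γ t) =
      ∑ q, Q q * ∑ t ∈ range T,
        -log (Avg.ka ((F.Q u s).pull (Prod.snd : p.Col × Ω → Ω)) Q (Rt F ln p u γ) t q) := by
    simp only [mul_sum]
    rw [sum_comm]
    refine sum_congr rfl fun t _ => ?_
    rw [Hc_eq_sum hQ]
    rfl
  rw [e, sum_mul]
  refine sum_le_sum fun q _ => ?_
  rcases (hQ.nonneg q).eq_or_lt with h0 | h0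
  · rw [← h0]; simp
  · rw [mul_assoc]
    refine mul_le_mul_of_nonneg_left ?_ h0.le
    rw [card_filter]
    push_cast
    rw [sum_mul]
    refine sum_le_sum fun t ht => ?_
    have hk0 := Avg.ka_pos (P := (F.Q u s).pull (Prod.snd : p.Col × Ω → Ω))
      (R := Rt F ln p u γ) hQ t h0
    have hk1 := Avg.ka_le_one (P := (F.Q u s).pull (Prod.snd : p.Col × Ω → Ω))
      (R := Rt F ln p u γ) hQ t q
    by_cases ht' : th t q
    · rw [if_pos ht', one_mul]
      exact le_neg_log hk0 (hth t (mem_range.1 ht) q h0 ht')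
    · rw [if_neg ht', zero_mul]
      have := log_nonpos hk0.le hk1
      linarith

end frame

end Vale.Agent.P065.H268
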