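import Vale.Agent.P065.H268.TimeCut

/-!
# P065: one time shift for finitely many functionals (helper268)

`AvLe F a` : the average of `F` over the shifts `i / 2 ^ R`, `i < 2 ^ R`, is at most `a` for all
large `R`.  Finitely many nonnegative functionals have a common good shift.
-/

set_option autoImplicit false

open Finset Real

noncomputable section

namespace Vale.Agent.P065.H268

open Vale.Agent.P065.Ent Vale.Agent.P065.H154

/-- the averages over the dyadic shifts are at most `a`, for all fine dyadic grids of shifts -/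
def AvLe (F : ℝ → ℝ) (a : ℝ) : Prop :=
  ∃ R₀ : ℕ, ∀ R ≥ R₀, ∑ i ∈ range (2 ^ R), F (sh R i) ≤ 2 ^ R * a

lemma AvLe.mono {F G : ℝ → ℝ} {a b : ℝ} (h : AvLe F a) (hG : ∀ u, G u ≤ F u) (hab : a ≤ b) :
    AvLe G b := by
  obtain ⟨R₀, h0⟩ := h
  refine ⟨R₀, fun R hR => (sum_le_sum fun i _ => hG _).trans ((h0 R hR).trans ?_)⟩
  exact mul_le_mul_of_nonneg_left hab (by positivity)

lemma AvLe.const_mul {F : ℝ → ℝ} {a : ℝ} (h : AvLe F a) {c : ℝ} (hc : 0 ≤ c) :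
    AvLe (fun u => c * F u) (c * a) := by
  obtain ⟨R₀, h0⟩ := h
  refine ⟨R₀, fun R hR => ?_⟩
  rw [← mul_sum]
  calc c * ∑ i ∈ range (2 ^ R), F (sh R i) ≤ c * (2 ^ R * a) :=
        mul_le_mul_of_nonneg_left (h0 R hR) hc
    _ = 2 ^ R * (c * a) := by ring

lemma AvLe.add {F G : ℝ → ℝ} {a b : ℝ} (h : AvLe F a) (h' : AvLe G b) :
    AvLe (fun u => F u + G u) (a + b) := by
  obtain ⟨R₀, h0⟩ := h
  obtain ⟨R₁, h1⟩ := h'
  refine ⟨max R₀ R₁, fun R hR => ?_⟩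
  rw [sum_add_distrib, mul_add]
  exact add_le_add (h0 R ((le_max_left _ _).trans hR)) (h1 R ((le_max_right _ _).trans hR))

/-- **a common good shift** for finitely many functionals -/
theorem exists_shift_of_avLe {κ : Type*} (K : Finset κ) (F : κ → ℝ → ℝ) (a : κ → ℝ)
    (hF : ∀ k ∈ K, ∀ u, 0 ≤ F k u) (ha : ∀ k ∈ K, 0 < a k) (h : ∀ k ∈ K, AvLe (F k) (a k))
    (R₁ : ℕ) : ∃ R i : ℕ, R₁ ≤ R ∧ i < 2 ^ R ∧ ∀ k ∈ K, F k (sh R i) ≤ #K * a k := by
  classical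
  choose! R₀ h0 using h
  set R : ℕ := max R₁ (K.sup R₀) with hR
  obtain ⟨i, hi, h1⟩ := exists_good (S := range (2 ^ R)) (by simp) K (fun k i => F k (sh R i)) a
    (fun k hk i _ => hF k hk _) ha (by
      intro k hk
      rw [card_range]
      push_cast
      exact h0 k hk R ((le_sup hk).trans (le_max_right _ _)))
  exact ⟨R, i, le_max_left _ _, mem_range.1 hi, h1⟩

/-- the blocks which are cut -/
theorem avLe_cut {Ω : Type*} [Fintype Ω] (P : Pcs Ω) {ν : Ω → ℝ} (hν : ∀ ω, 0 ≤ ν ω)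
    (hν1 : ∑ ω, ν ω = 1) (g n : ℕ) :
    AvLe (fun u => ∑ ω, ν ω * #(P.cutB g n u ω)) (9 / 2 ^ g * n) := by
  refine ⟨P.T, fun R hR => ?_⟩
  have := P.sum_cutB_le hν hR g n
  rwa [hν1, mul_one] at this

/-- the shifted dyadic cell -/
def cellU (u : ℝ) (t : ℕ) (x : ℝ) : ℤ := ⌊(2 : ℝ) ^ t * (x + u)⌋

lemma cellU_sh (R i t : ℕ) (x : ℝ) : cellU (sh R i) t x = cell R i t x := rfl

/-- the point is close to the midpoint of its cell of scale `t` -/
def nearU (u : ℝ) (g t : ℕ) (x : ℝ) : Prop :=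
  cellU u (t + g) x % 2 ^ g = 2 ^ (g - 1) - 1 ∨ cellU u (t + g) x % 2 ^ g = 2 ^ (g - 1)

instance (u : ℝ) (g t : ℕ) (x : ℝ) : Decidable (nearU u g t x) := by
  unfold nearU; infer_instance

lemma nearU_sh (R i g t : ℕ) (x : ℝ) : nearU (sh R i) g t x ↔ near R i g t x := Iff.rfl

variable {Ω : Type*} [Fintype Ω] {α γ : Type*} {β : ℕ → Type*}

/-- surprise of the next digit of the cell of scale `t` -/
def supU (u : ℝ) (μ : Ω → ℝ) (x : Ω → ℝ) (N : ∀ t, Ω → β t) (t : ℕ) (ω : Ω) : ℝ :=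
  log (Pr μ (fun ω => (cellU u t (x ω), N t ω)) (cellU u t (x ω), N t ω)) -
    log (Pr μ (fun ω => (cellU u (t + 1) (x ω), N t ω)) (cellU u (t + 1) (x ω), N t ω))

lemma cellU_nest (u : ℝ) (t : ℕ) (x : ℝ) : cellU u t x = cellU u (t + 1) x / 2 := by
  unfold cellU
  rw [pow_succ, mul_right_comm]
  set y := (2 : ℝ) ^ t * (x + u)
  apply le_antisymm
  · rw [Int.le_ediv_iff_mul_le (by norm_num), Int.le_floor]
    push_cast
    linarith [Int.floor_le y]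
  · rw [Int.le_floor]
    have h1 : (⌊y * 2⌋ : ℤ) / 2 * 2 ≤ ⌊y * 2⌋ := Int.ediv_mul_le _ (by norm_num)
    have h2 : (((⌊y * 2⌋ : ℤ) / 2 * 2 : ℤ) : ℝ) ≤ y * 2 :=
      le_trans (by exact_mod_cast h1) (Int.floor_le _)
    push_cast at h2
    linarith

lemma supU_nonneg {μ : Ω → ℝ} (hμ : IsProb μ) (u : ℝ) (x : Ω → ℝ) (N : ∀ t, Ω → β t) (t : ℕ)
    {ω : Ω} (hω : 0 < μ ω) : 0 ≤ supU u μ x N t ω := by
  unfold supU
  have h1 := Pr_pos hμ (fun ω => (cellU u (t + 1) (x ω), N t ω)) hω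
  have h2 : Pr μ (fun ω => (cellU u (t + 1) (x ω), N t ω)) (cellU u (t + 1) (x ω), N t ω) ≤
      Pr μ (fun ω => (cellU u t (x ω), N t ω)) (cellU u t (x ω), N t ω) := by
    refine Pr_mono hμ ?_ ω
    intro a b h
    simp only [Prod.mk.injEq] at h ⊢
    exact ⟨by rw [cellU_nest, cellU_nest u t (x b), h.1], h.2⟩
  have := log_le_log h1 h2
  linarith

/-- **the near-cut content**: average over the shifts -/
theorem avLe_near {μ : Ω → ℝ} {x : Ω → ℝ} {N : ∀ t, Ω → β t} {ρ : Ω → α} {c : Ω → γ}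
    (hμ : IsProb μ) (hN : ∀ t, Det (N (t + 1)) (N t)) (hx : Det ρ x)
    (hρ : ∀ t, Det ρ (N t)) (hc : Det (N 0) c) {g : ℕ} (hg : 2 ≤ g) (T : ℕ) {ε : ℝ} (hε : 0 < ε) :
    AvLe (fun u => ∑ ω, μ ω * ∑ t ∈ range T, (if nearU u g t (x ω) then supU u μ x N t ω else 0))
      (2 / 2 ^ g * (g + 2) * Hc μ ρ c + ε) := by
  have hH := H_nonneg hμ ρ
  obtain ⟨K, hK⟩ := exists_nat_gt ((T : ℝ) * H μ ρ / ε)
  have h2K : (T : ℝ) / 2 ^ (g + K) * H μ ρ ≤ ε := by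
    have h1 : (K : ℝ) < 2 ^ K := by exact_mod_cast Nat.lt_two_pow_self
    have h2 : (2 : ℝ) ^ K ≤ 2 ^ (g + K) := pow_le_pow_right₀ (by norm_num) (by omega)
    rw [div_mul_eq_mul_div, div_le_iff₀ (by positivity)]
    rw [div_lt_iff₀ hε] at hK
    nlinarith
  refine ⟨T + (g + 1 + K), fun R hR => ?_⟩
  refine (near_content hμ hN hx hρ hc hg hR).trans ?_
  exact mul_le_mul_of_nonneg_left (by linarith) (by positivity)

end Vale.Agent.P065.H268
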