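import Vale.Agent.P065.H268.SGNegSum
import Vale.Agent.P065.H700.SGCount
import Vale.Agent.P065.H654.SGBridge
import Vale.Agent.P065.H60.SGClose

/-!
# P065, case (I), the slope giants: the assembly (helper268)
-/

set_option autoImplicit false

open Finset Real

noncomputable section

namespace Vale.Agent.P065.H268

open Vale.Agent.P065.UB Vale.Agent.P065.Ent Vale.Agent.P065.H154 Vale.Agent.P065.H725
  Vale.Agent.P065.H654

/-! ## Numbers -/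

lemma exists_gam {e L : ℝ} (he : 0 < e) (hL : 0 ≤ L) : ∃ γ : ℕ, 11 / 2 ^ γ * L ≤ e := by
  obtain ⟨n, hn⟩ := exists_nat_gt (11 * L / e)
  refine ⟨n, ?_⟩
  have h1 : (n : ℝ) < 2 ^ n := by exact_mod_cast Nat.lt_two_pow_self
  rw [div_lt_iff₀ he] at hn
  rw [div_mul_eq_mul_div, div_le_iff₀ (by positivity)]
  nlinarith

lemma exists_win {e L : ℝ} (he : 0 < e) (hL : 0 ≤ L) :
    ∃ g₀ : ℕ, 2 ≤ g₀ ∧ 2 / 2 ^ g₀ * (g₀ + 2) * L ≤ e := by
  obtain ⟨n, hn⟩ := exists_nat_gt (4 * L / e)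
  have h1 : (n : ℝ) < 2 ^ n := by exact_mod_cast Nat.lt_two_pow_self
  rw [div_lt_iff₀ he] at hn
  set m := n + 1 with hm
  refine ⟨2 * m, by omega, ?_⟩
  have h2 : (m : ℝ) + 1 ≤ 2 ^ m := by exact_mod_cast Nat.lt_two_pow_self
  have h3 : (2 : ℝ) ^ n ≤ 2 ^ m := pow_le_pow_right₀ (by norm_num) (by omega)
  have h4 : (2 : ℝ) ^ (2 * m) = 2 ^ m * 2 ^ m := by rw [two_mul, pow_add]
  have h5 : (0 : ℝ) < 2 ^ m := by positivity
  rw [h4, div_mul_eq_mul_div, div_mul_eq_mul_div, div_le_iff₀ (by positivity)]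
  push_cast
  have h6 : 4 * L ≤ e * 2 ^ m := by nlinarith
  calc 2 * (2 * (m : ℝ) + 2) * L = (m + 1) * (4 * L) := by ring
    _ ≤ 2 ^ m * (e * 2 ^ m) := mul_le_mul h2 h6 (by positivity) h5.le
    _ = e * (2 ^ m * 2 ^ m) := by ring

lemma exists_u {F : ℝ → ℝ} {a : ℝ} (h : AvLe F a) (h0 : ∀ u, 0 ≤ F u) (ha : 0 < a) :
    ∃ u, F u ≤ a := by
  obtain ⟨R, i, -, -, h1⟩ := exists_shift_of_avLe ({()} : Finset Unit) (fun _ => F) (fun _ => a)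
    (fun _ _ => h0) (fun _ _ => ha) (fun _ _ => h) 0
  have := h1 () (mem_singleton_self _)
  rw [card_singleton, Nat.cast_one, one_mul] at this
  exact ⟨_, this⟩

/-- the geometric conditions -/
lemma num_geo (γ g₀ q : ℕ) {N : ℕ} (hN : N = γ + g₀ + q + 12) :
    2 / 2 ^ N + (2 : ℝ) ^ γ / 2 ^ N + 1 / 2 ^ N ≤ 1 / (48 * 2 ^ q) / 2 ^ (g₀ + 2) ∧
    (2 : ℝ) ^ γ / 2 ^ N + 2 ^ γ / 2 ^ N + 1 / 2 ^ N + 1 / 2 ^ N + 1 / 2 ^ N ≤
      1 / (48 * 2 ^ q) / 2 ^ (g₀ + 1) := by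
  have e : (2 : ℝ) ^ N = 2 ^ γ * 2 ^ g₀ * 2 ^ q * 4096 := by
    rw [hN, pow_add, pow_add, pow_add]
    norm_num
  have hγ : (1 : ℝ) ≤ 2 ^ γ := one_le_pow₀ (by norm_num)
  have h1 : (0 : ℝ) < 2 ^ g₀ := by positivity
  have h2 : (0 : ℝ) < 2 ^ q := by positivity
  have h3 : (0 : ℝ) < 2 ^ γ := by positivity
  rw [e]
  constructor
  · rw [← add_div, ← add_div, div_div, div_le_div_iff₀ (by positivity) (by positivity), pow_add]
    have : (2 + 2 ^ γ + 1) * (48 * 2 ^ q * (2 ^ g₀ * 2 ^ 2)) ≤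
        (4 * 2 ^ γ) * (48 * 2 ^ q * (2 ^ g₀ * 2 ^ 2) : ℝ) :=
      mul_le_mul_of_nonneg_right (by linarith) (by positivity)
    refine this.trans ?_
    have h4 : (0 : ℝ) < 2 ^ γ * 2 ^ g₀ * 2 ^ q := by positivity
    nlinarith
  · rw [← add_div, ← add_div, ← add_div, ← add_div, div_div,
      div_le_div_iff₀ (by positivity) (by positivity), pow_add]
    have : (2 ^ γ + 2 ^ γ + 1 + 1 + 1) * (48 * 2 ^ q * (2 ^ g₀ * 2 ^ 1)) ≤
        (5 * 2 ^ γ) * (48 * 2 ^ q * (2 ^ g₀ * 2 ^ 1) : ℝ) :=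
      mul_le_mul_of_nonneg_right (by linarith) (by positivity)
    refine this.trans ?_
    have h4 : (0 : ℝ) < 2 ^ γ * 2 ^ g₀ * 2 ^ q := by positivity
    nlinarith

/-- number of large payments -/
lemma num_big {N Λ g : ℕ} (hg : 4 ≤ g) :
    (N : ℝ) * (Λ * g / log (1 / (2 * (1 / (g : ℝ)))) + 1) ≤
      (N * (2 * Λ + 1) : ℝ) * (1 + g / log g) := by
  have hgr : (4 : ℝ) ≤ g := by exact_mod_cast hg
  have hg0 : (0 : ℝ) < g := by linarith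
  have hlog : 0 < log (g : ℝ) := log_pos (by linarith)
  have e : 1 / (2 * (1 / (g : ℝ))) = g / 2 := by field_simp
  have h1 : log g / 2 ≤ log ((g : ℝ) / 2) := by
    have h2 : (g : ℝ) ≤ (g / 2) ^ 2 := by nlinarith
    have h3 := log_le_log hg0 h2
    rw [log_pow] at h3
    push_cast at h3
    linarith
  rw [e]
  have h2 : Λ * g / log ((g : ℝ) / 2) ≤ 2 * Λ * (g / log g) := by
    have h4 : (0 : ℝ) ≤ Λ * g := by positivity
    calc Λ * g / log ((g : ℝ) / 2) ≤ Λ * g / (log g / 2) :=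
          div_le_div_of_nonneg_left h4 (by positivity) h1
      _ = 2 * Λ * (g / log g) := by field_simp
  have h5 : (0 : ℝ) ≤ g / log g := by positivity
  have h6 : (0 : ℝ) ≤ N := Nat.cast_nonneg N
  have h7 : (0 : ℝ) ≤ Λ := Nat.cast_nonneg Λ
  rw [mul_assoc]
  refine mul_le_mul_of_nonneg_left ?_ h6
  nlinarith

/-- number of small payments -/
lemma num_small {N Λ g : ℕ} (hg : 4 ≤ g) :
    (N : ℝ) * (Λ * g / log (4 / 3) + 1) ≤ (N * (Λ / log (4 / 3) + 1) : ℝ) * g := by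
  have hgr : (4 : ℝ) ≤ g := by exact_mod_cast hg
  have h6 : (0 : ℝ) ≤ N := Nat.cast_nonneg N
  rw [mul_assoc]
  refine mul_le_mul_of_nonneg_left ?_ h6
  have e : ((Λ : ℝ) / log (4 / 3) + 1) * g = Λ * g / log (4 / 3) + g := by ring
  rw [e]
  linarith

/-- the negligible flags -/
lemma num_neg {q N Λ kt g : ℕ} {Lb : ℝ} (hLb : 0 ≤ Lb) (hkt : 4 ≤ kt) (hg : 4 ≤ g) :
    256 * (4 * (2 ^ (q + 6) * (1 / (g : ℝ)) ^ kt) * (N * ((2 * Λ * g : ℕ) + 1)) *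
      (1 + 1 / (1 / (g : ℝ))) * (N * (2 * g * Lb))) ≤
      (256 * (4 * 2 ^ (q + 6) * (N * (2 * Λ + 1)) * 2 * (N * (2 * Lb)))) / g := by
  have hgr : (4 : ℝ) ≤ g := by exact_mod_cast hg
  have hg0 : (0 : ℝ) < g := by linarith
  have hi : (1 : ℝ) / g ≤ 1 := by
    rw [div_le_one hg0]
    linarith
  have h1 : (1 / (g : ℝ)) ^ kt ≤ (1 / (g : ℝ)) ^ 4 :=
    pow_le_pow_of_le_one (by positivity) hi hkt
  have h2 : (((2 * Λ * g : ℕ) : ℝ) + 1) ≤ (2 * Λ + 1) * g := by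
    push_cast
    nlinarith
  have h3 : 1 + 1 / (1 / (g : ℝ)) ≤ 2 * g := by
    rw [one_div_one_div]
    linarith
  have h4 : (0 : ℝ) ≤ ((2 * Λ * g : ℕ) : ℝ) := Nat.cast_nonneg _
  calc 256 * (4 * (2 ^ (q + 6) * (1 / (g : ℝ)) ^ kt) * (N * ((2 * Λ * g : ℕ) + 1)) *
      (1 + 1 / (1 / (g : ℝ))) * (N * (2 * g * Lb)))
      ≤ 256 * (4 * (2 ^ (q + 6) * (1 / (g : ℝ)) ^ 4) * (N * ((2 * Λ + 1) * g)) *
      (2 * g) * (N * (2 * g * Lb))) := by gcongr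
    _ = _ := by
      field_simp

end Vale.Agent.P065.H268
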