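import Vale.Agent.P065.H268.CaseI
import Vale.Agent.P065.H344.LateI

/-!
# P065, case (I), the slope giants: the theorem (helper268)
-/

set_option autoImplicit false

open Finset Real

noncomputable section

namespace Vale.Agent.P065.H268

open Vale.Agent.P065.UB Vale.Agent.P065.Ent Vale.Agent.P065.H154 Vale.Agent.P065.H725
  Vale.Agent.P065.H654

section sys

variable {B₀ Γ s₀ q Λ kt kN : ℕ} {c₂ : ℝ} {n g : ℕ} {S : SysI B₀ Γ s₀ q Λ kt kN c₂ n g} {r₀ : ℝ}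

lemma log_pow_B (B₀ g : ℕ) : log (((B₀ ^ (2 * g) : ℕ) : ℝ)) = 2 * g * log B₀ := by
  push_cast
  rw [log_pow]
  push_cast
  ring

lemma H_W_le (hB : 1 ≤ B₀) : H S.μ (S.F.P.W S.F.n) ≤ 2 * g * log B₀ := by
  have h := H_le_log S.hμ (S.F.P.W S.F.n) (univ.image (S.F.P.W S.F.n))
    (fun ω => mem_image_of_mem _ (mem_univ ω)) (card_pos.2 (univ_nonempty.image _))
  refine h.trans ?_
  rw [← log_pow_B]
  refine log_le_log ?_ (by exact_mod_cast S.leaves)
  exact_mod_cast card_pos.2 (univ_nonempty.image (S.F.P.W S.F.n))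

lemma H_QW_le (L : SGL S r₀) (hB : 1 ≤ B₀) :
    H L.Q (fun a => S.F.P.W S.F.n a.2) ≤ 2 * g * log B₀ := by
  have h := H_le_log L.hQ (fun a => S.F.P.W S.F.n a.2) (univ.image (S.F.P.W S.F.n))
    (fun a => mem_image_of_mem _ (mem_univ a.2)) (card_pos.2 (univ_nonempty.image _))
  refine h.trans ?_
  rw [← log_pow_B]
  refine log_le_log ?_ (by exact_mod_cast S.leaves)
  exact_mod_cast card_pos.2 (univ_nonempty.image (S.F.P.W S.F.n))

lemma Hc_x_le (L : SGL S r₀) (hB : 1 ≤ B₀) {β : Type*} (Y : S.p.Col × S.Ω → β) :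
    Hc L.Q (fun a => (S.F.P.x a.2, Y a)) Y ≤ 2 * g * log B₀ := by
  have e1 : Hc L.Q (fun a => (S.F.P.x a.2, Y a)) Y = H L.Q (fun a => (S.F.P.x a.2, Y a)) - H L.Q Y :=
    Hc_eq (Det.refl _) (det_snd _ _) (det_fst _ _)
  have e2 : Hc L.Q (fun a => S.F.P.x a.2) Y = H L.Q (fun a => (S.F.P.x a.2, Y a)) - H L.Q Y :=
    Hc_eq (det_fst _ _) (det_snd _ _) (Det.refl _)
  rw [e1, ← e2]
  refine (Hc_le_H L.hQ _ _).trans ((H_mono L.hQ ?_).trans (H_QW_le L hB))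
  intro a a' h
  exact S.F.xW _ _ h

lemma Hc_D_le' (L : SGL S r₀) (hB : 1 ≤ B₀) (u : ℝ) (T : ℕ) {β : Type*} (Y : S.p.Col × S.Ω → β) :
    Hc L.Q (fun a => S.F.D u T a.2) Y ≤ 2 * g * log B₀ := by
  refine (Hc_le_H L.hQ _ _).trans ((H_mono L.hQ ?_).trans (H_QW_le L hB))
  intro a a' h
  exact S.F.D_of_x (S.F.xW _ _ h)

open Classical in
lemma card_late_le (F : Fr S.Ω) (p : Prm) (P₁ T : ℕ) (a : p.Col × S.Ω) :
    #{t ∈ range T | H700.SG.LateC F p P₁ t a} ≤ P₁ := by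
  have h : {t ∈ range T | H700.SG.LateC F p P₁ t a} ⊆ Ico (F.T' a.2 - P₁) (F.T' a.2) := by
    intro t ht
    obtain ⟨h1, h2⟩ := (mem_filter.1 ht).2
    rw [mem_Ico]
    omega
  refine (card_le_card h).trans ?_
  rw [Nat.card_Ico]
  omega

end sys

open Classical in
/-- **case (I) is impossible** -/
theorem caseI : H725.CaseI := by
  intro B₀ q c₂ hB₀ hc₂
  set e : ℝ := c₂ / 20 with he_def
  have he : 0 < e := by positivity
  set Lb : ℝ := log B₀ with hLb_def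
  have hLb : 0 ≤ Lb := log_nonneg (by exact_mod_cast (by omega : 1 ≤ B₀))
  obtain ⟨γ, hγ⟩ := exists_gam he (L := 2 * Lb) (by positivity)
  obtain ⟨g₀, hg₀2, hg₀⟩ := exists_win (half_pos he) (L := 2 * Lb) (by positivity)
  obtain ⟨N, hN⟩ : ∃ N : ℕ, N = γ + g₀ + q + 12 := ⟨_, rfl⟩
  obtain ⟨n1, n2⟩ := num_geo γ g₀ q hN
  refine ⟨γ, 0, fun Γ hΓ s₀ _ Λ => ⟨4, fun kt hkt => ⟨2, fun kN hkN => ?_⟩⟩⟩
  obtain ⟨r₀, g₁, hr₀, hSGL⟩ := exists_SGL q Λ
  obtain ⟨g₂, hlate⟩ := H344.late_sum B₀ Λ N kN (by omega) hkN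
  have hl43 : 0 < log (4 / 3 : ℝ) := log_pos (by norm_num)
  obtain ⟨g₃, hclose⟩ := H60.sg_close (c₂ := c₂) (e := e) he (by rw [he_def]; linarith) hB₀
    (Cb := N * (2 * Λ + 1)) (Cs := N * (Λ / log (4 / 3) + 1))
    (Cn := 256 * (4 * 2 ^ (q + 6) * (N * (2 * Λ + 1)) * 2 * (N * (2 * Lb))))
    (N * (3 * kN + 13) + 2 * B₀ + 1) r₀ (N : ℝ) (by positivity) (by positivity)
  refine ⟨max (max g₁ g₂) (max g₃ 6), fun n g hg S => ?_⟩
  have hgg₁ : g₁ ≤ g := ((le_max_left _ _).trans (le_max_left _ _)).trans hg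
  have hgg₂ : g₂ ≤ g := ((le_max_right _ _).trans (le_max_left _ _)).trans hg
  have hgg₃ : g₃ ≤ g := ((le_max_left _ _).trans (le_max_right _ _)).trans hg
  have hg6 : 6 ≤ g := ((le_max_right _ _).trans (le_max_right _ _)).trans hg
  have hgr : (6 : ℝ) ≤ g := by exact_mod_cast hg6
  have hg0 : (0 : ℝ) < g := by linarith
  obtain ⟨L⟩ := hSGL kt (by omega) g hgg₁ B₀ Γ s₀ kN c₂ n S
  have hB1 : 1 ≤ B₀ := by omega
  set T : ℕ := S.F.P.T with hT
  set Y : S.p.Col × S.Ω → S.p.Col × Pt := fun a => (a.1, S.ln a.2) with hY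
  -- the time shift
  have hav := avLe_ncutY (F := S.F) (p := S.p) L.hQ Y hg₀2 T (ε := e / 2 * g) (by positivity)
  have hHx := Hc_x_le L hB1 Y
  have hHx0 : 0 ≤ Hc L.Q (fun a => (S.F.P.x a.2, Y a)) Y := Hc_nonneg L.hQ _ _
  obtain ⟨u, hu⟩ := exists_u hav (fun u => ncutY_nonneg L.hQ Y g₀ T u) (by positivity)
  have hu' : ncutY S.F S.p L.Q Y g₀ T u ≤ e * g := by
    refine hu.trans ?_
    have h1 : 2 / 2 ^ g₀ * ((g₀ : ℝ) + 2) * Hc L.Q (fun a => (S.F.P.x a.2, Y a)) Y ≤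
        2 / 2 ^ g₀ * ((g₀ : ℝ) + 2) * (2 * g * Lb) :=
      mul_le_mul_of_nonneg_left hHx (by positivity)
    have h2 : 2 / 2 ^ g₀ * ((g₀ : ℝ) + 2) * (2 * g * Lb) =
        2 / 2 ^ g₀ * ((g₀ : ℝ) + 2) * (2 * Lb) * g := by ring
    have h3 := mul_le_mul_of_nonneg_right hg₀ hg0.le
    linarith
  have hrow : 11 / 2 ^ γ * Hc L.Q (fun a => S.F.D u T a.2) (fun a => (S.F.D u 0 a.2, Y a)) ≤
      e * g := by
    have h1 := Hc_D_le' L hB1 u T (fun a => (S.F.D u 0 a.2, Y a))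
    have h2 : 11 / 2 ^ γ * Hc L.Q (fun a => S.F.D u T a.2) (fun a => (S.F.D u 0 a.2, Y a)) ≤
        11 / 2 ^ γ * (2 * g * Lb) := mul_le_mul_of_nonneg_left h1 (by positivity)
    have h3 := mul_le_mul_of_nonneg_right hγ hg0.le
    have h4 : 11 / 2 ^ γ * (2 * Lb) * (g : ℝ) = 11 / 2 ^ γ * (2 * g * Lb) := by ring
    linarith
  -- the offset of the cells of lines
  obtain ⟨v, hv⟩ := exists_RNL S.F S.ln L.hQ u γ T Y
  -- the most likely cells
  have hx := fun t => exists_x0 S.μ (S.F.D u (t + N)) (S.F.D u t)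
  choose x0 hx0 hmax using hx
  have hi1 : (1 : ℝ) / g ≤ 1 / 6 := one_div_le_one_div_of_le (by norm_num) hgr
  have hi0 : (0 : ℝ) < 1 / g := by positivity
  have hτ1 : (1 / (g : ℝ)) ^ kt ≤ 1 / 2 := by
    calc (1 / (g : ℝ)) ^ kt ≤ (1 / (g : ℝ)) ^ 1 :=
          pow_le_pow_of_le_one hi0.le (by linarith) (by omega)
      _ ≤ 1 / 2 := by rw [pow_one]; linarith
  have hMT : S.F.Tm ≤ S.p.M := SysI_Tm_le S
  have hΓγ : γ ≤ S.p.Γ := hΓ.trans S.Γ_le
  have hthr0 : (0 : ℝ) < exp (-(Λ * g)) := exp_pos _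
  have hthr1 : exp (-(Λ * g : ℝ)) ≤ 1 := by
    rw [exp_le_one_iff]
    have : (0 : ℝ) ≤ Λ * g := by positivity
    linarith
  have hlthr : log (1 / exp (-(Λ * g : ℝ))) = Λ * g := by
    rw [one_div, log_inv, log_exp, neg_neg]
  refine hclose g hgg₃ L.hQ (fun t a => S.F.D u t a.2) (fun t a b h => S.F.D_det u t _ _ h) Y T
    (fun t a => H700.SG.ExcC S.F S.ln S.p u γ g₀ v t a)
    (fun t a => H700.SG.LateC S.F S.p N t a ∨
      H700.SG.Neg0 S.F S.ln S.p S.lam S.μ u γ N N v (1 / (48 * 2 ^ q)) N x0 (1 / g) t a)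
    (fun t a => H700.SG.LateC S.F S.p N t a)
    (fun t a => H700.SG.NL S.F S.ln S.p u γ v t a)
    (fun t a => H700.SG.NR S.F S.ln S.p u γ t a)
    (fun t a => nearU u g₀ t (S.F.P.x a.2))
    (fun t a => H700.SG.Neg0 S.F S.ln S.p S.lam S.μ u γ N N v (1 / (48 * 2 ^ q)) N x0 (1 / g) t a)
    (fun t a => H700.SG.BigC S.F S.ln S.p S.μ u γ N (1 / g) t a)
    (fun t a => H700.SG.SmallC S.F S.ln S.p S.μ u γ N t a)
    ?_ ?_ ?_ ?_ ?_ ?_ ?_ ?_ ?_ ?_ ?_ ?_ ?_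
  · -- exceptional
    intro t a h
    rcases h with h | h | h
    · exact Or.inr (Or.inl h)
    · exact Or.inl h
    · exact Or.inr (Or.inr h)
  · intro t a h
    exact h
  · refine (card_le_card fun x hx => ?_).trans (L.leaves u T)
    obtain ⟨a, _, ha⟩ := (@mem_image _ _ (_) _ _ _).1 hx
    exact mem_image.2 ⟨a, mem_univ a, ha⟩
  · exact L.growth u S.F.Tm_le
  · -- the trichotomy
    intro t _ a₀ ha₀
    exact H700.SG.trichotomy (F := S.F) (ln := S.ln) (lam := S.lam) (q := L.Q) S.hμ hx0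
      (by positivity) (by omega) (by omega) le_rfl (by omega) (by omega) hi0.le
      (hi1.trans (by norm_num)) n1 n2
      (fun a ha => ⟨L.pos ha, L.far_half (by omega) (by omega) ha⟩) t a₀ ha₀
  · intro a _
    exact_mod_cast card_late_le S.F S.p N T a
  · exact hlate Γ s₀ q kt c₂ n g hgg₂ S r₀ L u T
  · exact hv.trans hrow
  · exact (RNR_content L.hQ L.per hMT u hΓγ T).trans hrow
  · refine le_trans (le_of_eq ?_) hu'
    rw [ncutY_eq]
    refine sum_congr rfl fun t _ => sum_congr rfl fun a _ => ?_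
    by_cases h : nearU u g₀ t (S.F.P.x a.2)
    · rw [if_pos h, if_pos h]
    · rw [if_neg h, if_neg h]
  · -- negligible flags
    have hE : (1 / 2 : ℝ) ^ (2 * Λ * g) ≤ exp (-(Λ * g)) := by
      rw [← exp_log (show (0 : ℝ) < (1 / 2) ^ (2 * Λ * g) by positivity), exp_le_exp, log_pow]
      push_cast
      have h2 : log (1 / 2 : ℝ) ≤ -(1 / 2) := by
        rw [one_div, log_inv]
        have := Real.log_two_gt_d9
        linarith
      have h3 : (0 : ℝ) ≤ Λ * g := by positivity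
      nlinarith
    have h := neg_sum (F := S.F) (ln := S.ln) (lam := S.lam) S.hμ (Q := L.Q) (d := 256)
      (by norm_num) L.le (a := L.a) L.hQ.nonneg (fun h => L.sy h) (fun h => L.bb h)
      (q := q) (τ := (1 / (g : ℝ)) ^ kt) (by positivity) hτ1 (fun h => L.gi h)
      (E := 2 * Λ * g) (fun h => hE.trans (L.thr h)) (u := u) (v := v) (γ := γ) (P' := N) (s := N)
      (P₁ := N) (by omega) (x0 := x0) (τ₁ := 1 / g) hi0 hx0 hmax T (H_W_le hB1)
    exact h.trans (num_neg hLb hkt (by omega))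
  · intro a ha
    have h := H700.SG.card_Big_le (lam := S.lam) S.hμ u γ (s := N) (by omega) hi0
      (by linarith) hthr0 hthr1 T a (L.thr ha)
    rw [hlthr] at h
    exact h.trans (num_big (by omega))
  · intro a ha
    have h := H700.SG.card_Small_le (lam := S.lam) S.hμ u γ (s := N) (by omega) hthr0 hthr1 T a
      (L.thr ha)
    rw [hlthr] at h
    exact h.trans (num_small (by omega))

end Vale.Agent.P065.H268
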