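import Vale.Agent.P065.H587.Ent

/-!
# P065: the maximal inequality for nested cells (helper268)
-/

set_option autoImplicit false

open Finset Real

noncomputable section

namespace Vale.Agent.P065.H268

open Vale.Agent.P065.Ent

variable {Ω : Type*} [Fintype Ω] {α β γ : Type*} {μ : Ω → ℝ}

open Classical in
/-- the mass of an event -/
def ms (μ : Ω → ℝ) (E : Ω → Prop) : ℝ := ∑ ω, if E ω then μ ω else 0

open Classical in
/-- the mass of the event `E` inside the cell of `X` at `ω` -/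
def msc (μ : Ω → ℝ) (E : Ω → Prop) (X : Ω → α) (ω : Ω) : ℝ :=
  ∑ ω', if X ω' = X ω ∧ E ω' then μ ω' else 0

lemma ms_nonneg' (hμ : ∀ ω, 0 ≤ μ ω) (E : Ω → Prop) : 0 ≤ ms μ E := by
  classical
  unfold ms
  refine sum_nonneg fun ω _ => ?_
  split_ifs
  · exact hμ ω
  · exact le_rfl

lemma ms_mono' (hμ : ∀ ω, 0 ≤ μ ω) {E F : Ω → Prop} (h : ∀ ω, E ω → F ω) : ms μ E ≤ ms μ F := by
  classical
  unfold ms
  refine sum_le_sum fun ω _ => ?_
  by_cases hE : E ω
  · rw [if_pos hE, if_pos (h ω hE)]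
  · rw [if_neg hE]
    split_ifs
    · exact hμ ω
    · exact le_rfl

lemma msc_nonneg (hμ : ∀ ω, 0 ≤ μ ω) (E : Ω → Prop) (X : Ω → α) (ω : Ω) : 0 ≤ msc μ E X ω := by
  classical
  unfold msc
  refine sum_nonneg fun ω _ => ?_
  split_ifs
  · exact hμ ω
  · exact le_rfl

lemma msc_congr {E : Ω → Prop} {X : Ω → α} {ω ω' : Ω} (h : X ω = X ω') :
    msc μ E X ω = msc μ E X ω' := by
  unfold msc
  rw [h]

/-- averaging over the cells of `X`: if in every cell of the set `B` (a union of cells) the event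
`E` has relative mass at least `τ`, then the mass of `B` is at most `1 / τ` times the mass of `E`
in `B` -/
lemma ms_le_of_cells (E B : Ω → Prop) (X : Ω → α)
    (hB : Det X B) {τ : ℝ} (h : ∀ ω, B ω → τ * Pr μ X (X ω) ≤ msc μ E X ω) :
    τ * ms μ B ≤ ms μ (fun ω => B ω ∧ E ω) := by
  classical
  -- both sides as sums over cells
  have h1 : ms μ B = ∑ x ∈ univ.image X, ∑ ω, if X ω = x ∧ B ω then μ ω else 0 := by
    unfold ms
    rw [sum_comm]
    refine sum_congr rfl fun ω _ => ?_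
    by_cases hb : B ω
    · simp only [hb, and_true, if_true]
      rw [sum_ite_eq, if_pos (mem_image_of_mem X (mem_univ ω))]
    · simp [hb]
  have h2 : ms μ (fun ω => B ω ∧ E ω) =
      ∑ x ∈ univ.image X, ∑ ω, if X ω = x ∧ (B ω ∧ E ω) then μ ω else 0 := by
    unfold ms
    rw [sum_comm]
    refine sum_congr rfl fun ω _ => ?_
    by_cases hb : B ω ∧ E ω
    · simp only [hb, and_true, if_true]
      rw [sum_ite_eq, if_pos (mem_image_of_mem X (mem_univ ω))]
    · simp [hb]
  rw [h1, h2, mul_sum]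
  refine sum_le_sum fun x hx => ?_
  obtain ⟨ω0, -, rfl⟩ := mem_image.mp hx
  by_cases hb : B ω0
  · have e1 : (∑ ω, if X ω = X ω0 ∧ B ω then μ ω else 0) = Pr μ X (X ω0) := by
      unfold Pr
      refine sum_congr rfl fun ω _ => ?_
      by_cases hx : X ω = X ω0
      · have : B ω := by rw [hB _ _ hx]; exact hb
        simp [hx, this]
      · simp [hx]
    have e2 : (∑ ω, if X ω = X ω0 ∧ (B ω ∧ E ω) then μ ω else 0) = msc μ E X ω0 := by
      unfold msc
      refine sum_congr rfl fun ω _ => ?_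
      by_cases hx : X ω = X ω0
      · have : B ω := by rw [hB _ _ hx]; exact hb
        simp [hx, this]
      · simp [hx]
    rw [e1, e2]
    exact h ω0 hb
  · have e0 : ∀ ω, ¬ (X ω = X ω0 ∧ B ω) := by
      rintro ω ⟨e, e'⟩
      exact hb (by rw [← hB _ _ e]; exact e')
    have e1 : (∑ ω, if X ω = X ω0 ∧ B ω then μ ω else 0) = 0 :=
      sum_eq_zero fun ω _ => if_neg (e0 ω)
    have e2 : (∑ ω, if X ω = X ω0 ∧ (B ω ∧ E ω) then μ ω else 0) = 0 :=
      sum_eq_zero fun ω _ => if_neg fun h => e0 ω ⟨h.1, h.2.1⟩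
    rw [e1, e2, mul_zero]

/-- **the maximal inequality** for a nested family of cells: the flags which have a cell `L k`
where the event `E` has relative mass at least `τ` -/
theorem maximal (hμ : ∀ ω, 0 ≤ μ ω) {δ : ℕ → Type*} (L : ∀ k, Ω → δ k)
    (hL : ∀ k, Det (L (k + 1)) (L k)) (E : Ω → Prop) {τ : ℝ} (hτ : 0 < τ) :
    ms μ (fun ω => ∃ k, τ * Pr μ (L k) (L k ω) ≤ msc μ E (L k) ω) ≤ ms μ E / τ := by
  classical
  have hdet : ∀ j k, j ≤ k → Det (L k) (L j) := by
    intro j k h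
    induction k, h using Nat.le_induction with
    | base => exact Det.refl _
    | succ k _ ih => exact (hL k).trans ih
  set G : ℕ → Ω → Prop := fun k ω => τ * Pr μ (L k) (L k ω) ≤ msc μ E (L k) ω with hG
  have hGd : ∀ k, Det (L k) (G k) := by
    intro k ω ω' e
    simp only [hG]
    rw [e, msc_congr e]
  set B : ℕ → Ω → Prop := fun k ω => G k ω ∧ ∀ j < k, ¬ G j ω with hB
  have hBd : ∀ k, Det (L k) (B k) := by
    intro k ω ω' e
    have e1 : G k ω = G k ω' := hGd k ω ω' e
    have e2 : ∀ j < k, G j ω = G j ω' := fun j hj => hGd j ω ω' (hdet j k hj.le ω ω' e)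
    simp only [hB]
    rw [e1]
    refine congrArg _ (forall_congr fun j => forall_congr fun hj => ?_)
    rw [e2 j hj]
  have hone : ∀ k, τ * ms μ (B k) ≤ ms μ (fun ω => B k ω ∧ E ω) := fun k =>
    ms_le_of_cells E (B k) (L k) (hBd k) fun ω h => h.1
  -- the first index
  have hdisj : ∀ ω i j, B i ω → B j ω → i = j := by
    intro ω i j hi hj
    rcases lt_trichotomy i j with h | h | h
    · exact absurd hi.1 (hj.2 i h)
    · exact h
    · exact absurd hj.1 (hi.2 j h)
  have hfirst : ∀ ω, (∃ k, G k ω) → ∃ k, B k ω := by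
    intro ω h
    exact ⟨Nat.find h, Nat.find_spec h, fun j hj => Nat.find_min h hj⟩
  -- a bound for the first index, uniform in the flag
  have hbd : ∃ N : ℕ, ∀ ω k, B k ω → k < N := by
    have : ∀ ω : Ω, ∃ N, ∀ k, B k ω → k < N := by
      intro ω
      by_cases h : ∃ k, B k ω
      · obtain ⟨k, hk⟩ := h
        exact ⟨k + 1, fun j hj => by rw [hdisj ω j k hj hk]; exact Nat.lt_succ_self k⟩
      · exact ⟨0, fun k hk => absurd ⟨k, hk⟩ h⟩
    choose N hN using this
    refine ⟨univ.sup N, fun ω k hk => lt_of_lt_of_le (hN ω k hk) (le_sup (mem_univ ω))⟩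
  obtain ⟨N, hN⟩ := hbd
  rw [le_div_iff₀ hτ]
  have h1 : ms μ (fun ω => ∃ k, G k ω) ≤ ∑ k ∈ range N, ms μ (B k) := by
    unfold ms
    rw [sum_comm]
    refine sum_le_sum fun ω _ => ?_
    by_cases h : ∃ k, G k ω
    · obtain ⟨k, hk⟩ := hfirst ω h
      rw [if_pos h]
      refine le_trans (le_of_eq ?_) (single_le_sum (fun j _ => ?_) (mem_range.mpr (hN ω k hk)))
      · rw [if_pos hk]
      · split_ifs
        · exact hμ ω
        · exact le_rfl
    · rw [if_neg h]
      refine sum_nonneg fun j _ => ?_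
      split_ifs
      · exact hμ ω
      · exact le_rfl
  have h2 : ∑ k ∈ range N, ms μ (fun ω => B k ω ∧ E ω) ≤ ms μ E := by
    unfold ms
    rw [sum_comm]
    refine sum_le_sum fun ω _ => ?_
    by_cases hE : E ω
    · by_cases h : ∃ k ∈ range N, B k ω
      · obtain ⟨k, hkN, hk⟩ := h
        rw [sum_eq_single_of_mem k hkN]
        · simp [hk, hE]
        · intro j _ hjk
          exact if_neg fun h => hjk (hdisj ω j k h.1 hk)
      · rw [if_pos hE]
        refine (le_of_eq (sum_eq_zero fun j hj => if_neg fun h' => h ⟨j, hj, h'.1⟩)).trans (hμ ω)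
    · rw [if_neg hE]
      exact le_of_eq (sum_eq_zero fun j _ => if_neg fun h' => hE h'.2)
  calc ms μ (fun ω => ∃ k, G k ω) * τ ≤ (∑ k ∈ range N, ms μ (B k)) * τ :=
        mul_le_mul_of_nonneg_right h1 hτ.le
    _ = ∑ k ∈ range N, τ * ms μ (B k) := by rw [sum_mul]; exact sum_congr rfl fun k _ => mul_comm _ _
    _ ≤ ∑ k ∈ range N, ms μ (fun ω => B k ω ∧ E ω) := sum_le_sum fun k _ => hone k
    _ ≤ ms μ E := h2

end Vale.Agent.P065.H268
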