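import Vale.Agent.P065.H268.TimeCutE

/-!
# P065: the near-cut content with the ends of the cells (helper268)

`nearB u g t x` : the point is within `2 ^ (-g)` (relative) of the midpoint or of an end of its
dyadic cell of scale `t` (shift `u`).
-/

set_option autoImplicit false

open Finset Real

noncomputable section

namespace Vale.Agent.P065.H268

open Vale.Agent.P065.UB Vale.Agent.P065.Ent Vale.Agent.P065.H154

/-- the point is close to an end of its cell of scale `t` -/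
def nearEU (u : ℝ) (g t : ℕ) (x : ℝ) : Prop :=
  cellU u (t + g) x % 2 ^ g = 0 ∨ cellU u (t + g) x % 2 ^ g = 2 ^ g - 1

instance (u : ℝ) (g t : ℕ) (x : ℝ) : Decidable (nearEU u g t x) := by
  unfold nearEU; infer_instance

lemma nearEU_sh (R i g t : ℕ) (x : ℝ) : nearEU (sh R i) g t x ↔ nearE R i g t x := Iff.rfl

/-- the point is close to the midpoint or to an end of its cell of scale `t` -/
def nearB (u : ℝ) (g t : ℕ) (x : ℝ) : Prop := nearU u g t x ∨ nearEU u g t x

instance (u : ℝ) (g t : ℕ) (x : ℝ) : Decidable (nearB u g t x) := by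
  unfold nearB; infer_instance

lemma cellU_div (u : ℝ) (t n : ℕ) (x : ℝ) : cellU u t x = cellU u (t + n) x / 2 ^ n := by
  induction n with
  | zero => simp
  | succ n ih =>
    rw [ih, cellU_nest u (t + n), pow_succ', Int.ediv_ediv_of_nonneg (by norm_num), add_assoc]

/-- a point which is not close to the ends is far from the other cells -/
lemma abs_lt_of_cellU_ne {u : ℝ} {g t : ℕ} {x y : ℝ} (h : ¬ nearEU u g t x)
    (hne : cellU u t y ≠ cellU u t x) : 1 / 2 ^ (t + g) ≤ |y - x| := by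
  by_contra hlt
  push Not at hlt
  apply hne
  unfold nearEU at h
  push Not at h
  set c := cellU u (t + g) x with hc
  set c' := cellU u (t + g) y with hc'
  have hp : (0 : ℝ) < 2 ^ (t + g) := by positivity
  rw [abs_lt] at hlt
  have e1 : (2 : ℝ) ^ (t + g) * (y - x) < 1 := by
    calc (2 : ℝ) ^ (t + g) * (y - x) < 2 ^ (t + g) * (1 / 2 ^ (t + g)) :=
          mul_lt_mul_of_pos_left hlt.2 hp
      _ = 1 := by field_simp
  have e2 : (2 : ℝ) ^ (t + g) * (x - y) < 1 := by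
    calc (2 : ℝ) ^ (t + g) * (x - y) < 2 ^ (t + g) * (1 / 2 ^ (t + g)) :=
          mul_lt_mul_of_pos_left (by linarith [hlt.1]) hp
      _ = 1 := by field_simp
  have h4 : c' ≤ c + 1 := by
    rw [hc, hc']
    unfold cellU
    rw [← Int.floor_add_one]
    apply Int.floor_mono
    linarith
  have h5 : c ≤ c' + 1 := by
    rw [hc, hc']
    unfold cellU
    rw [← Int.floor_add_one]
    apply Int.floor_mono
    linarith
  have hx : cellU u t x = c / 2 ^ g := by
    rw [hc, ← cellU_div u t g x]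
  have hy : cellU u t y = c' / 2 ^ g := by
    rw [hc', ← cellU_div u t g y]
  rw [hx, hy]
  have hA : (0 : ℤ) < 2 ^ g := by positivity
  have h6 := Int.emod_nonneg c hA.ne'
  have h7 := Int.emod_lt_of_pos c hA
  have h8 := Int.mul_ediv_add_emod c (2 ^ g)
  have h9 : c' / 2 ^ g = c / 2 ^ g := by
    apply le_antisymm
    · rw [← Int.lt_add_one_iff, Int.ediv_lt_iff_lt_mul hA]
      have : (c / 2 ^ g + 1) * 2 ^ g = 2 ^ g * (c / 2 ^ g) + 2 ^ g := by ring
      omega
    · rw [Int.le_ediv_iff_mul_le hA]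
      have : c / 2 ^ g * 2 ^ g = 2 ^ g * (c / 2 ^ g) := by ring
      omega
  exact h9

variable {Ω : Type*} [Fintype Ω] {α γ : Type*} {β : ℕ → Type*}

/-- the near content for any family of `near` conditions, as an average over the shifts -/
theorem avLe_nr {nr : ℕ → ℕ → ℕ → ℕ → ℝ → Prop} (hnr : NearFam nr) {nrU : ℝ → ℕ → ℕ → ℝ → Prop}
    [∀ u g t x, Decidable (nrU u g t x)] (hU : ∀ R i g t x, nrU (sh R i) g t x ↔ nr R i g t x)
    {μ : Ω → ℝ} {x : Ω → ℝ} {N : ∀ t, Ω → β t} {ρ : Ω → α} {c : Ω → γ}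
    (hμ : IsProb μ) (hN : ∀ t, Det (N (t + 1)) (N t)) (hx : Det ρ x)
    (hρ : ∀ t, Det ρ (N t)) (hc : Det (N 0) c) {g : ℕ} (hg : 2 ≤ g) (T : ℕ) {ε : ℝ} (hε : 0 < ε) :
    AvLe (fun u => ∑ ω, μ ω * ∑ t ∈ range T, (if nrU u g t (x ω) then supU u μ x N t ω else 0))
      (2 / 2 ^ g * (g + 2) * Hc μ ρ c + ε) := by
  classical
  have hH := H_nonneg hμ ρ
  obtain ⟨K, hK⟩ := exists_nat_gt ((T : ℝ) * H μ ρ / ε)
  have h2K : (T : ℝ) / 2 ^ (g + K) * H μ ρ ≤ ε := by
    have h1 : (K : ℝ) < 2 ^ K := by exact_mod_cast Nat.lt_two_pow_self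
    have h2 : (2 : ℝ) ^ K ≤ 2 ^ (g + K) := pow_le_pow_right₀ (by norm_num) (by omega)
    rw [div_mul_eq_mul_div, div_le_iff₀ (by positivity)]
    rw [div_lt_iff₀ hε] at hK
    nlinarith
  refine ⟨T + (g + 1 + K), fun R hR => ?_⟩
  have e : ∑ i ∈ range (2 ^ R), ∑ ω, μ ω * ∑ t ∈ range T,
      (if nrU (sh R i) g t (x ω) then supU (sh R i) μ x N t ω else 0) =
      ∑ i ∈ range (2 ^ R), ∑ ω, μ ω * ∑ t ∈ range T,
      (if nr R i g t (x ω) then H154.sup R i μ x N t ω else 0) := by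
    refine sum_congr rfl fun i _ => sum_congr rfl fun ω _ => ?_
    congr 1
    refine sum_congr rfl fun t _ => ?_
    by_cases h : nr R i g t (x ω)
    · rw [if_pos h, if_pos ((hU _ _ _ _ _).2 h)]
      rfl
    · rw [if_neg h, if_neg fun h' => h ((hU _ _ _ _ _).1 h')]
  simp only []
  rw [e]
  refine (nr_content hnr hμ hN hx hρ hc hg hR).trans ?_
  exact mul_le_mul_of_nonneg_left (by linarith) (by positivity)

/-- **the near-cut content, midpoints and ends** -/
theorem avLe_nearB {μ : Ω → ℝ} {x : Ω → ℝ} {N : ∀ t, Ω → β t} {ρ : Ω → α} {c : Ω → γ}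
    (hμ : IsProb μ) (hN : ∀ t, Det (N (t + 1)) (N t)) (hx : Det ρ x)
    (hρ : ∀ t, Det ρ (N t)) (hc : Det (N 0) c) {g : ℕ} (hg : 2 ≤ g) (T : ℕ) {ε : ℝ} (hε : 0 < ε) :
    AvLe (fun u => ∑ ω, μ ω * ∑ t ∈ range T, (if nearB u g t (x ω) then supU u μ x N t ω else 0))
      (2 * (2 / 2 ^ g * (g + 2) * Hc μ ρ c) + ε) := by
  have h1 := avLe_nr nearFam_near (nrU := nearU) (fun _ _ _ _ _ => Iff.rfl) hμ hN hx hρ hc hg T
    (half_pos hε)
  have h2 := avLe_nr nearFam_nearE (nrU := nearEU) (fun _ _ _ _ _ => Iff.rfl) hμ hN hx hρ hc hg T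
    (half_pos hε)
  refine (h1.add h2).mono (fun u => ?_) (le_of_eq (by ring))
  rw [← sum_add_distrib]
  refine sum_le_sum fun ω _ => ?_
  rcases (hμ.nonneg ω).eq_or_lt with h0 | h0
  · rw [← h0]; simp
  · rw [← mul_add, ← sum_add_distrib]
    refine mul_le_mul_of_nonneg_left (sum_le_sum fun t _ => ?_) h0.le
    have hs := supU_nonneg hμ u x N t h0
    by_cases ha : nearU u g t (x ω)
    · have hB : nearB u g t (x ω) := Or.inl ha
      rw [if_pos hB, if_pos ha]
      split_ifs <;> linarith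
    · by_cases hb : nearEU u g t (x ω)
      · have hB : nearB u g t (x ω) := Or.inr hb
        rw [if_pos hB, if_neg ha, if_pos hb]
        linarith
      · have hB : ¬ nearB u g t (x ω) := not_or.2 ⟨ha, hb⟩
        rw [if_neg hB, if_neg ha, if_neg hb]
        linarith

section frame

variable (F : Fr Ω) (ln : Ω → Pt) (p : Prm) {Lab : Type*}

open Classical in
/-- the near-cut content of the boxes `Rt`, midpoints and ends -/
def ncutB (Q : p.Col × Ω → ℝ) (γ g T s : ℕ) (u : ℝ) : ℝ :=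
  ∑ q, Q q * ∑ t ∈ range T, (if nearB u g t (F.P.x q.2) then
    -log (Avg.ka ((F.Q u s).pull (Prod.snd : p.Col × Ω → Ω)) Q (Rt F ln p u γ) t q) else 0)

variable {F ln p}

lemma ncutB_nonneg {Q : p.Col × Ω → ℝ} (hQ : IsProb Q) (γ g T s : ℕ) (u : ℝ) :
    0 ≤ ncutB F ln p Q γ g T s u := by
  refine sum_nonneg fun q _ => mul_nonneg (hQ.nonneg q) (sum_nonneg fun t _ => ?_)
  split_ifs
  · have h1 := Avg.ka_le_one (P := (F.Q u s).pull (Prod.snd : p.Col × Ω → Ω))
      (R := Rt F ln p u γ) hQ t q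
    have h0 : 0 ≤ Avg.ka ((F.Q u s).pull (Prod.snd : p.Col × Ω → Ω)) Q (Rt F ln p u γ) t q :=
      div_nonneg (Pr_nonneg hQ _ _) (Pr_nonneg hQ _ _)
    have := log_nonpos h0 h1
    linarith
  · exact le_rfl

/-- **the near-cut content of the boxes has a small average** over the time shifts -/
theorem avLe_ncutB {Q : p.Col × Ω → ℝ} (hQ : IsProb Q) (lam : Ω → Lab) (γ : ℕ) {g : ℕ}
    (hg : 2 ≤ g) (T s : ℕ) {ε : ℝ} (hε : 0 < ε) :
    AvLe (ncutB F ln p Q γ g T s)
      (2 * (2 / 2 ^ g * (g + 2) * Hc Q (rb F ln p lam) (fun q : p.Col × Ω => q.1)) + ε) := by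
  classical
  have h := avLe_nearB (μ := Q) (x := fun q : p.Col × Ω => F.P.x q.2) (N := lab F ln p γ)
    (ρ := rb F ln p lam) (c := fun q : p.Col × Ω => q.1) hQ (lab_det γ) rb_x (rb_lab γ)
    (lab_col γ) hg T hε
  refine h.mono (fun u => ?_) le_rfl
  unfold ncutB
  refine sum_le_sum fun q _ => ?_
  rcases (hQ.nonneg q).eq_or_lt with h0 | h0
  · rw [← h0, zero_mul, zero_mul]
  · refine mul_le_mul_of_nonneg_left (sum_le_sum fun t _ => ?_) h0.le
    by_cases h1 : nearB u g t (F.P.x q.2)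
    · rw [if_pos h1, if_pos h1, neg_log_ka hQ u s γ t h0]
    · rw [if_neg h1, if_neg h1]

open Classical in
/-- **small shares near the midpoint or the ends are rare** -/
theorem thick_nearB_le {Q : p.Col × Ω → ℝ} (hQ : IsProb Q) (th : ℕ → p.Col × Ω → Prop)
    (γ g T s : ℕ) (u : ℝ) {ps : ℝ} (hps : 0 < ps)
    (hth : ∀ t < T, ∀ q, 0 < Q q → th t q →
      Avg.ka ((F.Q u s).pull (Prod.snd : p.Col × Ω → Ω)) Q (Rt F ln p u γ) t q ≤ 1 - ps) :
    ∑ q, Q q * #{t ∈ range T | th t q ∧ nearB u g t (F.P.x q.2)} ≤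
      ncutB F ln p Q γ g T s u / ps := by
  rw [le_div_iff₀ hps]
  unfold ncutB
  rw [sum_mul]
  refine sum_le_sum fun q _ => ?_
  rcases (hQ.nonneg q).eq_or_lt with h0 | h0
  · rw [← h0]; simp
  · rw [mul_assoc]
    refine mul_le_mul_of_nonneg_left ?_ h0.le
    rw [card_filter]
    push_cast
    rw [sum_mul]
    refine sum_le_sum fun t ht => ?_
    have hk0 := Avg.ka_pos (P := (F.Q u s).pull (Prod.snd : p.Col × Ω → Ω))
      (R := Rt F ln p u γ) hQ t h0
    have hk1 := Avg.ka_le_one (P := (F.Q u s).pull (Prod.snd : p.Col × Ω → Ω))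
      (R := Rt F ln p u γ) hQ t q
    by_cases hn : nearB u g t (F.P.x q.2)
    · rw [if_pos hn]
      by_cases ht' : th t q
      · rw [if_pos ⟨ht', hn⟩, one_mul]
        exact le_neg_log hk0 (hth t (mem_range.1 ht) q h0 ht')
      · rw [if_neg fun h => ht' h.1, zero_mul]
        have := log_nonpos hk0.le hk1
        linarith
    · rw [if_neg fun h => hn h.2, if_neg hn, zero_mul]

end frame

end Vale.Agent.P065.H268
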