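import Vale.Agent.P065.H268.Split
import Vale.Agent.P065.H268.TimeEnd
import Vale.Agent.P065.H654.SGDef
import Vale.Agent.P065.H700.Giant1

/-!
# P065, package SGIANT: the content near the row boundaries (helper268)

For a fixed law of flags and columns, an own offset of the boxes (a real `θ` for `Lc`, an index `i'`
for `Rt`) is chosen such that the content of the levels where the line is close to a row boundary
is small.
-/

set_option autoImplicit false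

open Finset Real

noncomputable section

namespace Vale.Agent.P065.H268

open Vale.Agent.P065.UB Vale.Agent.P065.Ent Vale.Agent.P065.H154 Vale.Agent.P065.H700
  Vale.Agent.P065.H654 Vale.Agent.P065.H725

/-! ## Averaging -/

section abs

variable {Ω : Type*} [Fintype Ω] {η ι : Type*} {δ : ℕ → Type*}

open Classical in
/-- **the content of rare levels** : averaged over a finite set of choices -/
theorem content_avg {q : Ω → ℝ} (hq : IsProb q) (D : ∀ t, Ω → δ t)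
    (hD : ∀ t, Det (D (t + 1)) (D t)) (Y : Ω → η) (s : Finset ι) (RN : ι → ℕ → Ω → Prop) (T : ℕ)
    {f : ℝ} (h : ∀ t < T, ∀ a, 0 < q a → 0 < H700.sur q (D (t + 1)) (fun a => (D t a, Y a)) a →
      (#{j ∈ s | RN j t a} : ℝ) ≤ f * #s) :
    ∑ j ∈ s, ∑ t ∈ range T, ∑ a, q a *
      (if RN j t a then H700.sur q (D (t + 1)) (fun a => (D t a, Y a)) a else 0) ≤
      #s * (f * Hc q (D T) (fun a => (D 0 a, Y a))) := by
  rw [Hc_chain D hD Y T, sum_comm, mul_sum, mul_sum]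
  refine sum_le_sum fun t ht => ?_
  rw [← H700.sum_sur hq, sum_comm, mul_sum, mul_sum]
  refine sum_le_sum fun a _ => ?_
  have h1 : ∑ j ∈ s, q a * (if RN j t a then H700.sur q (D (t + 1)) (fun a => (D t a, Y a)) a else 0) =
      #{j ∈ s | RN j t a} * (q a * H700.sur q (D (t + 1)) (fun a => (D t a, Y a)) a) := by
    rw [← mul_sum, ← sum_filter, sum_const, nsmul_eq_mul]
    ring
  rw [h1]
  rcases (hq.nonneg a).eq_or_lt with h0 | h0
  · rw [← h0]; simp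
  · rcases (H700.sur_nonneg hq (D (t + 1)) (fun a => (D t a, Y a)) a).eq_or_lt with h2 | h2
    · rw [← h2]; simp
    · calc _ ≤ (f * #s) * (q a * H700.sur q (D (t + 1)) (fun a => (D t a, Y a)) a) :=
            mul_le_mul_of_nonneg_right (h t (mem_range.1 ht) a h0 h2) (by positivity)
        _ = _ := by ring

open Classical in
/-- a good choice -/
theorem exists_content {q : Ω → ℝ} (hq : IsProb q) (D : ∀ t, Ω → δ t)
    (hD : ∀ t, Det (D (t + 1)) (D t)) (Y : Ω → η) {s : Finset ι} (hs : s.Nonempty)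
    (RN : ι → ℕ → Ω → Prop) (T : ℕ)
    {f : ℝ} (h : ∀ t < T, ∀ a, 0 < q a → 0 < H700.sur q (D (t + 1)) (fun a => (D t a, Y a)) a →
      (#{j ∈ s | RN j t a} : ℝ) ≤ f * #s) :
    ∃ j ∈ s, ∑ t ∈ range T, ∑ a, q a *
      (if RN j t a then H700.sur q (D (t + 1)) (fun a => (D t a, Y a)) a else 0) ≤
      f * Hc q (D T) (fun a => (D 0 a, Y a)) := by
  refine exists_le_of_sum_le hs ?_
  rw [sum_const, nsmul_eq_mul]
  exact content_avg hq D hD Y s RN T h

end abs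

/-! ## Counting -/

/-- integers of a window of one period which are close to the grid -/
lemma card_win_le (b : ℝ) {P : ℕ} (hP : 0 < P) {r : ℝ} (hr : 0 ≤ r) (s : ℕ) (A : Finset ℕ)
    (hA : A ⊆ Ico s (s + P)) (h : ∀ i ∈ A, ∃ m : ℤ, |b + i - P * m| ≤ r) :
    (#A : ℝ) ≤ 2 * r + 1 := by
  classical
  choose! m hm using h
  have hinj : Set.InjOn (fun i : ℕ => (i : ℤ) - P * m i) A := by
    intro i hi j hj hij
    simp only at hij
    have hi' := mem_Ico.1 (hA hi)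
    have hj' := mem_Ico.1 (hA hj)
    have h1 : (i : ℤ) - j = P * (m i - m j) := by linarith
    have h2 : m i - m j = 0 := by
      by_contra hne
      have h3 : (P : ℤ) ≤ |P * (m i - m j)| := by
        rw [abs_mul, abs_of_nonneg (by positivity : (0 : ℤ) ≤ P)]
        have h4 := Int.one_le_abs hne
        nlinarith
      rw [← h1] at h3
      have h5 : |(i : ℤ) - j| < P := by
        rw [abs_lt]
        constructor <;> omega
      omega
    rw [h2, mul_zero] at h1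
    omega
  have hmem : A.image (fun i : ℕ => (i : ℤ) - P * m i) ⊆ Icc ⌈-b - r⌉ ⌊-b + r⌋ := by
    intro z hz
    obtain ⟨i, hi, rfl⟩ := mem_image.1 hz
    have h1 := abs_le.1 (hm i hi)
    rw [mem_Icc, Int.ceil_le, Int.le_floor]
    push_cast
    constructor <;> linarith [h1.1, h1.2]
  have h1 : #A ≤ (⌊-b + r⌋ + 1 - ⌈-b - r⌉).toNat := by
    rw [← Int.card_Icc, ← card_image_of_injOn hinj]
    exact card_le_card hmem
  have h2 : ((⌊-b + r⌋ + 1 - ⌈-b - r⌉).toNat : ℝ) ≤ 2 * r + 1 := by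
    rcases le_total 0 (⌊-b + r⌋ + 1 - ⌈-b - r⌉) with h0 | h0
    · have h3 : (((⌊-b + r⌋ + 1 - ⌈-b - r⌉).toNat : ℤ) : ℝ) =
          ((⌊-b + r⌋ + 1 - ⌈-b - r⌉ : ℤ) : ℝ) := by rw [Int.toNat_of_nonneg h0]
      have h4 := Int.floor_le (-b + r)
      have h5 := Int.le_ceil (-b - r)
      push_cast at h3
      rw [h3]
      linarith
    · rw [Int.toNat_of_nonpos h0]
      push_cast
      linarith
  calc (#A : ℝ) ≤ ((⌊-b + r⌋ + 1 - ⌈-b - r⌉).toNat : ℝ) := by exact_mod_cast h1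
    _ ≤ _ := h2

open Classical in
/-- integers of a range of `n` periods which are close to the grid -/
lemma card_periods_le (b : ℝ) {P : ℕ} (hP : 0 < P) {r : ℝ} (hr : 0 ≤ r) (n : ℕ) :
    (#{i ∈ range (n * P) | ∃ m : ℤ, |b + (i : ℕ) - P * m| ≤ r} : ℝ) ≤ n * (2 * r + 1) := by
  induction n with
  | zero => simp
  | succ n ih =>
    have e : range ((n + 1) * P) = range (n * P) ∪ Ico (n * P) (n * P + P) := by
      ext i
      simp only [mem_union, mem_range, mem_Ico]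
      rw [add_mul, one_mul]
      omega
    rw [e, filter_union]
    have h1 : (#{i ∈ Ico (n * P) (n * P + P) | ∃ m : ℤ, |b + (i : ℕ) - P * m| ≤ r} : ℝ) ≤
        2 * r + 1 :=
      card_win_le b hP hr (n * P) _ (filter_subset _ _) fun i hi => (mem_filter.1 hi).2
    have h2 := card_union_le {i ∈ range (n * P) | ∃ m : ℤ, |b + (i : ℕ) - P * m| ≤ r}
      {i ∈ Ico (n * P) (n * P + P) | ∃ m : ℤ, |b + (i : ℕ) - P * m| ≤ r}
    have h3 : ((#({i ∈ range (n * P) | ∃ m : ℤ, |b + (i : ℕ) - P * m| ≤ r} ∪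
      {i ∈ Ico (n * P) (n * P + P) | ∃ m : ℤ, |b + (i : ℕ) - P * m| ≤ r}) : ℕ) : ℝ) ≤
      (#{i ∈ range (n * P) | ∃ m : ℤ, |b + (i : ℕ) - P * m| ≤ r} : ℝ) +
      (#{i ∈ Ico (n * P) (n * P + P) | ∃ m : ℤ, |b + (i : ℕ) - P * m| ≤ r} : ℝ) := by
      exact_mod_cast h2
    push_cast
    linarith

/-! ## The two kinds of boxes -/

section frame

variable {Ω : Type*} [Fintype Ω] (F : Fr Ω) (ln : Ω → Pt) (p : Prm)

open Classical in
omit [Fintype Ω] in
/-- few offsets `j / 2 ^ R` of the boxes `Lc` are near -/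
lemma card_nearL_le (u : ℝ) {γ t : ℕ} {k : ℤ} {R W : ℕ} (hR : (t : ℤ) + k ≤ R)
    (hW : (γ : ℤ) ≤ t + k + W) (ω : Ω) :
    (#{j ∈ range (2 ^ (R + W)) | nearL F ln u ((j : ℕ) / 2 ^ R) γ t k ω} : ℝ) ≤
      11 / 2 ^ γ * 2 ^ (R + W) := by
  obtain ⟨s, hs⟩ : ∃ s : ℕ, (t : ℤ) + k + s = R := ⟨(R - (t + k)).toNat, by omega⟩
  obtain ⟨n, hn⟩ : ∃ n : ℕ, R + W = n + (γ + s) := ⟨R + W - (γ + s), by omega⟩
  set b : ℝ := 2 ^ s * (2 ^ ((t : ℤ) + k) * Y (dt F u t ω) (ln ω)) with hb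
  have h1 := card_periods_le b (P := 2 ^ (γ + s)) (by positivity) (r := 5 * 2 ^ s) (by positivity)
    (2 ^ n)
  rw [← pow_add, ← hn] at h1
  have h2 : {j ∈ range (2 ^ (R + W)) | nearL F ln u ((j : ℕ) / 2 ^ R) γ t k ω} ⊆
      {i ∈ range (2 ^ (R + W)) | ∃ m : ℤ, |b + (i : ℕ) - (2 ^ (γ + s) : ℕ) * m| ≤ 5 * 2 ^ s} := by
    intro j hj
    rw [mem_filter] at hj ⊢
    refine ⟨hj.1, ?_⟩
    obtain ⟨m, hm⟩ := hj.2
    refine ⟨m, ?_⟩
    have e1 : (2 : ℝ) ^ ((t : ℤ) + k) * 2 ^ s = 2 ^ R := by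
      rw [← zpow_natCast, ← zpow_natCast, ← zpow_add₀ (by norm_num), hs]
    have e : b + (j : ℕ) - (2 ^ (γ + s) : ℕ) * m =
        2 ^ s * (2 ^ ((t : ℤ) + k) * (Y (dt F u t ω) (ln ω) + (j : ℕ) / 2 ^ R) - 2 ^ γ * m) := by
      rw [hb, ← e1, pow_add]
      push_cast
      have hk : (0 : ℝ) < 2 ^ ((t : ℤ) + k) := by positivity
      field_simp
    rw [e, abs_mul, abs_of_pos (by positivity : (0 : ℝ) < 2 ^ s), mul_comm 5]
    exact mul_le_mul_of_nonneg_left hm (by positivity)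
  have h3 : (#{j ∈ range (2 ^ (R + W)) | nearL F ln u ((j : ℕ) / 2 ^ R) γ t k ω} : ℝ) ≤
      (#{i ∈ range (2 ^ (R + W)) | ∃ m : ℤ, |b + (i : ℕ) - (2 ^ (γ + s) : ℕ) * m| ≤ 5 * 2 ^ s} : ℝ) :=
    by exact_mod_cast card_le_card h2
  refine h3.trans (h1.trans ?_)
  rw [hn, pow_add, pow_add]
  push_cast
  have h4 : (1 : ℝ) ≤ 2 ^ s := one_le_pow₀ (by norm_num)
  have h5 : (0 : ℝ) < 2 ^ n := by positivity
  have h6 : (11 : ℝ) / 2 ^ γ * (2 ^ n * (2 ^ γ * 2 ^ s)) = 2 ^ n * (11 * 2 ^ s) := by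
    field_simp
  rw [h6]
  exact mul_le_mul_of_nonneg_left (by linarith) h5.le

open Classical in
omit [Fintype Ω] in
/-- few own indices of the boxes `Rt` are near -/
lemma card_nearR_le (u : ℝ) {γ t : ℕ} (c : p.Kap) (ht : t ≤ Prm.ex c) (hγ : γ ≤ p.Γ) (ω : Ω) :
    (#{i : Fin p.nT | nearR F ln p u γ t (c, i) ω} : ℝ) ≤ 11 / 2 ^ γ * p.nT := by
  obtain ⟨s, hs⟩ : ∃ s : ℕ, Prm.ex c = t + s := ⟨Prm.ex c - t, by omega⟩
  set b : ℝ := 2 ^ s * 3 * (2 ^ t * hl p.k₀ (Prm.sy c) (Prm.sc c) (dt F u t ω) (ln ω)) with hb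
  set n : ℕ := 2 ^ (Prm.js c + (p.Γ - γ) + t) with hn
  have hnP : n * (3 * 2 ^ (γ + s)) = p.nT := by
    rw [← H154.periods c hγ, hn, hs]
    have e1 : 2 ^ (Prm.js c + (p.Γ - γ) + t) = 2 ^ (Prm.js c + (p.Γ - γ)) * 2 ^ t := pow_add _ _ _
    have e2 : 2 ^ (t + s + γ) = 2 ^ t * 2 ^ (γ + s) := by
      rw [← pow_add]
      congr 1
      omega
    rw [e1, e2]
    ring
  have h1 := card_periods_le b (P := 3 * 2 ^ (γ + s)) (by positivity) (r := 15 * 2 ^ s)
    (by positivity) n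
  rw [hnP] at h1
  have h2 : (#{i : Fin p.nT | nearR F ln p u γ t (c, i) ω}) ≤
      #{i ∈ range p.nT | ∃ m : ℤ, |b + (i : ℕ) - (3 * 2 ^ (γ + s) : ℕ) * m| ≤ 15 * 2 ^ s} := by
    refine card_le_card_of_injOn (fun i : Fin p.nT => (i : ℕ)) ?_ (Fin.val_injective.injOn)
    intro i hi
    have hi' := (mem_filter.1 (mem_coe.1 hi)).2
    rw [mem_coe, mem_filter]
    refine ⟨mem_range.2 i.2, ?_⟩
    obtain ⟨m, hm⟩ := hi'
    refine ⟨m, ?_⟩
    have e : b + (i : ℕ) - (3 * 2 ^ (γ + s) : ℕ) * m =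
        3 * 2 ^ s * (2 ^ t * Prm.h (c, i) (dt F u t ω) (ln ω) - 2 ^ γ * m) := by
      unfold Prm.h
      rw [hb, hs, pow_add, pow_add]
      push_cast
      have h3 : (0 : ℝ) < 2 ^ t := by positivity
      have h4 : (0 : ℝ) < 2 ^ s := by positivity
      field_simp
    show |b + (i : ℕ) - (3 * 2 ^ (γ + s) : ℕ) * m| ≤ 15 * 2 ^ s
    rw [e, abs_mul, abs_of_pos (by positivity : (0 : ℝ) < 3 * 2 ^ s)]
    calc 3 * 2 ^ s * |2 ^ t * Prm.h (c, i) (dt F u t ω) (ln ω) - 2 ^ γ * m| ≤ 3 * 2 ^ s * 5 :=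
          mul_le_mul_of_nonneg_left hm (by positivity)
      _ = 15 * 2 ^ s := by ring
  have h3 : (#{i : Fin p.nT | nearR F ln p u γ t (c, i) ω} : ℝ) ≤
      (#{i ∈ range p.nT | ∃ m : ℤ, |b + (i : ℕ) - (3 * 2 ^ (γ + s) : ℕ) * m| ≤ 15 * 2 ^ s} : ℝ) := by
    exact_mod_cast h2
  refine h3.trans (h1.trans ?_)
  rw [← hnP]
  push_cast
  rw [pow_add (2 : ℝ) γ s]
  have h4 : (1 : ℝ) ≤ 2 ^ s := one_le_pow₀ (by norm_num)
  have h5 : (0 : ℝ) ≤ (n : ℝ) := by positivity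
  have h6 : (11 : ℝ) / 2 ^ γ * (n * (3 * (2 ^ γ * 2 ^ s))) = n * (33 * 2 ^ s) := by
    field_simp
    ring
  rw [h6]
  exact mul_le_mul_of_nonneg_left (by linarith) h5

/-- a flag of positive surprise is before its frozen scale -/
lemma lt_of_sur_pos {β : Type*} {q : p.Col × Ω → ℝ} (u : ℝ) {t : ℕ}
    (Y : p.Col × Ω → β) {a : p.Col × Ω} (ha : 0 < q a) (hq : IsProb q)
    (h : 0 < H700.sur q (fun a => F.D u (t + 1) a.2) (fun a => (F.D u t a.2, Y a)) a) :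
    t < F.T' a.2 := by
  by_contra hc
  push Not at hc
  have e : Pr q (fun a : p.Col × Ω => (F.D u (t + 1) a.2, (F.D u t a.2, Y a)))
      (F.D u (t + 1) a.2, (F.D u t a.2, Y a)) =
      Pr q (fun a => (F.D u t a.2, Y a)) (F.D u t a.2, Y a) := by
    unfold Pr
    refine sum_congr rfl fun b _ => ?_
    by_cases hb : (F.D u t b.2, Y b) = (F.D u t a.2, Y a)
    · have hb' := hb
      simp only [Prod.mk.injEq] at hb'
      have hx : F.P.x a.2 = F.P.x b.2 := F.x_eq_of_le hb'.1.symm hc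
      have hD : F.D u (t + 1) b.2 = F.D u (t + 1) a.2 := F.D_of_x hx.symm
      rw [if_pos hb, if_pos]
      show (F.D u (t + 1) b.2, (F.D u t b.2, Y b)) = _
      rw [hD, hb]
    · rw [if_neg hb, if_neg]
      intro h'
      exact hb (congrArg Prod.snd h')
  unfold H700.sur at h
  rw [e, div_self (Pr_pos hq _ ha).ne', log_one, neg_zero] at h
  exact lt_irrefl _ h

open Classical in
/-- **the own offset of the boxes `Lc`** -/
theorem exists_theta {β : Type*} {q : p.Col × Ω → ℝ} (hq : IsProb q) (u : ℝ) (γ T : ℕ)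
    (Y : p.Col × Ω → β) : ∃ θ : ℝ, ∑ t ∈ range T, ∑ a, q a *
      (if nearL F ln u θ γ t (Prm.sc a.1.1) a.2 then
        H700.sur q (fun a => F.D u (t + 1) a.2) (fun a => (F.D u t a.2, Y a)) a else 0) ≤
      11 / 2 ^ γ * Hc q (fun a => F.D u T a.2) (fun a => (F.D u 0 a.2, Y a)) := by
  set R : ℕ := (T + p.k₀ + p.K).toNat with hR
  set W : ℕ := (γ - p.k₀).toNat with hW
  obtain ⟨j, -, hj⟩ := exists_content hq (fun t a => F.D u t a.2) (fun t a b h => F.D_det u t _ _ h)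
    Y (s := range (2 ^ (R + W))) (by simp)
    (fun j t a => nearL F ln u ((j : ℕ) / 2 ^ R) γ t (Prm.sc a.1.1) a.2) T
    (f := 11 / 2 ^ γ) (by
      intro t ht a _ _
      rw [card_range]
      push_cast
      have h1 := Prm.js_le a.1.1
      have h2 : Prm.sc a.1.1 = p.k₀ + (Prm.js a.1.1 : ℕ) := rfl
      refine card_nearL_le F ln u ?_ ?_ a.2
      · rw [h2, hR]
        omega
      · rw [h2, hW]
        omega)
  exact ⟨(j : ℕ) / 2 ^ R, hj⟩

open Classical in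
/-- **the own index of the boxes `Rt`** -/
theorem exists_off {β : Type*} {q : p.Col × Ω → ℝ} (hq : IsProb q) (hM : F.Tm ≤ p.M) (u : ℝ)
    {γ : ℕ} (hγ : γ ≤ p.Γ) (T : ℕ) (Y : p.Col × Ω → β) : ∃ i : Fin p.nT, ∑ t ∈ range T, ∑ a, q a *
      (if nearR F ln p u γ t (a.1.1, i) a.2 then
        H700.sur q (fun a => F.D u (t + 1) a.2) (fun a => (F.D u t a.2, Y a)) a else 0) ≤
      11 / 2 ^ γ * Hc q (fun a => F.D u T a.2) (fun a => (F.D u 0 a.2, Y a)) := by
  obtain ⟨i, -, hi⟩ := exists_content hq (fun t a => F.D u t a.2) (fun t a b h => F.D_det u t _ _ h)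
    Y (s := (univ : Finset (Fin p.nT))) ⟨⟨0, p.nT_pos⟩, mem_univ _⟩
    (fun i t a => nearR F ln p u γ t (a.1.1, i) a.2) T
    (f := 11 / 2 ^ γ) (by
      intro t _ a ha hs
      have h1 := lt_of_sur_pos F p u Y ha hq hs
      have h2 := F.T'_le a.2
      have h3 : Prm.ex a.1.1 = p.K - Prm.js a.1.1 + p.M := rfl
      rw [card_univ, Fintype.card_fin]
      exact card_nearR_le F ln p u a.1.1 (by omega) hγ a.2)
  exact ⟨i, hi⟩

open Classical in
/-- the near-cut content along `Y`, in the form of the account -/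
lemma ncutY_eq {β : Type*} (q : p.Col × Ω → ℝ) (Y : p.Col × Ω → β) (g T : ℕ) (u : ℝ) :
    ncutY F p q Y g T u = ∑ t ∈ range T, ∑ a, q a *
      (if nearU u g t (F.P.x a.2) then
        H700.sur q (fun a => F.D u (t + 1) a.2) (fun a => (F.D u t a.2, Y a)) a else 0) := by
  unfold ncutY
  simp only [mul_sum]
  rw [sum_comm]
  refine sum_congr rfl fun t _ => sum_congr rfl fun a _ => ?_
  by_cases h : nearU u g t (F.P.x a.2)
  · rw [if_pos h, if_pos h]
    rfl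
  · rw [if_neg h, if_neg h]

variable {F ln p}

/-- **flags of one fine box are in the same box with an own index**, if the line is not near the
boundary of a row -/
lemma Rt_rho_off {Lab : Type*} {lam : Ω → Lab} {u : ℝ} {γ t : ℕ} {c : p.Col} {i : Fin p.nT}
    {ω ω' : Ω} (h : rho F ln p lam c ω' = rho F ln p lam c ω) (ht : t ≤ F.T' ω)
    (hn : ¬ nearR F ln p u γ t (c.1, i) ω) :
    Rt F ln p u γ t ((c.1, i), ω') = Rt F ln p u γ t ((c.1, i), ω) := by
  obtain ⟨hx, hT, hS, hh⟩ := rho_same h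
  unfold Rt
  simp only [Prod.mk.injEq]
  refine ⟨trivial, hS, F.D_of_x hx, ?_⟩
  unfold Nf Prm.N
  rw [hT, min_eq_left (by omega), hx]
  have h3 := dt_le (F := F) u t ω
  have h4 := lt_dt (F := F) u t ω
  have hp : (0 : ℝ) < 2 ^ t := by positivity
  have h5 : (1 : ℝ) / 2 ^ F.T' ω ≤ 1 / 2 ^ t :=
    one_div_le_one_div_of_le (by positivity) (pow_le_pow_right₀ (by norm_num) ht)
  -- the height at the left end and at `x`
  have key : |2 ^ t * Prm.h (c.1, i) (F.P.x ω) (ln ω) -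
      2 ^ t * Prm.h (c.1, i) (dt F u t ω) (ln ω)| ≤ 1 := by
    rw [← mul_sub, Prm.h_sub, abs_mul, abs_of_pos hp, abs_mul, abs_of_nonneg h3,
      abs_of_nonneg (Prm.f_nonneg _ _)]
    have h6 := Prm.f_nonneg c.1 (ln ω)
    have h7 := Prm.f_lt_one c.1 (ln ω)
    have h8 : 2 ^ t * (F.P.x ω - dt F u t ω) ≤ 1 := by
      rw [lt_div_iff₀ hp] at h4
      linarith
    calc 2 ^ t * ((F.P.x ω - dt F u t ω) * Prm.f c.1 (ln ω)) =
          2 ^ t * (F.P.x ω - dt F u t ω) * Prm.f c.1 (ln ω) := by ring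
      _ ≤ 1 * 1 := mul_le_mul h8 h7.le h6 (by norm_num)
      _ = 1 := one_mul 1
  have hd : |2 ^ t * Prm.h (c.1, i) (F.P.x ω) (ln ω') -
      2 ^ t * Prm.h (c.1, i) (F.P.x ω) (ln ω)| ≤ 1 := by
    rw [← mul_sub, h_diff (c := (c.1, i)) _ hS, abs_mul, abs_of_pos hp]
    have h6 := (hh.trans_le h5).le
    rw [le_div_iff₀ hp] at h6
    rw [mul_comm]
    exact h6
  refine floor_same hn ?_ ?_
  · have e : 2 ^ t * Prm.h (c.1, i) (F.P.x ω) (ln ω') - 2 ^ t * Prm.h (c.1, i) (dt F u t ω) (ln ω) =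
      (2 ^ t * Prm.h (c.1, i) (F.P.x ω) (ln ω') - 2 ^ t * Prm.h (c.1, i) (F.P.x ω) (ln ω)) +
      (2 ^ t * Prm.h (c.1, i) (F.P.x ω) (ln ω) -
        2 ^ t * Prm.h (c.1, i) (dt F u t ω) (ln ω)) := by ring
    rw [e]
    refine (abs_add_le _ _).trans ?_
    linarith
  · linarith

end frame

end Vale.Agent.P065.H268
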