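import Vale.Agent.P065.H154.FrameGuard
import Vale.Agent.P065.H268.SGRow
import Vale.Agent.P065.H700.SGGeo2

/-!
# P065, package SGIANT: the row-near content of a periodic law, in 700's form (helper268)
-/

set_option autoImplicit false

open Finset Real

noncomputable section

namespace Vale.Agent.P065.H268

open Vale.Agent.P065.UB Vale.Agent.P065.Ent Vale.Agent.P065.H154 Vale.Agent.P065.H700
  Vale.Agent.P065.H654 Vale.Agent.P065.H725

/-- **averages of a periodic function over the near positions** -/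
lemma sum_per_le {u G c n : ℕ} (hu : 0 < u) (hG : 0 < G) (hn : c * (u * G) = n) (b : ℝ) {r : ℝ}
    (hr : 0 ≤ r) (f : ℕ → ℝ) (hf : ∀ i j, i < n → j < n → i % u = j % u → f i = f j)
    (hf0 : ∀ i, 0 ≤ f i) (E : ℕ → Prop) [DecidablePred E]
    (hE : ∀ i, i < n → E i → ∃ m : ℤ, |b + i - (u * G : ℕ) * m| ≤ r) :
    ∑ i ∈ range n, (if E i then f i else 0) ≤ ((2 * (r / u) + 1) / G) * ∑ i ∈ range n, f i := by
  classical
  have hu' : (0 : ℝ) < u := by exact_mod_cast hu
  have hG' : (0 : ℝ) < G := by exact_mod_cast hG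
  have e0 : n = (c * G) * u := by rw [← hn]; ring
  have hfa : ∀ s ∈ range (c * G), ∀ a ∈ range u, f (s * u + a) = f a := by
    intro s hs a ha
    have hs' := mem_range.1 hs
    have ha' := mem_range.1 ha
    have h1 : (s + 1) * u ≤ c * G * u := Nat.mul_le_mul_right u hs'
    have h2 : (s + 1) * u = s * u + u := by ring
    refine hf _ _ (by omega) ?_ ?_
    · have : 0 ≤ s * u := Nat.zero_le _
      omega
    · rw [Nat.mul_add_mod', Nat.mod_eq_of_lt ha']
  have e1 : ∑ i ∈ range n, f i = (c * G : ℕ) * ∑ a ∈ range u, f a := by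
    rw [e0, sum_range_mul' _ (c * G) u,
      sum_congr rfl fun s hs => sum_congr rfl fun a ha => hfa s hs a ha, sum_const, card_range,
      nsmul_eq_mul]
  have e2 : ∑ i ∈ range n, (if E i then f i else 0) =
      ∑ a ∈ range u, f a * #{s ∈ range (c * G) | E (s * u + a)} := by
    rw [e0, sum_range_mul' _ (c * G) u, sum_comm]
    refine sum_congr rfl fun a ha => ?_
    rw [card_filter]
    push_cast
    rw [mul_sum]
    refine sum_congr rfl fun s hs => ?_
    rw [hfa s hs a ha]
    split_ifs <;> simp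
  have e3 : ∀ a ∈ range u, (#{s ∈ range (c * G) | E (s * u + a)} : ℝ) ≤
      c * (2 * (r / u) + 1) := by
    intro a ha
    have ha' := mem_range.1 ha
    have h1 := card_periods_le ((b + a) / u) hG (r := r / u) (by positivity) c
    refine le_trans ?_ h1
    have h2 : {s ∈ range (c * G) | E (s * u + a)} ⊆
        {i ∈ range (c * G) | ∃ m : ℤ, |(b + a) / u + (i : ℕ) - G * m| ≤ r / u} := by
      intro s hs
      rw [mem_filter] at hs ⊢
      refine ⟨hs.1, ?_⟩
      have hs' := mem_range.1 hs.1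
      have h3 : (s + 1) * u ≤ c * G * u := Nat.mul_le_mul_right u hs'
      have h4 : (s + 1) * u = s * u + u := by ring
      obtain ⟨m, hm⟩ := hE (s * u + a) (by omega) hs.2
      refine ⟨m, ?_⟩
      have e : (b + a) / u + (s : ℕ) - G * m = (b + (s * u + a : ℕ) - (u * G : ℕ) * m) / u := by
        push_cast
        field_simp
        ring
      rw [e, abs_div, abs_of_pos hu']
      exact div_le_div_of_nonneg_right hm hu'.le
    exact_mod_cast card_le_card h2
  rw [e1, e2]
  calc ∑ a ∈ range u, f a * #{s ∈ range (c * G) | E (s * u + a)}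
      ≤ ∑ a ∈ range u, f a * (c * (2 * (r / u) + 1)) :=
        sum_le_sum fun a ha => mul_le_mul_of_nonneg_left (e3 a ha) (hf0 a)
    _ = (2 * (r / u) + 1) / G * ((c * G : ℕ) * ∑ a ∈ range u, f a) := by
        rw [← sum_mul]
        push_cast
        field_simp

section frame

variable {Ω : Type*} [Fintype Ω] {F : Fr Ω} {ln : Ω → Pt} {p : Prm}

lemma Pr_one_col {η : Type*} (q : p.Col × Ω → ℝ) (V : p.Col × Ω → η) (c : p.Col) (ω : Ω)
    [DecidableEq η] (hV : ∀ c' ω', V (c', ω') = V (c, ω) → c' = c) :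
    Pr q V (V (c, ω)) = ∑ ω', if V (c, ω') = V (c, ω) then q (c, ω') else 0 := by
  classical
  unfold Pr
  rw [Fintype.sum_prod_type, sum_eq_single c]
  · refine sum_congr rfl fun ω' _ => ?_
    by_cases h : V (c, ω') = V (c, ω)
    · rw [if_pos h, if_pos h]
    · rw [if_neg h, if_neg h]
  · intro c' _ hne
    exact sum_eq_zero fun ω' _ => if_neg fun h => hne (hV c' ω' h)
  · intro h
    exact absurd (mem_univ _) h

open Classical in
/-- **the row-near content of a periodic law** -/
theorem nearR_content {q : p.Col × Ω → ℝ} (hq : IsProb q) (hper : LPer F p q) (hM : F.Tm ≤ p.M)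
    (u : ℝ) {γ : ℕ} (hγ : γ ≤ p.Γ) (T : ℕ) :
    ∑ t ∈ range T, ∑ a, q a * (if nearR F ln p u γ t a.1 a.2 then
      H700.sur q (fun a => F.D u (t + 1) a.2) (fun a => (F.D u t a.2, (a.1, ln a.2))) a else 0) ≤
      11 / 2 ^ γ * Hc q (fun a => F.D u T a.2) (fun a => (F.D u 0 a.2, (a.1, ln a.2))) := by
  rw [Hc_chain (fun t (a : p.Col × Ω) => F.D u t a.2) (fun t a b h => F.D_det u t _ _ h)
    (fun a => (a.1, ln a.2)) T, mul_sum]
  refine sum_le_sum fun t _ => ?_
  rw [← H700.sum_sur hq, mul_sum]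
  have f1 : ∀ g : p.Col × Ω → ℝ, ∑ a, g a = ∑ k : p.Kap, ∑ ω : Ω, ∑ i : Fin p.nT, g ((k, i), ω) := by
    intro g
    rw [Fintype.sum_prod_type, Fintype.sum_prod_type]
    exact sum_congr rfl fun k _ => sum_comm
  rw [f1, f1]
  refine sum_le_sum fun k _ => sum_le_sum fun ω _ => ?_
  set σ : Fin p.nT → ℝ := fun i => H700.sur q (fun a => F.D u (t + 1) a.2)
    (fun a => (F.D u t a.2, (a.1, ln a.2))) ((k, i), ω) with hσ
  have hσ0 : ∀ i, 0 ≤ σ i := fun i => H700.sur_nonneg hq _ _ _
  have hnn : ∀ i, 0 ≤ q ((k, i), ω) * σ i := fun i => mul_nonneg (hq.nonneg _) (hσ0 i)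
  have goal' : ∑ i : Fin p.nT, (if nearR F ln p u γ t (k, i) ω then q ((k, i), ω) * σ i else 0) ≤
      11 / 2 ^ γ * ∑ i : Fin p.nT, q ((k, i), ω) * σ i := by
    by_cases hx : ∀ ω', F.D u t ω = F.D u t ω' → F.P.x ω = F.P.x ω'
    · -- one centre
      have h0 : ∀ i, σ i = 0 := by
        intro i
        have e : Pr q (fun a : p.Col × Ω => (F.D u (t + 1) a.2, (F.D u t a.2, (a.1, ln a.2))))
            (F.D u (t + 1) ω, (F.D u t ω, ((k, i), ln ω))) =
            Pr q (fun a : p.Col × Ω => (F.D u t a.2, (a.1, ln a.2)))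
              (F.D u t ω, ((k, i), ln ω)) := by
          unfold Pr
          refine sum_congr rfl fun b _ => ?_
          by_cases hb : (F.D u t b.2, (b.1, ln b.2)) = (F.D u t ω, ((k, i), ln ω))
          · have hb' := hb
            simp only [Prod.mk.injEq] at hb'
            have hx' : F.P.x ω = F.P.x b.2 := hx _ hb'.1.symm
            have hD : F.D u (t + 1) b.2 = F.D u (t + 1) ω := F.D_of_x hx'.symm
            rw [if_pos hb, if_pos]
            show (F.D u (t + 1) b.2, (F.D u t b.2, (b.1, ln b.2))) = _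
            rw [hD, hb]
          · rw [if_neg hb, if_neg]
            intro h'
            exact hb (congrArg Prod.snd h')
        have e2 : σ i = -log (Pr q (fun a : p.Col × Ω => (F.D u (t + 1) a.2,
            (F.D u t a.2, (a.1, ln a.2)))) (F.D u (t + 1) ω, (F.D u t ω, ((k, i), ln ω))) /
            Pr q (fun a : p.Col × Ω => (F.D u t a.2, (a.1, ln a.2)))
              (F.D u t ω, ((k, i), ln ω))) := rfl
        rw [e2, e]
        rcases eq_or_ne (Pr q (fun a : p.Col × Ω => (F.D u t a.2, (a.1, ln a.2)))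
              (F.D u t ω, ((k, i), ln ω))) 0 with h1 | h1
        · rw [h1]; simp
        · rw [div_self h1, log_one, neg_zero]
      simp [h0]
    · -- periodic
      have hcell := (hper.cell hM u k t ω).resolve_left hx
      push Not at hx
      obtain ⟨ω₁, g1, g2⟩ := hx
      have hT : t < F.T' ω := F.lt_of_ne g1 g2
      have hTm := F.T'_le ω
      have hex : Prm.ex k = p.K - Prm.js k + p.M := rfl
      set s := Prm.ex k - t with hs
      set v : ℕ := 3 * 2 ^ s with hv
      have hv0 : 0 < v := by positivity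
      have hnP : 2 ^ (Prm.js k + (p.Γ - γ) + t) * (v * 2 ^ γ) = p.nT := by
        rw [← H154.periods k hγ, hv]
        have e1 : 2 ^ (Prm.js k + (p.Γ - γ) + t) = 2 ^ (Prm.js k + (p.Γ - γ)) * 2 ^ t :=
          pow_add _ _ _
        have e2 : 2 ^ (Prm.ex k + γ) = 2 ^ t * (2 ^ s * 2 ^ γ) := by
          rw [← pow_add, ← pow_add]
          congr 1
          omega
        rw [e1, e2]
        ring
      have hσp : ∀ i i' : Fin p.nT, (i : ℕ) % v = i' % v → σ i = σ i' := by
        intro i i' hii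
        have k1 : ∀ j : Fin p.nT, Pr q (fun a : p.Col × Ω => (F.D u t a.2, (a.1, ln a.2)))
            (F.D u t ω, ((k, j), ln ω)) =
            ∑ ω', if F.D u t ω' = F.D u t ω ∧ ln ω' = ln ω then q ((k, j), ω') else 0 := by
          intro j
          refine (Pr_one_col q (fun a : p.Col × Ω => (F.D u t a.2, (a.1, ln a.2))) (k, j) ω
            (fun c' ω' h => ?_)).trans ?_
          · simp only [Prod.mk.injEq] at h
            exact h.2.1
          · refine sum_congr rfl fun ω' _ => ?_
            simp only [Prod.mk.injEq, true_and]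
        have k2 : ∀ j : Fin p.nT, Pr q (fun a : p.Col × Ω => (F.D u (t + 1) a.2,
            (F.D u t a.2, (a.1, ln a.2)))) (F.D u (t + 1) ω, (F.D u t ω, ((k, j), ln ω))) =
            ∑ ω', if F.D u (t + 1) ω' = F.D u (t + 1) ω ∧ F.D u t ω' = F.D u t ω ∧
              ln ω' = ln ω then q ((k, j), ω') else 0 := by
          intro j
          refine (Pr_one_col q (fun a : p.Col × Ω => (F.D u (t + 1) a.2,
            (F.D u t a.2, (a.1, ln a.2)))) (k, j) ω (fun c' ω' h => ?_)).trans ?_
          · simp only [Prod.mk.injEq] at h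
            exact h.2.2.1
          · refine sum_congr rfl fun ω' _ => ?_
            simp only [Prod.mk.injEq, true_and]
        have e2 : ∀ j, σ j = -log (Pr q (fun a : p.Col × Ω => (F.D u (t + 1) a.2,
            (F.D u t a.2, (a.1, ln a.2)))) (F.D u (t + 1) ω, (F.D u t ω, ((k, j), ln ω))) /
            Pr q (fun a : p.Col × Ω => (F.D u t a.2, (a.1, ln a.2)))
              (F.D u t ω, ((k, j), ln ω))) := fun j => rfl
        rw [e2, e2, k1, k1, k2, k2]
        congr 3
        · refine sum_congr rfl fun ω' _ => ?_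
          by_cases h : F.D u (t + 1) ω' = F.D u (t + 1) ω ∧ F.D u t ω' = F.D u t ω ∧ ln ω' = ln ω
          · rw [if_pos h, if_pos h]
            exact hcell ω' h.2.1.symm i i' hii
          · rw [if_neg h, if_neg h]
        · refine sum_congr rfl fun ω' _ => ?_
          by_cases h : F.D u t ω' = F.D u t ω ∧ ln ω' = ln ω
          · rw [if_pos h, if_pos h]
            exact hcell ω' h.1.symm i i' hii
          · rw [if_neg h, if_neg h]
      set f : ℕ → ℝ := fun i => if h : i < p.nT then q ((k, ⟨i, h⟩), ω) * σ ⟨i, h⟩ else 0 with hf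
      have hfv : ∀ i : Fin p.nT, f i = q ((k, i), ω) * σ i := fun i => by
        simp only [hf, i.2, dif_pos]
      have hf0 : ∀ i, 0 ≤ f i := by
        intro i
        simp only [hf]
        split_ifs with h
        · exact hnn _
        · exact le_rfl
      have hfp : ∀ i j, i < p.nT → j < p.nT → i % v = j % v → f i = f j := by
        intro i j hi hj hij
        simp only [hf, hi, hj, dif_pos]
        rw [hσp ⟨i, hi⟩ ⟨j, hj⟩ hij, hcell ω rfl ⟨i, hi⟩ ⟨j, hj⟩ hij]
      set b : ℝ := 2 ^ s * 3 * (2 ^ t * hl p.k₀ (Prm.sy k) (Prm.sc k) (dt F u t ω) (ln ω)) with hb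
      have key := sum_per_le hv0 (G := 2 ^ γ) (by positivity) hnP b (r := 5 * v) (by positivity)
        f hfp hf0 (fun i => if h : i < p.nT then nearR F ln p u γ t (k, ⟨i, h⟩) ω else False) (by
          intro i hi hE
          simp only [hi, dif_pos] at hE
          obtain ⟨m, hm⟩ := hE
          refine ⟨m, ?_⟩
          have e : b + (i : ℕ) - (v * 2 ^ γ : ℕ) * m =
              3 * 2 ^ s * (2 ^ t * Prm.h (k, ⟨i, hi⟩) (dt F u t ω) (ln ω) - 2 ^ γ * m) := by
            have h5 : Prm.ex k = t + s := by omega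
            unfold Prm.h
            simp only []
            rw [hb, hv, h5, pow_add]
            push_cast
            have h3 : (0 : ℝ) < 2 ^ t := by positivity
            have h4 : (0 : ℝ) < 2 ^ s := by positivity
            field_simp
          rw [e, abs_mul, abs_of_pos (by positivity : (0 : ℝ) < 3 * 2 ^ s)]
          calc 3 * 2 ^ s * |2 ^ t * Prm.h (k, ⟨i, hi⟩) (dt F u t ω) (ln ω) - 2 ^ γ * m| ≤
                3 * 2 ^ s * 5 := mul_le_mul_of_nonneg_left hm (by positivity)
            _ = 5 * (v : ℕ) := by rw [hv]; push_cast; ring)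
      have e1 : ∑ i : Fin p.nT, (if nearR F ln p u γ t (k, i) ω then q ((k, i), ω) * σ i else 0) =
          ∑ i ∈ range p.nT, (if (if h : i < p.nT then nearR F ln p u γ t (k, ⟨i, h⟩) ω else False)
            then f i else 0) := by
        rw [Finset.sum_range (fun i => if (if h : i < p.nT then
          nearR F ln p u γ t (k, ⟨i, h⟩) ω else False) then f i else 0)]
        refine sum_congr rfl fun i _ => ?_
        simp only [i.2, dif_pos, hfv]
      have e2 : ∑ i : Fin p.nT, q ((k, i), ω) * σ i = ∑ i ∈ range p.nT, f i := by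
        rw [Finset.sum_range f]
        exact sum_congr rfl fun i _ => (hfv i).symm
      rw [e1, e2]
      refine key.trans (le_of_eq ?_)
      have hv' : (0 : ℝ) < v := by exact_mod_cast hv0
      have e3 : (2 * (5 * (v : ℝ) / v) + 1) / ((2 ^ γ : ℕ) : ℝ) = 11 / 2 ^ γ := by
        push_cast
        rw [mul_div_assoc, div_self hv'.ne']
        norm_num
      rw [e3]
  have e1 : ∑ i : Fin p.nT, (if nearR F ln p u γ t (k, i) ω then q ((k, i), ω) * σ i else 0) =
      ∑ i : Fin p.nT, q ((k, i), ω) * (if nearR F ln p u γ t (k, i) ω then σ i else 0) := by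
    refine sum_congr rfl fun i _ => ?_
    split_ifs <;> simp
  rw [e1, mul_sum] at goal'
  exact goal'

/-! ## 700's form -/

omit [Fintype Ω] in
lemma lend_eq (u : ℝ) (t : ℕ) (ω : Ω) : H700.SG.lend u t (F.D u t ω) = dt F u t ω := rfl

omit [Fintype Ω] in
/-- 700's row-near lines of the boxes `Rt` -/
lemma nearR_of_Nb {u : ℝ} {γ t : ℕ} {c : p.Col} {ω : Ω}
    (h : H700.SG.Nb (2 ^ γ) (H700.SG.Hh F ln c u t ω)) : nearR F ln p u γ t c ω := by
  obtain ⟨m, hm⟩ := h
  refine ⟨m, ?_⟩
  rw [mul_comm ((2 : ℝ) ^ γ)]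
  exact hm.le

omit [Fintype Ω] in
/-- 700's row-near lines of the boxes `Lc` -/
lemma nearL_of_Nb {u w : ℝ} {γ t : ℕ} {k : ℤ} {ω : Ω}
    (h : H700.SG.Nb (2 ^ γ) (H700.SG.zL F ln u t w k ω)) : nearL F ln u w γ t k ω := by
  obtain ⟨m, hm⟩ := h
  refine ⟨m, ?_⟩
  have e : (2 : ℝ) ^ ((t : ℤ) + k) * (Y (dt F u t ω) (ln ω) + w) - 2 ^ γ * m =
      H700.SG.zL F ln u t w k ω - m * 2 ^ γ := by
    unfold H700.SG.zL
    rw [Y_eq, zpow_add₀ (by norm_num), zpow_natCast, lend_eq]
    ring
  rw [e]
  exact hm.le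

open Classical in
/-- **the row-near content, boxes `Rt`** -/
theorem RNR_content {q : p.Col × Ω → ℝ} (hq : IsProb q) (hper : LPer F p q) (hM : F.Tm ≤ p.M)
    (u : ℝ) {γ : ℕ} (hγ : γ ≤ p.Γ) (T : ℕ) :
    ∑ t ∈ range T, ∑ a, q a * (if H700.SG.Nb (2 ^ γ) (H700.SG.Hh F ln a.1 u t a.2) then
      H700.sur q (fun a => F.D u (t + 1) a.2) (fun a => (F.D u t a.2, (a.1, ln a.2))) a else 0) ≤
      11 / 2 ^ γ * Hc q (fun a => F.D u T a.2) (fun a => (F.D u 0 a.2, (a.1, ln a.2))) := by
  refine le_trans (sum_le_sum fun t _ => sum_le_sum fun a _ => ?_)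
    (nearR_content hq hper hM u hγ T)
  refine mul_le_mul_of_nonneg_left ?_ (hq.nonneg a)
  by_cases h : H700.SG.Nb (2 ^ γ) (H700.SG.Hh F ln a.1 u t a.2)
  · rw [if_pos h, if_pos (nearR_of_Nb h)]
  · rw [if_neg h]
    split_ifs
    · exact H700.sur_nonneg hq _ _ _
    · exact le_rfl

variable (F ln) in
open Classical in
/-- **the own offset of the boxes `Lc`** -/
theorem exists_RNL {β : Type*} {q : p.Col × Ω → ℝ} (hq : IsProb q) (u : ℝ) (γ T : ℕ)
    (Y : p.Col × Ω → β) : ∃ w : ℝ, ∑ t ∈ range T, ∑ a, q a *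
      (if H700.SG.Nb (2 ^ γ) (H700.SG.zL F ln u t w (Prm.sc a.1.1) a.2) then
        H700.sur q (fun a => F.D u (t + 1) a.2) (fun a => (F.D u t a.2, Y a)) a else 0) ≤
      11 / 2 ^ γ * Hc q (fun a => F.D u T a.2) (fun a => (F.D u 0 a.2, Y a)) := by
  obtain ⟨θ, hθ⟩ := exists_theta F ln p hq u γ T Y
  refine ⟨θ, le_trans (sum_le_sum fun t _ => sum_le_sum fun a _ => ?_) hθ⟩
  refine mul_le_mul_of_nonneg_left ?_ (hq.nonneg a)
  by_cases h : H700.SG.Nb (2 ^ γ) (H700.SG.zL F ln u t θ (Prm.sc a.1.1) a.2)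
  · rw [if_pos h, if_pos (nearL_of_Nb h)]
  · rw [if_neg h]
    split_ifs
    · exact H700.sur_nonneg hq _ _ _
    · exact le_rfl

end frame

end Vale.Agent.P065.H268
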