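import Vale.Agent.P065.H700.SGTri
import Vale.Agent.P065.H654.SGSys
import Vale.Agent.P065.H268.SGRow2
import Vale.Agent.P065.H60.LineFr

/-!
# P065, case (I): the negligible flags, summed over the columns and the levels (helper268)
-/

set_option autoImplicit false

open Finset Real

noncomputable section

namespace Vale.Agent.P065.H268

open Vale.Agent.P065.UB Vale.Agent.P065.Ent Vale.Agent.P065.H154 Vale.Agent.P065.H725
  Vale.Agent.P065.H654

/-- **the most likely value** -/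
theorem exists_x0 {Ω δ ξ : Type*} [Fintype Ω] [Nonempty Ω] (μ : Ω → ℝ) (X : Ω → ξ) (D : Ω → δ) :
    ∃ x0 : Ω → ξ, Det D x0 ∧ ∀ w, Pr μ (fun w => (X w, D w)) (X w, D w) ≤
      Pr μ (fun w => (X w, D w)) (x0 w, D w) := by
  classical
  have h : ∀ d : δ, ∃ x ∈ univ.image X, ∀ y ∈ univ.image X,
      Pr μ (fun w => (X w, D w)) (y, d) ≤ Pr μ (fun w => (X w, D w)) (x, d) := fun d =>
    exists_max_image _ _ (univ_nonempty.image _)
  choose g hg1 hg2 using h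
  refine ⟨fun w => g (D w), fun a b hab => by simp only [hab], fun w => ?_⟩
  exact hg2 (D w) _ (mem_image_of_mem _ (mem_univ _))

section frame

variable {Ω : Type*} [Fintype Ω] {F : Fr Ω} {ln : Ω → Pt} {p : Prm} {Lab : Type*} {lam : Ω → Lab}
  {μ : Ω → ℝ}

/-- far in slope -/
lemma far_of_slope {q : ℕ} {c : p.Col} {ω ω' : Ω}
    (h : rho F ln p lam c ω' = rho F ln p lam c ω)
    (hs : 2 ^ (-(Prm.sc c.1 + (q : ℤ))) / 48 < |(ln ω').1 - (ln ω).1|) :
    H700.SG.far ln p (1 / (48 * 2 ^ q)) c.1 ω ω' := by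
  obtain ⟨-, -, hS, -⟩ := rho_same h
  unfold H700.SG.far
  rw [H700.SG.f_sub hS, abs_mul, abs_of_pos (by positivity : (0 : ℝ) < 2 ^ Prm.sc c.1)]
  have e : (1 : ℝ) / (48 * 2 ^ q) = 2 ^ Prm.sc c.1 * (2 ^ (-(Prm.sc c.1 + (q : ℤ))) / 48) := by
    rw [neg_add, zpow_add₀ (by norm_num), zpow_neg, zpow_neg, zpow_natCast]
    field_simp
  rw [e]
  exact mul_le_mul_of_nonneg_left hs.le (by positivity)

/-- **half of the fine box of a giant is far** -/
lemma far_mass (hμ : IsProb μ) {q : ℕ} {τ : ℝ} (hτ1 : τ ≤ 1 / 2) {c : p.Col} {ω : Ω}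
    (h : GiC F ln p lam μ q τ c ω) :
    1 / 2 * Pr μ (rho F ln p lam c) (rho F ln p lam c ω) ≤
      H725.ms μ (fun w' => rho F ln p lam c w' = rho F ln p lam c ω ∧
        H700.SG.far ln p (1 / (48 * 2 ^ q)) c.1 ω w') := by
  classical
  have h1 := giC_far hμ q c ω h
  have h2 : (1 / 2 : ℝ) * Pr μ (rho F ln p lam c) (rho F ln p lam c ω) ≤
      (1 - τ) * Pr μ (rho F ln p lam c) (rho F ln p lam c ω) :=
    mul_le_mul_of_nonneg_right (by linarith) (Pr_nonneg hμ _ _)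
  refine h2.trans (h1.trans ?_)
  unfold H268.msc H725.ms
  refine sum_le_sum fun x _ => ?_
  by_cases c1 : rho F ln p lam c x = rho F ln p lam c ω ∧
      2 ^ (-(Prm.sc c.1 + (q : ℤ))) / 48 < |(ln x).1 - (ln ω).1|
  · have e1 : rho F ln p lam c x = rho F ln p lam c ω ∧
        H700.SG.far ln p (1 / (48 * 2 ^ q)) c.1 ω x := ⟨c1.1, far_of_slope c1.1 c1.2⟩
    rw [if_pos c1, if_pos e1]
  · rw [if_neg c1]
    split_ifs
    · exact hμ.nonneg x
    · exact le_rfl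

lemma sum_ite_le_ms (hμ : IsProb μ) {A EE : Ω → Prop} [DecidablePred A] {f : Ω → ℝ} {d : ℝ}
    (hd : 0 ≤ d) (h0 : ∀ ω, 0 ≤ f ω) (hf : ∀ ω, f ω ≤ d * μ ω)
    (h : ∀ ω, A ω → 0 < f ω → EE ω) : ∑ ω, (if A ω then f ω else 0) ≤ d * H725.ms μ EE := by
  classical
  unfold H725.ms
  rw [mul_sum]
  refine sum_le_sum fun ω _ => ?_
  by_cases hE : EE ω
  · rw [if_pos hE]
    split_ifs
    · exact hf ω
    · exact mul_nonneg hd (hμ.nonneg ω)
  · rw [if_neg hE, mul_zero]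
    split_ifs with hA
    · by_contra hc
      exact hE (h ω hA (not_le.1 hc))
    · exact le_rfl

/-- sum over the columns of one system with blocks zero -/
lemma sum_col0_le (a : Bool) (i : Fin p.nT) (f : p.Kap → ℝ) (V : Fin (p.K + 1) → ℝ)
    (h0 : ∀ κ : p.Kap, (κ, i) ≠ col0 a i κ.2.1 → f κ ≤ 0)
    (h1 : ∀ j, f (col0 a i j).1 ≤ V j) : ∑ κ, f κ ≤ ∑ j, V j := by
  classical
  have hinj : Function.Injective (fun j : Fin (p.K + 1) => ((col0 a i j).1 : p.Kap)) := by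
    intro j j' h
    have := congrArg (fun κ : p.Kap => κ.2.1) h
    exact this
  have e1 : ∑ κ ∈ univ.image (fun j : Fin (p.K + 1) => ((col0 a i j).1 : p.Kap)), f κ =
      ∑ j, f (col0 a i j).1 := sum_image (fun x _ y _ h => hinj h)
  have e2 : ∑ κ, f κ ≤ ∑ κ ∈ univ.image (fun j : Fin (p.K + 1) => ((col0 a i j).1 : p.Kap)),
      f κ := by
    rw [← sum_sdiff (subset_univ (univ.image (fun j : Fin (p.K + 1) => ((col0 a i j).1 : p.Kap))))]
    have : ∑ κ ∈ univ \ univ.image (fun j : Fin (p.K + 1) => ((col0 a i j).1 : p.Kap)), f κ ≤ 0 := by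
      refine sum_nonpos fun κ hκ => h0 κ fun h => ?_
      have h2 := (mem_sdiff.1 hκ).2
      exact h2 (mem_image.2 ⟨κ.2.1, mem_univ _, (congrArg Prod.fst h).symm⟩)
    linarith
  refine e2.trans (e1.le.trans (sum_le_sum fun j _ => h1 j))

open Classical in
/-- **the negligible flags of one level** -/
theorem neg_t (hμ : IsProb μ) {Q : p.Col × Ω → ℝ} {d : ℝ} (hd : 0 ≤ d)
    (hle : ∀ t, Q t ≤ d / p.nT * μ t.2) {a : Bool} (hQ0 : ∀ t, 0 ≤ Q t)
    (hsy : ∀ {c : p.Col} {ω : Ω}, 0 < Q (c, ω) → Prm.sy c.1 = a)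
    (hbb : ∀ {c : p.Col} {ω : Ω}, 0 < Q (c, ω) → c.1.2.2 = (bz p, bz p)) {q : ℕ} {τ : ℝ}
    (hτ : 0 ≤ τ) (hτ1 : τ ≤ 1 / 2)
    (hgi : ∀ {c : p.Col} {ω : Ω}, 0 < Q (c, ω) → GiC F ln p lam μ q τ c ω) {E : ℕ}
    (hthr : ∀ {c : p.Col} {ω : Ω}, 0 < Q (c, ω) →
      (1 / 2 : ℝ) ^ E ≤ Pr μ (rho F ln p lam c) (rho F ln p lam c ω))
    {u v : ℝ} {γ P' s P₁ : ℕ} (hP' : 1 ≤ P') {x0 : ℕ → Ω → ℤ} {τ₁ : ℝ} (hτ₁ : 0 < τ₁) (t : ℕ)
    (hx0 : Det (F.D u t) (x0 t)) :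
    PE Q (H700.SG.Neg0 F ln p lam μ u γ P' P₁ v (1 / (48 * 2 ^ q)) s x0 τ₁ t) ≤
      d * (4 * (2 ^ (q + 6) * τ) * (P' * (E + 1)) * (1 + 1 / τ₁) *
        H725.ms μ (fun w => F.D u (t + s) w ≠ x0 t w)) := by
  have hnT : (0 : ℝ) < p.nT := by exact_mod_cast p.nT_pos
  set jj : ℤ → Fin (p.K + 1) := fun k => Fin.ofNat (p.K + 1) (k - p.k₀).toNat with hjj
  have hjjv : ∀ j : Fin (p.K + 1), jj (p.k₀ + (j : ℕ)) = j := by
    intro j
    simp only [hjj, add_sub_cancel_left, Int.toNat_natCast]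
    apply Fin.ext
    exact Nat.mod_eq_of_lt j.2
  set Kset : Finset ℤ := univ.image (fun j : Fin (p.K + 1) => p.k₀ + ((j : ℕ) : ℤ)) with hKset
  -- one offset
  have key : ∀ i : Fin p.nT, ∑ κ : p.Kap, ∑ ω, (if H700.SG.Neg0 F ln p lam μ u γ P' P₁ v
      (1 / (48 * 2 ^ q)) s x0 τ₁ t ((κ, i), ω) then Q ((κ, i), ω) else 0) ≤
      d / p.nT * (4 * (2 ^ (q + 6) * τ) * (P' * (E + 1)) * (1 + 1 / τ₁) *
        H725.ms μ (fun w => F.D u (t + s) w ≠ x0 t w)) := by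
    intro i
    set cc : ℤ → p.Col := fun k => col0 a i (jj k) with hcc
    set rk : ℤ → Ω → (ℕ × Lab) × ℤ × ℤ := fun k => rho F ln p lam (cc k) with hrk
    set G : ℤ → Ω → Prop := fun k w => k ∈ Kset ∧ GiC F ln p lam μ q τ (cc k) w ∧
      (1 / 2 : ℝ) ^ E ≤ Pr μ (rk k) (rk k w) ∧ t ≤ F.T' w with hG
    set RN : ℤ → Ω → Prop := fun k w =>
      H700.SG.Nb (2 ^ γ) (H700.SG.zL F ln u t v k w) with hRN
    set fr : ℤ → Ω → Ω → Prop := fun k => H700.SG.far ln p (1 / (48 * 2 ^ q)) (cc k).1 with hfr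
    have hsc : ∀ k ∈ Kset, Prm.sc (cc k).1 = k := by
      intro k hk
      obtain ⟨j, -, rfl⟩ := mem_image.1 hk
      simp only [hcc]
      rw [hjjv]
      rfl
    have h := H422.sgneg_t hμ (H700.SG.Lc F ln u t p.k₀ a γ v)
      (fun i j hij w w' h => H700.SG.Lc_nest hij h) rk (F.D u (t + s)) (x0 t)
      (fun k w w' h => F.D_of_x (rho_same h).1)
      (fun k w w' h => hx0 _ _ (F.D_of_x (rho_same h).1)) G RN fr (P' := P') (E := E) hP'
      (C := 2 ^ (q + 6) * τ) (by positivity) hτ₁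
      (fun k w => by
        refine le_trans ?_ (giC_mass hμ q hτ (cc k) w)
        unfold H268.msc H725.ms
        refine sum_le_sum fun x _ => ?_
        by_cases c1 : rk k x = rk k w ∧ G k x
        · have c2 : rho F ln p lam (cc k) x = rho F ln p lam (cc k) w ∧
            GiC F ln p lam μ q τ (cc k) x := ⟨c1.1, c1.2.2.1⟩
          rw [if_pos c1, if_pos c2]
        · rw [if_neg c1]
          split_ifs
          · exact hμ.nonneg x
          · exact le_rfl)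
      (fun k w hGk => far_mass hμ hτ1 hGk.2.1)
      (fun k w hGk hn w' hw' => by
        have h1 := H700.SG.Lc_of_rho (F := F) (ln := ln) (lam := lam) (c := cc k) (u := u) (t := t)
          (γ := γ) (w := v) hw' hGk.2.2.2 (by rw [hsc k hGk.1]; exact hn)
        rw [hsc k hGk.1] at h1
        exact h1)
      (fun k w hGk => hGk.2.2.1) Kset
    -- the sum over the columns
    have h2 : ∑ κ : p.Kap, ∑ ω, (if H700.SG.Neg0 F ln p lam μ u γ P' P₁ v
        (1 / (48 * 2 ^ q)) s x0 τ₁ t ((κ, i), ω) then Q ((κ, i), ω) else 0) ≤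
        ∑ j : Fin (p.K + 1), d / p.nT * H725.ms μ (fun w => G (p.k₀ + (j : ℕ)) w ∧
          ¬ RN (p.k₀ + (j : ℕ)) w ∧ ¬ H422.Maj μ (H700.SG.Lc F ln u t p.k₀ a γ v) P' rk fr
            (p.k₀ + (j : ℕ)) w ∧ H422.Un μ (H700.SG.Lc F ln u t p.k₀ a γ v) (F.D u (t + s)) (x0 t)
            τ₁ (p.k₀ + (j : ℕ)) w) := by
      refine sum_col0_le a i _ _ (fun κ hκ => ?_) (fun j => ?_)
      · refine sum_nonpos fun ω _ => ?_
        split_ifs
        · by_contra hc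
          push Not at hc
          apply hκ
          have e1 := hsy hc
          have e2 := hbb hc
          unfold col0
          obtain ⟨k1, k2, k3⟩ := κ
          simp only at e1 e2 ⊢
          rw [← e1, e2]
          rfl
        · exact le_rfl
      · refine sum_ite_le_ms hμ (by positivity) (fun ω => hQ0 _) (fun ω => hle _) ?_
        intro ω hneg h0
        have hjc : cc (p.k₀ + (j : ℕ)) = col0 a i j := by
          simp only [hcc]
          rw [hjjv]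
        obtain ⟨n1, n2, n3, n4⟩ := hneg
        refine ⟨⟨mem_image_of_mem _ (mem_univ j), ?_, ?_, ?_⟩, ?_, ?_, ?_⟩
        · rw [hjc]
          exact hgi h0
        · simp only [hrk]
          rw [hjc]
          exact hthr h0
        · simp only at n1
          omega
        · intro hR
          exact n2 hR
        · intro hM
          apply n3
          unfold H422.Maj at hM
          simp only [hrk, hfr] at hM
          rw [hjc] at hM
          exact hM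
        · exact n4
    refine h2.trans ?_
    rw [← mul_sum]
    refine mul_le_mul_of_nonneg_left ?_ (by positivity)
    refine le_trans (le_of_eq ?_) h
    rw [hKset, sum_image]
    intro j _ j' _ hj
    simp only at hj
    apply Fin.ext
    omega
  -- all offsets
  have e : PE Q (H700.SG.Neg0 F ln p lam μ u γ P' P₁ v (1 / (48 * 2 ^ q)) s x0 τ₁ t) =
      ∑ i : Fin p.nT, ∑ κ : p.Kap, ∑ ω, (if H700.SG.Neg0 F ln p lam μ u γ P' P₁ v
      (1 / (48 * 2 ^ q)) s x0 τ₁ t ((κ, i), ω) then Q ((κ, i), ω) else 0) := by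
    rw [← ms_eq_PE]
    unfold H725.ms
    rw [Fintype.sum_prod_type, Fintype.sum_prod_type_right]
  rw [e]
  refine (sum_le_sum fun i _ => key i).trans (le_of_eq ?_)
  rw [sum_const, card_univ, Fintype.card_fin, nsmul_eq_mul]
  field_simp

/-- **the negligible flags of all levels** -/
theorem neg_sum (hμ : IsProb μ) {Q : p.Col × Ω → ℝ} {d : ℝ} (hd : 0 ≤ d)
    (hle : ∀ t, Q t ≤ d / p.nT * μ t.2) {a : Bool} (hQ0 : ∀ t, 0 ≤ Q t)
    (hsy : ∀ {c : p.Col} {ω : Ω}, 0 < Q (c, ω) → Prm.sy c.1 = a)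
    (hbb : ∀ {c : p.Col} {ω : Ω}, 0 < Q (c, ω) → c.1.2.2 = (bz p, bz p)) {q : ℕ} {τ : ℝ}
    (hτ : 0 ≤ τ) (hτ1 : τ ≤ 1 / 2)
    (hgi : ∀ {c : p.Col} {ω : Ω}, 0 < Q (c, ω) → GiC F ln p lam μ q τ c ω) {E : ℕ}
    (hthr : ∀ {c : p.Col} {ω : Ω}, 0 < Q (c, ω) →
      (1 / 2 : ℝ) ^ E ≤ Pr μ (rho F ln p lam c) (rho F ln p lam c ω))
    {u v : ℝ} {γ P' s P₁ : ℕ} (hP' : 1 ≤ P') {x0 : ℕ → Ω → ℤ} {τ₁ : ℝ} (hτ₁ : 0 < τ₁)
    (hx0 : ∀ t, Det (F.D u t) (x0 t))
    (hmax : ∀ t w, Pr μ (fun w => (F.D u (t + s) w, F.D u t w)) (F.D u (t + s) w, F.D u t w) ≤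
      Pr μ (fun w => (F.D u (t + s) w, F.D u t w)) (x0 t w, F.D u t w)) (T : ℕ) {Hx : ℝ}
    (hHx : H μ (F.P.W F.n) ≤ Hx) :
    ∑ t ∈ range T, PE Q (H700.SG.Neg0 F ln p lam μ u γ P' P₁ v (1 / (48 * 2 ^ q)) s x0 τ₁ t) ≤
      d * (4 * (2 ^ (q + 6) * τ) * (P' * (E + 1)) * (1 + 1 / τ₁) * (s * Hx)) := by
  have h1 : ∀ t ∈ range T, PE Q (H700.SG.Neg0 F ln p lam μ u γ P' P₁ v (1 / (48 * 2 ^ q)) s x0 τ₁
      t) ≤ d * (4 * (2 ^ (q + 6) * τ) * (P' * (E + 1)) * (1 + 1 / τ₁)) *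
        Hc μ (F.D u (t + s)) (F.D u t) := by
    intro t _
    refine (neg_t hμ hd hle hQ0 hsy hbb hτ hτ1 hgi hthr hP' hτ₁ t (hx0 t)).trans ?_
    rw [← mul_assoc]
    refine mul_le_mul_of_nonneg_left ?_ (by positivity)
    exact H422.ms_ne_le hμ (F.D u t) (F.D u (t + s)) (x0 t) (hx0 t) fun w _ => hmax t w
  refine (sum_le_sum h1).trans ?_
  have hnn : 0 ≤ d * (4 * (2 ^ (q + 6) * τ) * (P' * (E + 1)) * (1 + 1 / τ₁)) := by positivity
  rw [← mul_sum]
  refine (mul_le_mul_of_nonneg_left ?_ hnn).trans (le_of_eq (mul_assoc _ _ _))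
  refine (H60.sum_levels_le hμ (F.D u) (F.P.W F.n) (fun v => F.D_det u v)
    (fun v w w' h => F.D_of_x (F.xW _ _ h)) s T).trans ?_
  exact mul_le_mul_of_nonneg_left hHx (Nat.cast_nonneg s)

end frame

end Vale.Agent.P065.H268
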