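import Vale.Agent.P065.H587.Ent

/-!
# P065: entropy along a chain with binary splits (helper268)

`D 0, D 1, ...` is a chain of refining variables, `Y` a further variable.  A cell is a value of
`(D t, Y)`.  Some cells are marked (`S`), and in a marked cell `D (t + 1)` has at most two values,
told apart by the event `M`.  Then the conditional entropy of `D T` is at most the cost of a code
which uses in every marked cell a fixed split `θ, 1 - θ`, and the true surprise in the others.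
-/

set_option autoImplicit false

open Finset Real

noncomputable section

namespace Vale.Agent.P065.H268

open Vale.Agent.P065.Ent

variable {Ω : Type*} [Fintype Ω] {α β γ : Type*} {μ : Ω → ℝ}

/-- the surprise of `X` given `Y` -/
def sur (μ : Ω → ℝ) (X : Ω → α) (Y : Ω → β) (ω : Ω) : ℝ :=
  - log (Pr μ (fun ω => (X ω, Y ω)) (X ω, Y ω) / Pr μ Y (Y ω))

lemma sur_nonneg (hμ : IsProb μ) (X : Ω → α) (Y : Ω → β) {ω : Ω} (h : 0 < μ ω) :
    0 ≤ sur μ X Y ω := by
  unfold sur
  have h1 := Pr_pos hμ (fun ω => (X ω, Y ω)) h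
  have h2 := Pr_pos hμ Y h
  have h3 : Pr μ (fun ω => (X ω, Y ω)) (X ω, Y ω) ≤ Pr μ Y (Y ω) := Pr_mono hμ (det_snd X Y) ω
  have h4 : log (Pr μ (fun ω => (X ω, Y ω)) (X ω, Y ω) / Pr μ Y (Y ω)) ≤ 0 :=
    log_nonpos (by positivity) (div_le_one_of_le₀ h3 h2.le)
  linarith

open Classical in
/-- the cost of the code: `θ` on the event `M`, `1 - θ` off it, in the marked cells -/
def cost (μ : Ω → ℝ) (X : Ω → α) (Y : Ω → β) (S M : Ω → Prop) (θ : Ω → ℝ) (ω : Ω) : ℝ :=
  if S ω then (if M ω then - log (θ ω) else - log (1 - θ ω)) else sur μ X Y ω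

open Classical in
/-- one step -/
theorem split_one (hμ : IsProb μ) (X : Ω → α) (Y : Ω → β) (S M : Ω → Prop) (θ : Ω → ℝ)
    (hS : Det Y S) (hθ : Det Y θ) (h0 : ∀ ω, 0 < θ ω) (h1 : ∀ ω, θ ω < 1)
    (hM : ∀ ω ω', Y ω = Y ω' → S ω → (X ω = X ω' ↔ (M ω ↔ M ω'))) :
    Hc μ X Y ≤ ∑ ω, μ ω * cost μ X Y S M θ ω := by
  -- the kernel
  let q : β → α → ℝ := fun y x =>
    if h : ∃ ω, Y ω = y then
      (if S h.choose then
        (if ∃ ω, Y ω = y ∧ X ω = x then
          (if ∃ ω, Y ω = y ∧ X ω = x ∧ M ω then θ h.choose else 1 - θ h.choose) else 0)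
      else Pr μ (fun ω => (X ω, Y ω)) (x, y) / Pr μ Y y)
    else 0
  -- the kernel in a marked cell
  have q1 : ∀ ω x, S ω → q (Y ω) x = if ∃ ω', Y ω' = Y ω ∧ X ω' = x then
      (if ∃ ω', Y ω' = Y ω ∧ X ω' = x ∧ M ω' then θ ω else 1 - θ ω) else 0 := by
    intro ω x hs
    have hex : ∃ ω', Y ω' = Y ω := ⟨ω, rfl⟩
    have e1 := hex.choose_spec
    have e2 : S hex.choose := by rw [hS _ _ e1]; exact hs
    have e3 : θ hex.choose = θ ω := hθ _ _ e1
    simp only [q]
    rw [dif_pos hex, if_pos e2, e3]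
  have q2 : ∀ ω x, ¬ S ω → q (Y ω) x = Pr μ (fun ω => (X ω, Y ω)) (x, Y ω) / Pr μ Y (Y ω) := by
    intro ω x hs
    have hex : ∃ ω', Y ω' = Y ω := ⟨ω, rfl⟩
    have e1 := hex.choose_spec
    have e2 : ¬ S hex.choose := by rw [hS _ _ e1]; exact hs
    simp only [q]
    rw [dif_pos hex, if_neg e2]
  -- the value at the own point
  have q3 : ∀ ω, S ω → q (Y ω) (X ω) = if M ω then θ ω else 1 - θ ω := by
    intro ω hs
    rw [q1 ω _ hs, if_pos ⟨ω, rfl, rfl⟩]
    by_cases hm : M ω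
    · rw [if_pos ⟨ω, rfl, rfl, hm⟩, if_pos hm]
    · rw [if_neg, if_neg hm]
      rintro ⟨ω', e1, e2, e3⟩
      exact hm (((hM ω ω' e1.symm hs).1 e2.symm).2 e3)
  have key := gibbs hμ X Y q ?_ ?_ ?_
  · refine key.trans (le_of_eq (sum_congr rfl fun ω _ => ?_))
    congr 1
    unfold cost
    by_cases hs : S ω
    · rw [q3 ω hs, if_pos hs]
      split_ifs <;> rfl
    · rw [q2 ω _ hs, if_neg hs]
      rfl
  · intro ω hω
    by_cases hs : S ω
    · rw [q3 ω hs]
      split_ifs
      · exact h0 ω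
      · linarith [h1 ω]
    · rw [q2 ω _ hs]
      exact div_pos (Pr_pos hμ (fun ω => (X ω, Y ω)) hω) (Pr_pos hμ Y hω)
  · intro ω x _
    by_cases hs : S ω
    · rw [q1 ω _ hs]
      split_ifs
      · exact (h0 ω).le
      · linarith [h1 ω]
      · exact le_rfl
    · rw [q2 ω _ hs]
      exact div_nonneg (Pr_nonneg hμ _ _) (Pr_nonneg hμ _ _)
  · intro ω
    by_cases hs : S ω
    · -- at most two values
      set V : Finset α := (univ.image X).filter fun x => ∃ ω', Y ω' = Y ω ∧ X ω' = x with hV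
      set V1 : Finset α := V.filter fun x => ∃ ω', Y ω' = Y ω ∧ X ω' = x ∧ M ω' with hV1
      set V2 : Finset α := V.filter fun x => ¬ ∃ ω', Y ω' = Y ω ∧ X ω' = x ∧ M ω' with hV2
      have c1 : #V1 ≤ 1 := by
        rw [card_le_one]
        intro x hx x' hx'
        obtain ⟨ω1, e1, e2, e3⟩ := (mem_filter.mp hx).2
        obtain ⟨ω2, f1, f2, f3⟩ := (mem_filter.mp hx').2
        rw [← e2, ← f2]
        have hs1 : S ω1 := by rw [hS _ _ e1]; exact hs
        exact (hM ω1 ω2 (e1.trans f1.symm) hs1).2 (iff_of_true e3 f3)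
      have c2 : #V2 ≤ 1 := by
        rw [card_le_one]
        intro x hx x' hx'
        obtain ⟨hx1, hx2⟩ := mem_filter.mp hx
        obtain ⟨hx1', hx2'⟩ := mem_filter.mp hx'
        obtain ⟨ω1, e1, e2⟩ := (mem_filter.mp hx1).2
        obtain ⟨ω2, f1, f2⟩ := (mem_filter.mp hx1').2
        rw [← e2, ← f2]
        have hs1 : S ω1 := by rw [hS _ _ e1]; exact hs
        exact (hM ω1 ω2 (e1.trans f1.symm) hs1).2
          (iff_of_false (fun h => hx2 ⟨ω1, e1, e2, h⟩) (fun h => hx2' ⟨ω2, f1, f2, h⟩))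
      have s1 : ∑ x ∈ univ.image X, q (Y ω) x = ∑ x ∈ V, q (Y ω) x := by
        rw [hV, sum_filter]
        refine sum_congr rfl fun x _ => ?_
        split_ifs with h
        · rfl
        · rw [q1 ω _ hs, if_neg h]
      have s2 : ∑ x ∈ V, q (Y ω) x = ∑ x ∈ V1, q (Y ω) x + ∑ x ∈ V2, q (Y ω) x :=
        (sum_filter_add_sum_filter_not V _ _).symm
      have s3 : ∑ x ∈ V1, q (Y ω) x ≤ θ ω := by
        have : ∀ x ∈ V1, q (Y ω) x = θ ω := by
          intro x hx
          obtain ⟨hx1, hx2⟩ := mem_filter.mp hx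
          rw [q1 ω _ hs, if_pos (mem_filter.mp hx1).2, if_pos hx2]
        rw [sum_congr rfl this, sum_const, nsmul_eq_mul]
        have : (#V1 : ℝ) ≤ 1 := by exact_mod_cast c1
        nlinarith [h0 ω]
      have s4 : ∑ x ∈ V2, q (Y ω) x ≤ 1 - θ ω := by
        have : ∀ x ∈ V2, q (Y ω) x = 1 - θ ω := by
          intro x hx
          obtain ⟨hx1, hx2⟩ := mem_filter.mp hx
          rw [q1 ω _ hs, if_pos (mem_filter.mp hx1).2, if_neg hx2]
        rw [sum_congr rfl this, sum_const, nsmul_eq_mul]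
        have : (#V2 : ℝ) ≤ 1 := by exact_mod_cast c2
        nlinarith [h1 ω]
      rw [s1, s2]
      linarith
    · have e : ∀ x ∈ univ.image X, q (Y ω) x =
          Pr μ (fun ω => (X ω, Y ω)) (x, Y ω) / Pr μ Y (Y ω) := fun x _ => q2 ω x hs
      rw [sum_congr rfl e, ← sum_div, sum_Pr_pair]
      exact div_self_le_one _

/-- the chain rule along a chain of refining variables -/
lemma Hc_chain {δ : ℕ → Type*} (D : ∀ t, Ω → δ t) (hD : ∀ t, Det (D (t + 1)) (D t)) (Y : Ω → β)
    (T : ℕ) : Hc μ (D T) (fun ω => (D 0 ω, Y ω)) =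
      ∑ t ∈ range T, Hc μ (D (t + 1)) (fun ω => (D t ω, Y ω)) := by
  induction T with
  | zero =>
    rw [sum_range_zero]
    exact Hc_eq_zero (det_fst _ _)
  | succ T ih =>
    rw [sum_range_succ, ← ih]
    have hD0 : ∀ T, Det (D T) (D 0) := by
      intro T
      induction T with
      | zero => exact Det.refl _
      | succ T ih => exact (hD T).trans ih
    have e1 : Hc μ (D (T + 1)) (fun ω => (D 0 ω, Y ω)) =
        H μ (fun ω => (D (T + 1) ω, Y ω)) - H μ (fun ω => (D 0 ω, Y ω)) := by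
      refine Hc_eq (det_fst _ _) (((det_fst _ _).trans (hD0 _)).pair (det_snd _ _)) ?_
      exact (det_fst _ _).pair ((det_snd _ _).trans (det_snd _ _))
    have e2 : Hc μ (D T) (fun ω => (D 0 ω, Y ω)) =
        H μ (fun ω => (D T ω, Y ω)) - H μ (fun ω => (D 0 ω, Y ω)) := by
      refine Hc_eq (det_fst _ _) (((det_fst _ _).trans (hD0 _)).pair (det_snd _ _)) ?_
      exact (det_fst _ _).pair ((det_snd _ _).trans (det_snd _ _))
    have e3 : Hc μ (D (T + 1)) (fun ω => (D T ω, Y ω)) =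
        H μ (fun ω => (D (T + 1) ω, Y ω)) - H μ (fun ω => (D T ω, Y ω)) := by
      refine Hc_eq (det_fst _ _) (((det_fst _ _).trans (hD T)).pair (det_snd _ _)) ?_
      exact (det_fst _ _).pair ((det_snd _ _).trans (det_snd _ _))
    rw [e1, e2, e3]
    ring

/-- **binary splits along a chain**, general form -/
theorem split_chain (hμ : IsProb μ) {δ : ℕ → Type*} (D : ∀ t, Ω → δ t)
    (hD : ∀ t, Det (D (t + 1)) (D t)) (Y : Ω → β) (T : ℕ) (S M : ℕ → Ω → Prop) (θ : ℕ → Ω → ℝ)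
    (hS : ∀ t, Det (fun ω => (D t ω, Y ω)) (S t)) (hθ : ∀ t, Det (fun ω => (D t ω, Y ω)) (θ t))
    (h0 : ∀ t ω, 0 < θ t ω) (h1 : ∀ t ω, θ t ω < 1)
    (hM : ∀ t ω ω', D t ω = D t ω' → Y ω = Y ω' → S t ω →
      (D (t + 1) ω = D (t + 1) ω' ↔ (M t ω ↔ M t ω'))) :
    Hc μ (D T) (fun ω => (D 0 ω, Y ω)) ≤ ∑ t ∈ range T, ∑ ω, μ ω *
      cost μ (D (t + 1)) (fun ω => (D t ω, Y ω)) (S t) (M t) (θ t) ω := by
  rw [Hc_chain D hD Y T]
  refine sum_le_sum fun t _ => ?_
  refine split_one hμ _ _ (S t) (M t) (θ t) (hS t) (hθ t) (h0 t) (h1 t) ?_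
  intro ω ω' e hs
  exact hM t ω ω' (congrArg Prod.fst e) (congrArg Prod.snd e) hs

lemma neg_log_one_sub_le {θ : ℝ} (h0 : 0 ≤ θ) (h1 : θ ≤ 1 / 2) : - log (1 - θ) ≤ 2 * θ := by
  have h2 : 0 < 1 - θ := by linarith
  have h3 := log_le_sub_one_of_pos (x := (1 - θ)⁻¹) (by positivity)
  rw [log_inv] at h3
  have h4 : (1 - θ)⁻¹ - 1 = θ / (1 - θ) := by field_simp; ring
  have h5 : θ / (1 - θ) ≤ 2 * θ := by
    rw [div_le_iff₀ h2]
    nlinarith
  linarith

open Classical in
/-- **binary splits along a chain**: two kinds of marked cells.  `S`: true splits, with on average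
at most `N2` marked cells along a path, of which at most `N3` on the side `M`;  `Z`: trivial
splits, where the side `M` has on average at most `n0` visits.  The rest costs the true surprise. -/
theorem split_two (hμ : IsProb μ) {δ : ℕ → Type*} (D : ∀ t, Ω → δ t)
    (hD : ∀ t, Det (D (t + 1)) (D t)) (Y : Ω → β) (T : ℕ) (S Z M : ℕ → Ω → Prop)
    (hS : ∀ t, Det (fun ω => (D t ω, Y ω)) (S t)) (hZ : ∀ t, Det (fun ω => (D t ω, Y ω)) (Z t))
    (hM : ∀ t ω ω', D t ω = D t ω' → Y ω = Y ω' → (S t ω ∨ Z t ω) →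
      (D (t + 1) ω = D (t + 1) ω' ↔ (M t ω ↔ M t ω')))
    {N2 N3 n0 θ0 : ℝ} (hN3 : 0 < N3) (hN : 2 * N3 ≤ N2)
    (hθ0 : 0 < θ0) (hθ1 : θ0 ≤ 1 / 2)
    (hS2 : ∑ t ∈ range T, ∑ ω, (if S t ω then μ ω else 0) ≤ N2)
    (hS3 : ∑ t ∈ range T, ∑ ω, (if S t ω ∧ M t ω then μ ω else 0) ≤ N3)
    (hZ3 : ∑ t ∈ range T, ∑ ω, (if ¬ S t ω ∧ Z t ω ∧ M t ω then μ ω else 0) ≤ n0) :
    Hc μ (D T) (fun ω => (D 0 ω, Y ω)) ≤ N3 * (log (N2 / N3) + 2) + n0 * (- log θ0) +
      T * (2 * θ0) + ∑ t ∈ range T, ∑ ω, (if S t ω ∨ Z t ω then 0 else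
        μ ω * sur μ (D (t + 1)) (fun ω => (D t ω, Y ω)) ω) := by
  have hN2 : 0 < N2 := by linarith
  set θ1 : ℝ := N3 / N2 with hθ1'
  have t0 : 0 < θ1 := by positivity
  have t1 : θ1 ≤ 1 / 2 := by
    rw [hθ1', div_le_iff₀ hN2]; linarith
  have key := split_chain hμ D hD Y T (fun t ω => S t ω ∨ Z t ω) M
    (fun t ω => if S t ω then θ1 else θ0) ?_ ?_ ?_ ?_ hM
  · refine key.trans ?_
    have hb : ∀ t ω, μ ω * cost μ (D (t + 1)) (fun ω => (D t ω, Y ω)) (fun ω => S t ω ∨ Z t ω)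
        (M t) (fun ω => if S t ω then θ1 else θ0) ω ≤
        (- log θ1) * (if S t ω ∧ M t ω then μ ω else 0) + (2 * θ1) * (if S t ω then μ ω else 0) +
        (- log θ0) * (if ¬ S t ω ∧ Z t ω ∧ M t ω then μ ω else 0) + (2 * θ0) * μ ω +
        (if S t ω ∨ Z t ω then 0 else μ ω * sur μ (D (t + 1)) (fun ω => (D t ω, Y ω)) ω) := by
      intro t ω
      have hm := hμ.nonneg ω
      have l1 := neg_log_one_sub_le t0.le t1
      have l0 := neg_log_one_sub_le hθ0.le hθ1
      have p1 : 0 ≤ - log θ1 := by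
        have := log_nonpos t0.le (by linarith)
        linarith
      have p0 : 0 ≤ - log θ0 := by
        have := log_nonpos hθ0.le (by linarith)
        linarith
      unfold cost
      by_cases hs : S t ω
      · by_cases hm' : M t ω
        · simp only [hs, hm', true_or, and_self, not_true_eq_false, false_and, if_true, if_false]
          nlinarith [mul_nonneg t0.le hm, mul_nonneg hθ0.le hm]
        · simp only [hs, hm', true_or, and_false, if_true, if_false]
          nlinarith [mul_nonneg hθ0.le hm, mul_le_mul_of_nonneg_left l1 hm]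
      · by_cases hz : Z t ω
        · by_cases hm' : M t ω
          · simp only [hs, hz, hm', false_or, and_self, false_and, not_false_eq_true, if_true,
              if_false]
            nlinarith [mul_nonneg hθ0.le hm]
          · simp only [hs, hz, hm', false_or, and_false, if_true, if_false]
            nlinarith [mul_le_mul_of_nonneg_left l0 hm]
        · simp only [hs, hz, or_self, false_and, and_false, if_false]
          nlinarith [mul_nonneg hθ0.le hm]
    refine (sum_le_sum fun t _ => sum_le_sum fun ω _ => hb t ω).trans ?_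
    simp only [sum_add_distrib, ← mul_sum]
    rw [hμ.sum, sum_const, card_range, nsmul_eq_mul]
    have p1 : 0 ≤ - log θ1 := by
      have := log_nonpos t0.le (by linarith)
      linarith
    have p0 : 0 ≤ - log θ0 := by
      have := log_nonpos hθ0.le (by linarith)
      linarith
    have b1 := mul_le_mul_of_nonneg_left hS3 p1
    have b2 := mul_le_mul_of_nonneg_left hS2 (by positivity : 0 ≤ 2 * θ1)
    have b3 := mul_le_mul_of_nonneg_left hZ3 p0
    have e1 : - log θ1 = log (N2 / N3) := by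
      rw [hθ1', ← log_inv, inv_div]
    have e2 : 2 * θ1 * N2 = 2 * N3 := by
      rw [hθ1']; field_simp
    rw [e1] at b1
    rw [e1]
    nlinarith
  · intro t ω ω' e
    have e1 : S t ω = S t ω' := hS t ω ω' e
    have e2 : Z t ω = Z t ω' := hZ t ω ω' e
    simp only [e1, e2]
  · intro t ω ω' e
    have e1 : S t ω = S t ω' := hS t ω ω' e
    simp only [e1]
  · intro t ω
    split_ifs
    · exact t0
    · exact hθ0
  · intro t ω
    split_ifs <;> linarith

end Vale.Agent.P065.H268
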