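import Vale.Agent.P065.H268.Split

/-!
# P065: entropy along a chain with binary splits and late flags (helper268)

As in `Split`, but at every level `t` some flags may be *late* (`L t`); nothing is known about
the position of the late flags in a marked cell.  Every cell has at most two children.  `a t` is a
function of the cell, `0 < a t ≤ 1 / 2`; a late flag pays `log 2 - log (a t)`, every other flag
pays at most `2 a t` more.
-/

set_option autoImplicit false

open Finset Real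

noncomputable section

namespace Vale.Agent.P065.H268

open Vale.Agent.P065.Ent

variable {Ω : Type*} [Fintype Ω] {α β γ : Type*} {μ : Ω → ℝ}

open Classical in
/-- the cost of the code with late flags -/
def costL (μ : Ω → ℝ) (X : Ω → α) (Y : Ω → β) (L S M : Ω → Prop) (θ a : Ω → ℝ) (ω : Ω) : ℝ :=
  if L ω then log 2 - log (a ω) else 2 * a ω +
    (if S ω then (if M ω then - log (θ ω) else - log (1 - θ ω)) else sur μ X Y ω)

open Classical in
/-- one step -/
theorem late_one (hμ : IsProb μ) (X : Ω → α) (Y : Ω → β) (L S M : Ω → Prop) (θ a : Ω → ℝ)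
    (hS : Det Y S) (hθ : Det Y θ) (ha : Det Y a) (h0 : ∀ ω, 0 < θ ω) (h1 : ∀ ω, θ ω < 1)
    (ha0 : ∀ ω, 0 < a ω) (ha1 : ∀ ω, a ω ≤ 1 / 2)
    (htwo : ∀ ω, ∃ s : Finset α, #s ≤ 2 ∧ ∀ ω', Y ω' = Y ω → X ω' ∈ s)
    (hM : ∀ ω ω', Y ω = Y ω' → S ω → ¬ L ω → ¬ L ω' → (X ω = X ω' ↔ (M ω ↔ M ω'))) :
    Hc μ X Y ≤ ∑ ω, μ ω * costL μ X Y L S M θ a ω := by
  -- the kernel of the short flags
  let q : β → α → ℝ := fun y x =>
    if h : ∃ ω, Y ω = y then
      (if S h.choose then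
        (if ∃ ω, Y ω = y ∧ X ω = x ∧ ¬ L ω then
          (if ∃ ω, Y ω = y ∧ X ω = x ∧ ¬ L ω ∧ M ω then θ h.choose else 1 - θ h.choose) else 0)
      else Pr μ (fun ω => (X ω, Y ω)) (x, y) / Pr μ Y y)
    else 0
  have q1 : ∀ ω x, S ω → q (Y ω) x = if ∃ ω', Y ω' = Y ω ∧ X ω' = x ∧ ¬ L ω' then
      (if ∃ ω', Y ω' = Y ω ∧ X ω' = x ∧ ¬ L ω' ∧ M ω' then θ ω else 1 - θ ω) else 0 := by
    intro ω x hs
    have hex : ∃ ω', Y ω' = Y ω := ⟨ω, rfl⟩
    have e1 := hex.choose_spec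
    have e2 : S hex.choose := by rw [hS _ _ e1]; exact hs
    have e3 : θ hex.choose = θ ω := hθ _ _ e1
    simp only [q]
    rw [dif_pos hex, if_pos e2, e3]
  have q2 : ∀ ω x, ¬ S ω → q (Y ω) x = Pr μ (fun ω => (X ω, Y ω)) (x, Y ω) / Pr μ Y (Y ω) := by
    intro ω x hs
    have hex : ∃ ω', Y ω' = Y ω := ⟨ω, rfl⟩
    have e1 := hex.choose_spec
    have e2 : ¬ S hex.choose := by rw [hS _ _ e1]; exact hs
    simp only [q]
    rw [dif_pos hex, if_neg e2]
  have q3 : ∀ ω, S ω → ¬ L ω → q (Y ω) (X ω) = if M ω then θ ω else 1 - θ ω := by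
    intro ω hs hl
    rw [q1 ω _ hs, if_pos ⟨ω, rfl, rfl, hl⟩]
    by_cases hm : M ω
    · rw [if_pos ⟨ω, rfl, rfl, hl, hm⟩, if_pos hm]
    · rw [if_neg, if_neg hm]
      rintro ⟨ω', e1, e2, e3, e4⟩
      exact hm (((hM ω ω' e1.symm hs hl e3).1 e2.symm).2 e4)
  have q0 : ∀ ω x, 0 ≤ q (Y ω) x := by
    intro ω x
    by_cases hs : S ω
    · rw [q1 ω _ hs]
      split_ifs
      · exact (h0 ω).le
      · linarith [h1 ω]
      · exact le_rfl
    · rw [q2 ω _ hs]
      exact div_nonneg (Pr_nonneg hμ _ _) (Pr_nonneg hμ _ _)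
  have qs : ∀ ω, ∑ x ∈ univ.image X, q (Y ω) x ≤ 1 := by
    intro ω
    by_cases hs : S ω
    · set V : Finset α := (univ.image X).filter fun x => ∃ ω', Y ω' = Y ω ∧ X ω' = x ∧ ¬ L ω'
        with hV
      set V1 : Finset α := V.filter fun x => ∃ ω', Y ω' = Y ω ∧ X ω' = x ∧ ¬ L ω' ∧ M ω' with hV1
      set V2 : Finset α := V.filter fun x => ¬ ∃ ω', Y ω' = Y ω ∧ X ω' = x ∧ ¬ L ω' ∧ M ω'
        with hV2
      have c1 : #V1 ≤ 1 := by
        rw [card_le_one]
        intro x hx x' hx'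
        obtain ⟨ω1, e1, e2, e3, e4⟩ := (mem_filter.mp hx).2
        obtain ⟨ω2, f1, f2, f3, f4⟩ := (mem_filter.mp hx').2
        rw [← e2, ← f2]
        have hs1 : S ω1 := by rw [hS _ _ e1]; exact hs
        exact (hM ω1 ω2 (e1.trans f1.symm) hs1 e3 f3).2 (iff_of_true e4 f4)
      have c2 : #V2 ≤ 1 := by
        rw [card_le_one]
        intro x hx x' hx'
        obtain ⟨hx1, hx2⟩ := mem_filter.mp hx
        obtain ⟨hx1', hx2'⟩ := mem_filter.mp hx'
        obtain ⟨ω1, e1, e2, e3⟩ := (mem_filter.mp hx1).2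
        obtain ⟨ω2, f1, f2, f3⟩ := (mem_filter.mp hx1').2
        rw [← e2, ← f2]
        have hs1 : S ω1 := by rw [hS _ _ e1]; exact hs
        exact (hM ω1 ω2 (e1.trans f1.symm) hs1 e3 f3).2
          (iff_of_false (fun h => hx2 ⟨ω1, e1, e2, e3, h⟩) (fun h => hx2' ⟨ω2, f1, f2, f3, h⟩))
      have s1 : ∑ x ∈ univ.image X, q (Y ω) x = ∑ x ∈ V, q (Y ω) x := by
        rw [hV, sum_filter]
        refine sum_congr rfl fun x _ => ?_
        split_ifs with h
        · rfl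
        · rw [q1 ω _ hs, if_neg h]
      have s2 : ∑ x ∈ V, q (Y ω) x = ∑ x ∈ V1, q (Y ω) x + ∑ x ∈ V2, q (Y ω) x :=
        (sum_filter_add_sum_filter_not V _ _).symm
      have s3 : ∑ x ∈ V1, q (Y ω) x ≤ θ ω := by
        have : ∀ x ∈ V1, q (Y ω) x = θ ω := by
          intro x hx
          obtain ⟨hx1, hx2⟩ := mem_filter.mp hx
          rw [q1 ω _ hs, if_pos (mem_filter.mp hx1).2, if_pos hx2]
        rw [sum_congr rfl this, sum_const, nsmul_eq_mul]
        have : (#V1 : ℝ) ≤ 1 := by exact_mod_cast c1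
        nlinarith [h0 ω]
      have s4 : ∑ x ∈ V2, q (Y ω) x ≤ 1 - θ ω := by
        have : ∀ x ∈ V2, q (Y ω) x = 1 - θ ω := by
          intro x hx
          obtain ⟨hx1, hx2⟩ := mem_filter.mp hx
          rw [q1 ω _ hs, if_pos (mem_filter.mp hx1).2, if_neg hx2]
        rw [sum_congr rfl this, sum_const, nsmul_eq_mul]
        have : (#V2 : ℝ) ≤ 1 := by exact_mod_cast c2
        nlinarith [h1 ω]
      rw [s1, s2]
      linarith
    · have e : ∀ x ∈ univ.image X, q (Y ω) x =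
          Pr μ (fun ω => (X ω, Y ω)) (x, Y ω) / Pr μ Y (Y ω) := fun x _ => q2 ω x hs
      rw [sum_congr rfl e, ← sum_div, sum_Pr_pair]
      exact div_self_le_one _
  -- the mixed kernel
  let κ : β → α → ℝ := fun y x =>
    if h : ∃ ω, Y ω = y then (1 - a h.choose) * q y x +
      a h.choose * (if ∃ ω, Y ω = y ∧ X ω = x then 1 / 2 else 0)
    else 0
  have k1 : ∀ ω x, κ (Y ω) x = (1 - a ω) * q (Y ω) x +
      a ω * (if ∃ ω', Y ω' = Y ω ∧ X ω' = x then 1 / 2 else 0) := by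
    intro ω x
    have hex : ∃ ω', Y ω' = Y ω := ⟨ω, rfl⟩
    have e3 : a hex.choose = a ω := ha _ _ hex.choose_spec
    simp only [κ]
    rw [dif_pos hex, e3]
  have k2 : ∀ ω, κ (Y ω) (X ω) = (1 - a ω) * q (Y ω) (X ω) + a ω * (1 / 2) := by
    intro ω
    rw [k1, if_pos ⟨ω, rfl, rfl⟩]
  have hpos : ∀ ω, 0 < κ (Y ω) (X ω) := by
    intro ω
    rw [k2]
    have := mul_nonneg (by linarith [ha1 ω] : 0 ≤ 1 - a ω) (q0 ω (X ω))
    linarith [ha0 ω]
  have key := gibbs hμ X Y κ (fun ω _ => hpos ω) ?_ ?_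
  · refine key.trans (sum_le_sum fun ω _ => ?_)
    rcases (hμ.nonneg ω).eq_or_lt with hz | hz
    · rw [← hz, zero_mul, zero_mul]
    refine mul_le_mul_of_nonneg_left ?_ hz.le
    unfold costL
    by_cases hl : L ω
    · rw [if_pos hl]
      have e1 : a ω * (1 / 2) ≤ κ (Y ω) (X ω) := by
        rw [k2]
        have := mul_nonneg (by linarith [ha1 ω] : 0 ≤ 1 - a ω) (q0 ω (X ω))
        linarith
      have e2 := log_le_log (by linarith [ha0 ω] : 0 < a ω * (1 / 2)) e1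
      rw [log_mul (ha0 ω).ne' (by norm_num), one_div, log_inv] at e2
      linarith
    · rw [if_neg hl]
      have hq : 0 < q (Y ω) (X ω) := by
        by_cases hs : S ω
        · rw [q3 ω hs hl]
          split_ifs
          · exact h0 ω
          · linarith [h1 ω]
        · rw [q2 ω _ hs]
          exact div_pos (Pr_pos hμ (fun ω => (X ω, Y ω)) hz) (Pr_pos hμ Y hz)
      have e1 : (1 - a ω) * q (Y ω) (X ω) ≤ κ (Y ω) (X ω) := by
        rw [k2]
        linarith [ha0 ω]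
      have h1a : 0 < 1 - a ω := by linarith [ha1 ω]
      have e2 := log_le_log (by positivity : 0 < (1 - a ω) * q (Y ω) (X ω)) e1
      rw [log_mul h1a.ne' hq.ne'] at e2
      have e3 := neg_log_one_sub_le (ha0 ω).le (ha1 ω)
      have e4 : - log (q (Y ω) (X ω)) =
          (if S ω then (if M ω then - log (θ ω) else - log (1 - θ ω)) else sur μ X Y ω) := by
        by_cases hs : S ω
        · rw [q3 ω hs hl, if_pos hs]
          split_ifs <;> rfl
        · rw [q2 ω _ hs, if_neg hs]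
          rfl
      linarith
  · intro ω x _
    rw [k1]
    have := mul_nonneg (by linarith [ha1 ω] : 0 ≤ 1 - a ω) (q0 ω x)
    split_ifs
    · linarith [ha0 ω]
    · linarith
  · intro ω
    have e1 : ∑ x ∈ univ.image X, κ (Y ω) x = (1 - a ω) * ∑ x ∈ univ.image X, q (Y ω) x +
        a ω * ∑ x ∈ univ.image X, (if ∃ ω', Y ω' = Y ω ∧ X ω' = x then (1 / 2 : ℝ) else 0) := by
      rw [mul_sum, mul_sum, ← sum_add_distrib]
      exact sum_congr rfl fun x _ => k1 ω x
    have e2 : ∑ x ∈ univ.image X, (if ∃ ω', Y ω' = Y ω ∧ X ω' = x then (1 / 2 : ℝ) else 0) ≤ 1 := by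
      obtain ⟨s, hs, hs'⟩ := htwo ω
      rw [← sum_filter, sum_const, nsmul_eq_mul]
      have : #((univ.image X).filter fun x => ∃ ω', Y ω' = Y ω ∧ X ω' = x) ≤ 2 := by
        refine le_trans (card_le_card ?_) hs
        intro x hx
        obtain ⟨ω', e, e'⟩ := (mem_filter.mp hx).2
        rw [← e']
        exact hs' ω' e
      have h2 : (#((univ.image X).filter fun x => ∃ ω', Y ω' = Y ω ∧ X ω' = x) : ℝ) ≤ 2 := by
        exact_mod_cast this
      linarith
    rw [e1]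
    have e3 := mul_le_mul_of_nonneg_left (qs ω) (by linarith [ha1 ω] : 0 ≤ 1 - a ω)
    have e4 := mul_le_mul_of_nonneg_left e2 (ha0 ω).le
    linarith

open Classical in
/-- **binary splits along a chain with late flags.** -/
theorem split_late (hμ : IsProb μ) {δ : ℕ → Type*} (D : ∀ t, Ω → δ t)
    (hD : ∀ t, Det (D (t + 1)) (D t)) (Y : Ω → β) (T : ℕ) (L S Z M : ℕ → Ω → Prop)
    (a : ℕ → Ω → ℝ)
    (hS : ∀ t, Det (fun ω => (D t ω, Y ω)) (S t)) (hZ : ∀ t, Det (fun ω => (D t ω, Y ω)) (Z t))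
    (ha : ∀ t, Det (fun ω => (D t ω, Y ω)) (a t))
    (ha0 : ∀ t ω, 0 < a t ω) (ha1 : ∀ t ω, a t ω ≤ 1 / 2)
    (htwo : ∀ t ω, ∃ s : Finset (δ (t + 1)), #s ≤ 2 ∧
      ∀ ω', D t ω' = D t ω → Y ω' = Y ω → D (t + 1) ω' ∈ s)
    (hM : ∀ t ω ω', D t ω = D t ω' → Y ω = Y ω' → (S t ω ∨ Z t ω) → ¬ L t ω → ¬ L t ω' →
      (D (t + 1) ω = D (t + 1) ω' ↔ (M t ω ↔ M t ω')))
    {N2 N3 n0 θ0 na nl : ℝ} (hN3 : 0 < N3) (hN : 2 * N3 ≤ N2)
    (hθ0 : 0 < θ0) (hθ1 : θ0 ≤ 1 / 2)
    (hS2 : ∑ t ∈ range T, ∑ ω, (if S t ω ∧ ¬ L t ω then μ ω else 0) ≤ N2)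
    (hS3 : ∑ t ∈ range T, ∑ ω, (if S t ω ∧ M t ω ∧ ¬ L t ω then μ ω else 0) ≤ N3)
    (hZ3 : ∑ t ∈ range T, ∑ ω, (if ¬ S t ω ∧ Z t ω ∧ M t ω ∧ ¬ L t ω then μ ω else 0) ≤ n0)
    (hna : ∑ t ∈ range T, ∑ ω, μ ω * a t ω ≤ na)
    (hnl : ∑ t ∈ range T, ∑ ω, (if L t ω then μ ω * (log 2 - log (a t ω)) else 0) ≤ nl) :
    Hc μ (D T) (fun ω => (D 0 ω, Y ω)) ≤ N3 * (log (N2 / N3) + 2) + n0 * (- log θ0) +
      T * (2 * θ0) + 2 * na + nl + ∑ t ∈ range T, ∑ ω, (if S t ω ∨ Z t ω ∨ L t ω then 0 else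
        μ ω * sur μ (D (t + 1)) (fun ω => (D t ω, Y ω)) ω) := by
  have hN2 : 0 < N2 := by linarith
  set θ1 : ℝ := N3 / N2 with hθ1'
  have t0 : 0 < θ1 := by positivity
  have t1 : θ1 ≤ 1 / 2 := by
    rw [hθ1', div_le_iff₀ hN2]; linarith
  have p1 : 0 ≤ - log θ1 := by
    have := log_nonpos t0.le (by linarith)
    linarith
  have p0 : 0 ≤ - log θ0 := by
    have := log_nonpos hθ0.le (by linarith)
    linarith
  have l1 := neg_log_one_sub_le t0.le t1
  have l0 := neg_log_one_sub_le hθ0.le hθ1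
  rw [Hc_chain D hD Y T]
  have hone : ∀ t ∈ range T, Hc μ (D (t + 1)) (fun ω => (D t ω, Y ω)) ≤ ∑ ω, μ ω *
      costL μ (D (t + 1)) (fun ω => (D t ω, Y ω)) (L t) (fun ω => S t ω ∨ Z t ω) (M t)
        (fun ω => if S t ω then θ1 else θ0) (a t) ω := by
    intro t _
    refine late_one hμ _ _ (L t) _ (M t) _ (a t) ?_ ?_ (ha t) ?_ ?_ (ha0 t) (ha1 t) ?_ ?_
    · intro ω ω' e
      have e1 : S t ω = S t ω' := hS t ω ω' e
      have e2 : Z t ω = Z t ω' := hZ t ω ω' e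
      simp only [e1, e2]
    · intro ω ω' e
      have e1 : S t ω = S t ω' := hS t ω ω' e
      simp only [e1]
    · intro ω
      split_ifs
      · exact t0
      · exact hθ0
    · intro ω
      split_ifs <;> linarith
    · intro ω
      obtain ⟨s, hs, hs'⟩ := htwo t ω
      exact ⟨s, hs, fun ω' e => hs' ω' (congrArg Prod.fst e) (congrArg Prod.snd e)⟩
    · intro ω ω' e hs hl hl'
      exact hM t ω ω' (congrArg Prod.fst e) (congrArg Prod.snd e) hs hl hl'
  refine (sum_le_sum hone).trans ?_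
  have hb : ∀ t ω, μ ω * costL μ (D (t + 1)) (fun ω => (D t ω, Y ω)) (L t)
      (fun ω => S t ω ∨ Z t ω) (M t) (fun ω => if S t ω then θ1 else θ0) (a t) ω ≤
      (- log θ1) * (if S t ω ∧ M t ω ∧ ¬ L t ω then μ ω else 0) +
      (2 * θ1) * (if S t ω ∧ ¬ L t ω then μ ω else 0) +
      (- log θ0) * (if ¬ S t ω ∧ Z t ω ∧ M t ω ∧ ¬ L t ω then μ ω else 0) + (2 * θ0) * μ ω +
      2 * (μ ω * a t ω) + (if L t ω then μ ω * (log 2 - log (a t ω)) else 0) +
      (if S t ω ∨ Z t ω ∨ L t ω then 0 else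
        μ ω * sur μ (D (t + 1)) (fun ω => (D t ω, Y ω)) ω) := by
    intro t ω
    have hm := hμ.nonneg ω
    have hma := mul_nonneg hm (ha0 t ω).le
    have hmθ := mul_nonneg hθ0.le hm
    have hmθ1 := mul_nonneg t0.le hm
    unfold costL
    by_cases hl : L t ω
    · simp only [hl, not_true_eq_false, and_false, or_true, if_true, if_false]
      nlinarith
    · by_cases hs : S t ω
      · by_cases hm' : M t ω
        · simp only [hl, hs, hm', true_or, and_self, not_true_eq_false, false_and, if_true,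
            if_false, not_false_eq_true, and_true]
          nlinarith
        · simp only [hl, hs, hm', true_or, and_false, not_false_eq_true, if_true,
            if_false, and_true, and_self]
          nlinarith [mul_le_mul_of_nonneg_left l1 hm]
      · by_cases hz : Z t ω
        · by_cases hm' : M t ω
          · simp only [hl, hs, hz, hm', or_true, true_or, and_self, false_and,
              not_false_eq_true, if_true, if_false]
            nlinarith
          · simp only [hl, hs, hz, hm', or_true, true_or, and_false, false_and,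
              if_true, if_false, not_false_eq_true]
            nlinarith [mul_le_mul_of_nonneg_left l0 hm]
        · simp only [hl, hs, hz, or_self, false_and, and_false, if_false, not_false_eq_true]
          nlinarith
  refine (sum_le_sum fun t _ => sum_le_sum fun ω _ => hb t ω).trans ?_
  simp only [sum_add_distrib, ← mul_sum]
  rw [hμ.sum, sum_const, card_range, nsmul_eq_mul]
  have b1 := mul_le_mul_of_nonneg_left hS3 p1
  have b2 := mul_le_mul_of_nonneg_left hS2 (by positivity : 0 ≤ 2 * θ1)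
  have b3 := mul_le_mul_of_nonneg_left hZ3 p0
  have e1 : - log θ1 = log (N2 / N3) := by
    rw [hθ1', ← log_inv, inv_div]
  have e2 : 2 * θ1 * N2 = 2 * N3 := by
    rw [hθ1']; field_simp
  rw [e1] at b1
  rw [e1]
  nlinarith

open Classical in
/-- **binary splits along a chain, exceptional flags and trivial cells.** In a cell with `Z` all
flags outside `L` have the same child (no cost, whatever the number of levels); in a cell with `S`
the child of the flags outside `L` is told apart by `M`. -/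
theorem split_triv (hμ : IsProb μ) {δ : ℕ → Type*} (D : ∀ t, Ω → δ t)
    (hD : ∀ t, Det (D (t + 1)) (D t)) (Y : Ω → β) (T : ℕ) (L S Z M : ℕ → Ω → Prop)
    (a : ℕ → Ω → ℝ)
    (hS : ∀ t, Det (fun ω => (D t ω, Y ω)) (S t)) (hZ : ∀ t, Det (fun ω => (D t ω, Y ω)) (Z t))
    (ha : ∀ t, Det (fun ω => (D t ω, Y ω)) (a t))
    (ha0 : ∀ t ω, 0 < a t ω) (ha1 : ∀ t ω, a t ω ≤ 1 / 2)
    (htwo : ∀ t ω, ∃ s : Finset (δ (t + 1)), #s ≤ 2 ∧
      ∀ ω', D t ω' = D t ω → Y ω' = Y ω → D (t + 1) ω' ∈ s)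
    (hM : ∀ t ω ω', D t ω = D t ω' → Y ω = Y ω' → S t ω → ¬ L t ω → ¬ L t ω' →
      (D (t + 1) ω = D (t + 1) ω' ↔ (M t ω ↔ M t ω')))
    (hZ1 : ∀ t ω ω', D t ω = D t ω' → Y ω = Y ω' → Z t ω → ¬ L t ω → ¬ L t ω' →
      D (t + 1) ω = D (t + 1) ω')
    {N2 N3 na nl : ℝ} (hN3 : 0 < N3) (hN : 2 * N3 ≤ N2)
    (hS2 : ∑ t ∈ range T, ∑ ω, (if S t ω ∧ ¬ L t ω then μ ω else 0) ≤ N2)
    (hS3 : ∑ t ∈ range T, ∑ ω, (if S t ω ∧ M t ω ∧ ¬ L t ω then μ ω else 0) ≤ N3)
    (hna : ∑ t ∈ range T, ∑ ω, μ ω * a t ω ≤ na)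
    (hnl : ∑ t ∈ range T, ∑ ω, (if L t ω then μ ω * (log 2 - log (a t ω)) else 0) ≤ nl) :
    Hc μ (D T) (fun ω => (D 0 ω, Y ω)) ≤ N3 * (log (N2 / N3) + 2) + 2 * na + nl +
      ∑ t ∈ range T, ∑ ω, (if S t ω ∨ Z t ω ∨ L t ω then 0 else
        μ ω * sur μ (D (t + 1)) (fun ω => (D t ω, Y ω)) ω) := by
  refine le_of_forall_pos_le_add fun ε hε => ?_
  obtain ⟨θ0, h0, h1, h2⟩ : ∃ θ0 : ℝ, 0 < θ0 ∧ θ0 ≤ 1 / 2 ∧ (T : ℝ) * (2 * θ0) ≤ ε := by
    have hT : (0 : ℝ) ≤ T := Nat.cast_nonneg T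
    refine ⟨min (1 / 2) (ε / (2 * T + 1)), lt_min (by norm_num) (by positivity),
      min_le_left _ _, ?_⟩
    have h3 : min (1 / 2) (ε / (2 * (T : ℝ) + 1)) ≤ ε / (2 * T + 1) := min_le_right _ _
    have h4 : (T : ℝ) * (2 * (ε / (2 * T + 1))) ≤ ε := by
      have : (T : ℝ) * (2 * (ε / (2 * T + 1))) = ε * (2 * T / (2 * T + 1)) := by
        field_simp
      rw [this]
      refine mul_le_of_le_one_right hε.le ?_
      rw [div_le_one (by positivity)]
      linarith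
    nlinarith
  have key := split_late hμ D hD Y T L S Z (fun t ω => S t ω ∧ M t ω) a hS hZ ha ha0 ha1 htwo
    ?_ hN3 hN h0 h1 hS2 ?_ (n0 := 0) ?_ hna hnl
  · linarith
  · intro t ω ω' e e' hsz hl hl'
    have hSS : S t ω = S t ω' := hS t ω ω' (Prod.ext e e')
    by_cases hs : S t ω
    · have hs' : S t ω' := hSS ▸ hs
      rw [hM t ω ω' e e' hs hl hl']
      simp only [hs, hs', true_and]
    · have hs' : ¬ S t ω' := hSS ▸ hs
      have hz : Z t ω := by tauto
      simp only [hs, hs', false_and, iff_self, iff_true]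
      exact hZ1 t ω ω' e e' hz hl hl'
  · refine le_trans (le_of_eq ?_) hS3
    refine sum_congr rfl fun t _ => sum_congr rfl fun ω _ => ?_
    by_cases hs : S t ω
    · simp only [hs, true_and]
    · simp only [hs, false_and, if_false]
  · refine le_of_eq (sum_eq_zero fun t _ => sum_eq_zero fun ω _ => ?_)
    rw [if_neg]
    rintro ⟨h, -, ⟨h', -⟩, -⟩
    exact h h'

end Vale.Agent.P065.H268
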