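import Vale.Agent.P065.H268.TimeCover2

/-!
# P065, package TIME: the account of a path (helper268)

The cost of the code of the blocks (`∑ min (L₀, tm (j + 1) - tm j)`) is at most the number of
digits which have a thick scale among the next `M` scales, plus what the bad blocks and the gaps
with many good blocks cost.
-/

set_option autoImplicit false

namespace Vale.Agent.P065.H268

open Finset

namespace Lin

variable {Ω β : Type*} [Fintype Ω] {P : Pcs Ω} (L : Lin P β)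

lemma en_lt_of_st {a a' : ℕ} {ω : Ω} (h : L.st a' ω) (haa : a < a') : L.en a ω < a' := by
  by_contra hcon
  push Not at hcon
  rcases h with h | ⟨b, rfl, h⟩
  · omega
  · exact L.not_th (a := a) (t := b) (by omega) (by omega) h

open Classical in
/-- the first scale of the gap which contains `z` -/
noncomputable def sa (L : Lin P β) (ω : Ω) (z : ℕ) : ℕ := Nat.findGreatest (fun a => L.st a ω) z

lemma sa_le (ω : Ω) (z : ℕ) : L.sa ω z ≤ z := by
  classical
  exact Nat.findGreatest_le z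

lemma st_sa (ω : Ω) (z : ℕ) : L.st (L.sa ω z) ω := by
  classical
  exact Nat.findGreatest_spec (P := fun a => L.st a ω) (Nat.zero_le z) (Or.inl rfl)

lemma le_sa {ω : Ω} {z a : ℕ} (h : L.st a ω) (haz : a ≤ z) : a ≤ L.sa ω z := by
  classical
  exact Nat.le_findGreatest haz h

lemma le_en_sa (ω : Ω) {z : ℕ} (hz : z < P.T) : z ≤ L.en (L.sa ω z) ω := by
  by_contra hcon
  push Not at hcon
  rcases L.en_spec (L.sa ω z) ω with h | h
  · have h1 : L.st (L.en (L.sa ω z) ω + 1) ω := Or.inr ⟨_, rfl, h⟩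
    have h2 := L.le_sa (z := z) h1 (by omega)
    have h3 := L.le_en (L.sa ω z) ω
    omega
  · omega

lemma sa_eq {ω : Ω} {z a : ℕ} (h : L.st a ω) (haz : a ≤ z) (hz : z ≤ L.en a ω) :
    L.sa ω z = a := by
  apply le_antisymm _ (L.le_sa h haz)
  by_contra hcon
  push Not at hcon
  have h1 := L.en_lt_of_st (L.st_sa ω z) hcon
  have h2 := L.sa_le ω z
  omega

lemma sa_mem (ω : Ω) {z : ℕ} (hz : z < P.T) : L.sa ω z ∈ L.starts ω := by
  classical
  unfold starts
  rw [mem_filter, mem_range]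
  have := L.sa_le ω z
  exact ⟨by omega, L.st_sa ω z⟩

open Classical in
/-- the digits which are paid by the code -/
noncomputable def Zp (P : Pcs Ω) (L₀ n₀ : ℕ) (ω : Ω) : Finset ℕ :=
  (range n₀).biUnion fun j => Ico (P.tm j ω) (min (P.tm (j + 1) ω) (P.tm j ω + L₀))

lemma mem_Zp {L₀ n₀ : ℕ} {ω : Ω} {z : ℕ} : z ∈ Zp P L₀ n₀ ω ↔
    ∃ j < n₀, P.tm j ω ≤ z ∧ z < P.tm (j + 1) ω ∧ z < P.tm j ω + L₀ := by
  classical
  unfold Zp
  simp only [mem_biUnion, mem_range, mem_Ico, lt_min_iff]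

lemma card_Zp (L₀ n₀ : ℕ) (ω : Ω) :
    ∑ j ∈ range n₀, min L₀ (P.tm (j + 1) ω - P.tm j ω) = #(Zp P L₀ n₀ ω) := by
  classical
  unfold Zp
  rw [card_biUnion]
  · refine sum_congr rfl fun j _ => ?_
    rw [Nat.card_Ico]
    have := P.tm_mono (Nat.le_succ j) ω
    simp only [Nat.succ_eq_add_one] at this
    omega
  · intro i _ j _ hij
    rw [Function.onFun, disjoint_left]
    intro z h1 h2
    rw [mem_Ico, lt_min_iff] at h1 h2
    rcases lt_or_gt_of_ne hij with h | h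
    · have := P.tm_mono (show i + 1 ≤ j by omega) ω
      omega
    · have := P.tm_mono (show j + 1 ≤ i by omega) ω
      omega

open Classical in
/-- the digits with a thick scale among the next `M` scales -/
noncomputable def cov (L : Lin P β) (M : ℕ) (ω : Ω) : Finset ℕ :=
  {z ∈ range P.T | ∃ v, v < P.T ∧ L.th v ω ∧ z ≤ v ∧ v ≤ z + M}

open Classical in
/-- the blocks of a gap -/
noncomputable def ab (L : Lin P β) (g n₀ a : ℕ) (ω : Ω) : Finset ℕ :=
  {j ∈ range n₀ | a + g ≤ P.tm j ω ∧ P.tm (j + 1) ω ≤ L.en a ω}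

open Classical in
/-- the bad blocks of a gap -/
noncomputable def nb (L : Lin P β) (ρ : ℝ) (g n₀ a : ℕ) (ω : Ω) : Finset ℕ :=
  {j ∈ range n₀ | ¬ L.good ρ g j ω ∧ a + g ≤ P.tm j ω ∧ P.tm (j + 1) ω ≤ L.en a ω}

lemma card_ab_le (ρ : ℝ) (g n₀ a : ℕ) (ω : Ω) :
    #(L.ab g n₀ a ω) ≤ #(L.gb ρ g n₀ a ω) + #(L.nb ρ g n₀ a ω) := by
  classical
  refine le_trans (card_le_card ?_) (card_union_le _ _)
  intro j hj
  unfold ab at hj
  unfold gb nb
  rw [mem_union, mem_filter, mem_filter]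
  obtain ⟨h1, h2⟩ := mem_filter.1 hj
  by_cases h3 : L.good ρ g j ω
  · exact Or.inl ⟨h1, h3, h2⟩
  · exact Or.inr ⟨h1, h3, h2⟩

open Classical in
/-- the bad blocks of all gaps -/
lemma sum_nb_le (ρ : ℝ) (g n₀ : ℕ) (ω : Ω) :
    ∑ a ∈ L.starts ω, #(L.nb ρ g n₀ a ω) ≤
      #{j ∈ range n₀ | g ≤ P.tm j ω ∧ ¬ L.good ρ g j ω} := by
  rw [← card_biUnion]
  · refine card_le_card fun j hj => ?_
    obtain ⟨a, -, ha⟩ := mem_biUnion.1 hj
    obtain ⟨h1, h2, h3, -⟩ := mem_filter.1 ha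
    exact mem_filter.2 ⟨h1, by omega, h2⟩
  · have key : ∀ a a' j, L.st a' ω → a < a' → j ∈ L.nb ρ g n₀ a ω → j ∈ L.nb ρ g n₀ a' ω →
        False := by
      intro a a' j hst haa h1 h2
      have h3 := L.en_lt_of_st hst haa
      have h4 := (mem_filter.1 h1).2.2
      have h5 := (mem_filter.1 h2).2.2
      have h6 := P.tm_mono (Nat.le_succ j) ω
      simp only [Nat.succ_eq_add_one] at h6
      omega
    intro a ha a' ha' hne
    rw [Function.onFun, disjoint_left]
    intro j h1 h2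
    have s1 := (mem_filter.1 ha).2
    have s2 := (mem_filter.1 ha').2
    rcases lt_or_gt_of_ne hne with h | h
    · exact key a a' j s2 h h1 h2
    · exact key a' a j s1 h h2 h1

/-- the cost of one gap -/
lemma card_Z_gap (L₀ g n₀ a : ℕ) (ω : Ω) :
    #{z ∈ Zp P L₀ n₀ ω | a ≤ z ∧ z ≤ L.en a ω} ≤ g + L₀ * (2 + #(L.ab g n₀ a ω)) := by
  classical
  set b := L.en a ω with hb
  -- blocks which meet the gap
  set J1 : Finset ℕ := {j ∈ range n₀ | P.tm j ω < a + g ∧ a + g < P.tm (j + 1) ω} with hJ1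
  set J2 : Finset ℕ := {j ∈ range n₀ | P.tm j ω ≤ b ∧ b < P.tm (j + 1) ω} with hJ2
  have hmono : ∀ i j : ℕ, i < j → P.tm (i + 1) ω ≤ P.tm j ω := fun i j h => P.tm_mono h ω
  have c1 : #J1 ≤ 1 := by
    rw [card_le_one]
    intro i hi j hj
    obtain ⟨-, h1, h2⟩ := mem_filter.1 hi
    obtain ⟨-, h3, h4⟩ := mem_filter.1 hj
    rcases lt_trichotomy i j with h | h | h
    · have := hmono i j h; omega
    · exact h
    · have := hmono j i h; omega
  have c2 : #J2 ≤ 1 := by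
    rw [card_le_one]
    intro i hi j hj
    obtain ⟨-, h1, h2⟩ := mem_filter.1 hi
    obtain ⟨-, h3, h4⟩ := mem_filter.1 hj
    rcases lt_trichotomy i j with h | h | h
    · have := hmono i j h; omega
    · exact h
    · have := hmono j i h; omega
  have hJ : #(J1 ∪ J2 ∪ L.ab g n₀ a ω) ≤ 2 + #(L.ab g n₀ a ω) := by
    have h1 := card_union_le (J1 ∪ J2) (L.ab g n₀ a ω)
    have h2 := card_union_le J1 J2
    omega
  have hsub : ({z ∈ Zp P L₀ n₀ ω | a ≤ z ∧ z ≤ b} : Finset ℕ) ⊆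
      Ico a (a + g) ∪ (insert (a + g) (∅ : Finset ℕ) ∩ ∅) ∪
      (J1 ∪ J2 ∪ L.ab g n₀ a ω).biUnion fun j => Ico (P.tm j ω) (P.tm j ω + L₀) := by
    intro z hz
    obtain ⟨hz1, hz2, hz3⟩ := mem_filter.1 hz
    obtain ⟨j, hj, h1, h2, h3⟩ := mem_Zp.1 hz1
    rw [mem_union, mem_union]
    by_cases h4 : z < a + g
    · left; left
      exact mem_Ico.2 ⟨hz2, h4⟩
    · right
      rw [mem_biUnion]
      refine ⟨j, ?_, mem_Ico.2 ⟨h1, h3⟩⟩
      rw [mem_union, mem_union]
      by_cases h5 : P.tm j ω < a + g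
      · left; left
        exact mem_filter.2 ⟨mem_range.2 hj, h5, by omega⟩
      · by_cases h6 : b < P.tm (j + 1) ω
        · left; right
          exact mem_filter.2 ⟨mem_range.2 hj, by omega, h6⟩
        · right
          exact mem_filter.2 ⟨mem_range.2 hj, by omega, by omega⟩
  refine (card_le_card hsub).trans ?_
  rw [inter_empty, union_empty]
  refine (card_union_le _ _).trans ?_
  rw [Nat.card_Ico]
  have h7 : #((J1 ∪ J2 ∪ L.ab g n₀ a ω).biUnion fun j => Ico (P.tm j ω) (P.tm j ω + L₀)) ≤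
      #(J1 ∪ J2 ∪ L.ab g n₀ a ω) * L₀ :=
    card_biUnion_le_card_mul _ _ _ fun j _ => by rw [Nat.card_Ico]; omega
  have h8 : #(J1 ∪ J2 ∪ L.ab g n₀ a ω) * L₀ ≤ (2 + #(L.ab g n₀ a ω)) * L₀ :=
    Nat.mul_le_mul_right _ hJ
  rw [mul_comm L₀]
  omega

open Classical in
/-- **the account of a path** -/
theorem account (ρ : ℝ) (g n₀ A₀ L₀ M : ℕ) (hM : g + L₀ * (2 + A₀) ≤ M + 1) (ω : Ω) :
    ∑ j ∈ range n₀, min L₀ (P.tm (j + 1) ω - P.tm j ω) ≤
      #(L.cov M ω) + L₀ * #{j ∈ range n₀ | g ≤ P.tm j ω ∧ ¬ L.good ρ g j ω} +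
      L₀ * ∑ a ∈ L.starts ω, (if A₀ ≤ #(L.gb ρ g n₀ a ω) then #(L.gb ρ g n₀ a ω) else 0) +
      (g + L₀ * (2 + A₀)) := by
  rw [card_Zp]
  have hZT : ∀ z ∈ Zp P L₀ n₀ ω, z < P.T := by
    intro z hz
    obtain ⟨j, hj, h1, h2, h3⟩ := mem_Zp.1 hz
    exact h2.trans_le (P.tm_le_T _ _)
  have h1 : #(Zp P L₀ n₀ ω) = ∑ a ∈ L.starts ω, #{z ∈ Zp P L₀ n₀ ω | L.sa ω z = a} :=
    card_eq_sum_card_fiberwise fun z hz => L.sa_mem ω (hZT z hz)
  have h2 : ∑ a ∈ L.starts ω, #{z ∈ L.cov M ω | L.sa ω z = a} = #(L.cov M ω) := by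
    refine (card_eq_sum_card_fiberwise fun z hz => L.sa_mem ω ?_).symm
    exact mem_range.1 (mem_filter.1 hz).1
  -- the last gap
  have h3 : #{a ∈ L.starts ω | P.T ≤ L.en a ω ∧ a < P.T} ≤ 1 := by
    rw [card_le_one]
    intro a ha a' ha'
    obtain ⟨s1, e1, l1⟩ := mem_filter.1 ha
    obtain ⟨s2, e2, l2⟩ := mem_filter.1 ha'
    have t1 := (mem_filter.1 s1).2
    have t2 := (mem_filter.1 s2).2
    rcases lt_trichotomy a a' with h | h | h
    · have := L.en_lt_of_st t2 h; omega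
    · exact h
    · have := L.en_lt_of_st t1 h; omega
  -- one gap
  have key : ∀ a ∈ L.starts ω, #{z ∈ Zp P L₀ n₀ ω | L.sa ω z = a} ≤
      #{z ∈ L.cov M ω | L.sa ω z = a} + L₀ * #(L.nb ρ g n₀ a ω) +
      L₀ * (if A₀ ≤ #(L.gb ρ g n₀ a ω) then #(L.gb ρ g n₀ a ω) else 0) +
      (if P.T ≤ L.en a ω ∧ a < P.T then g + L₀ * (2 + A₀) else 0) := by
    intro a ha
    have hst := (mem_filter.1 ha).2
    set b := L.en a ω with hb
    have hab : a ≤ b := L.le_en a ω
    -- the paid digits of the gap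
    have k1 : #{z ∈ Zp P L₀ n₀ ω | L.sa ω z = a} ≤ g + L₀ * (2 + #(L.ab g n₀ a ω)) := by
      refine le_trans (card_le_card ?_) (L.card_Z_gap L₀ g n₀ a ω)
      intro z hz
      obtain ⟨z1, z2⟩ := mem_filter.1 hz
      refine mem_filter.2 ⟨z1, ?_, ?_⟩
      · rw [← z2]; exact L.sa_le ω z
      · rw [← z2]; exact L.le_en_sa ω (hZT z z1)
    have k2 := L.card_ab_le ρ g n₀ a ω
    have k3 : #{z ∈ Zp P L₀ n₀ ω | L.sa ω z = a} ≤ b + 1 - a := by
      calc #{z ∈ Zp P L₀ n₀ ω | L.sa ω z = a} ≤ #(Ico a (b + 1)) := by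
            refine card_le_card fun z hz => ?_
            obtain ⟨z1, z2⟩ := mem_filter.1 hz
            have z3 := L.sa_le ω z
            have z4 := L.le_en_sa ω (hZT z z1)
            rw [z2] at z3 z4
            exact mem_Ico.2 ⟨z3, by omega⟩
        _ = b + 1 - a := Nat.card_Ico _ _
    set q := #(L.gb ρ g n₀ a ω) with hq
    set r := #(L.nb ρ g n₀ a ω) with hr
    set s := #{z ∈ Zp P L₀ n₀ ω | L.sa ω z = a} with hs
    have k4 : L₀ * (2 + #(L.ab g n₀ a ω)) ≤ L₀ * (2 + (q + r)) :=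
      Nat.mul_le_mul_left _ (by omega)
    have k5 : s ≤ g + L₀ * 2 + L₀ * q + L₀ * r := by
      have : L₀ * (2 + (q + r)) = L₀ * 2 + L₀ * q + L₀ * r := by ring
      omega
    have k6 : L₀ * (2 + A₀) = L₀ * 2 + L₀ * A₀ := by ring
    by_cases hbT : b < P.T
    · -- the gap ends with a thick scale
      have hth : L.th b ω := by
        rcases L.en_spec a ω with h | h
        · exact h
        · omega
      have k7 : min (b + 1 - a) (M + 1) ≤ #{z ∈ L.cov M ω | L.sa ω z = a} := by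
        calc min (b + 1 - a) (M + 1) = #(Ico (max a (b - M)) (b + 1)) := by
              rw [Nat.card_Ico]; omega
          _ ≤ _ := by
              refine card_le_card fun z hz => ?_
              obtain ⟨z1, z2⟩ := mem_Ico.1 hz
              have z3 : a ≤ z := (le_max_left _ _).trans z1
              have z4 : b - M ≤ z := (le_max_right _ _).trans z1
              refine mem_filter.2 ⟨?_, L.sa_eq hst z3 (by omega)⟩
              exact mem_filter.2 ⟨mem_range.2 (by omega), b, hbT, hth, by omega, by omega⟩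
      rw [if_neg (show ¬ (P.T ≤ b ∧ a < P.T) from fun h => by omega)]
      by_cases hq' : A₀ ≤ q
      · rw [if_pos hq']
        omega
      · rw [if_neg hq']
        have k8 : L₀ * q ≤ L₀ * A₀ := Nat.mul_le_mul_left _ (by omega)
        omega
    · by_cases haT : a < P.T
      · rw [if_pos (show P.T ≤ b ∧ a < P.T from ⟨by omega, haT⟩)]
        by_cases hq' : A₀ ≤ q
        · rw [if_pos hq']
          omega
        · rw [if_neg hq']
          have k8 : L₀ * q ≤ L₀ * A₀ := Nat.mul_le_mul_left _ (by omega)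
          omega
      · have : s = 0 := by
          rw [hs, card_eq_zero, filter_eq_empty_iff]
          intro z hz h
          have z1 := hZT z hz
          have z2 := L.sa_le ω z
          omega
        omega
  rw [h1]
  refine (sum_le_sum key).trans ?_
  have h7 : ∑ a ∈ L.starts ω, (if P.T ≤ L.en a ω ∧ a < P.T then g + L₀ * (2 + A₀) else 0) =
      #{a ∈ L.starts ω | P.T ≤ L.en a ω ∧ a < P.T} * (g + L₀ * (2 + A₀)) := by
    rw [← sum_filter, sum_const, smul_eq_mul]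
  rw [sum_add_distrib, sum_add_distrib, sum_add_distrib, h2, ← mul_sum, ← mul_sum, h7]
  have h4 := L.sum_nb_le ρ g n₀ ω
  have h5 : L₀ * ∑ a ∈ L.starts ω, #(L.nb ρ g n₀ a ω) ≤
      L₀ * #{j ∈ range n₀ | g ≤ P.tm j ω ∧ ¬ L.good ρ g j ω} := Nat.mul_le_mul_left _ h4
  have h6 : #{a ∈ L.starts ω | P.T ≤ L.en a ω ∧ a < P.T} * (g + L₀ * (2 + A₀)) ≤
      1 * (g + L₀ * (2 + A₀)) := Nat.mul_le_mul_right _ h3
  omega

end Lin

end Vale.Agent.P065.H268
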