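import Vale.Agent.P065.H268.TimeGeo

/-!
# P065, package TIME: random shifts of the dyadic grid (helper268)

The shifts are `i / 2 ^ R`, `i < 2 ^ R`. A fixed interval `[p, q]` is cut by the grid of scale `s`
for at most `2 ^ s * (2 ^ R * (q - p) + 1)` shifts.
-/

set_option autoImplicit false

namespace Vale.Agent.P065.H268

open Finset

/-- the shifts -/
noncomputable def sh (R i : ℕ) : ℝ := (i : ℝ) / 2 ^ R

/-- sum of floors along an arithmetic progression -/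
lemma sum_floor_add (m c : ℕ) (hm : 0 < m) (y : ℝ) (n : ℕ) :
    ∑ i ∈ range (c * m), ⌊(y + n + i) / m⌋ = ∑ i ∈ range (c * m), ⌊(y + i) / m⌋ + c * n := by
  induction n with
  | zero => simp
  | succ n ih =>
    have hm' : (m : ℝ) ≠ 0 := by positivity
    have h1 : ∀ i : ℕ, (y + ((n + 1 : ℕ) : ℝ) + i) / m = (y + n + ((i + 1 : ℕ) : ℝ)) / m := by
      intro i
      push_cast
      ring_nf
    have h2 := sum_range_succ' (fun i : ℕ => ⌊(y + n + (i : ℝ)) / m⌋) (c * m)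
    have h3 := sum_range_succ (fun i : ℕ => ⌊(y + n + (i : ℝ)) / m⌋) (c * m)
    have h4 : ⌊(y + n + ((c * m : ℕ) : ℝ)) / m⌋ = ⌊(y + n + ((0 : ℕ) : ℝ)) / m⌋ + c := by
      have h5 : (y + n + ((c * m : ℕ) : ℝ)) / m = (y + n + ((0 : ℕ) : ℝ)) / m + ((c : ℤ) : ℝ) := by
        push_cast
        field_simp
        ring
      rw [h5, Int.floor_add_intCast]
    rw [sum_congr rfl fun i _ => by rw [h1 i]]
    push_cast at h2 h3 h4 ih ⊢
    linarith

/-- **a fixed interval is cut by few shifted grids** -/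
theorem card_cut_le {p q : ℝ} (hpq : p ≤ q) {s R : ℕ} (hs : s ≤ R) :
    (#{i ∈ range (2 ^ R) | ⌊(2 : ℝ) ^ s * (p + sh R i)⌋ ≠ ⌊(2 : ℝ) ^ s * (q + sh R i)⌋} : ℝ) ≤
      2 ^ s * (2 ^ R * (q - p) + 1) := by
  set m : ℕ := 2 ^ (R - s) with hm
  have hm0 : 0 < m := by positivity
  have hR : (2 : ℕ) ^ R = 2 ^ s * m := by
    rw [hm, ← pow_add]
    congr 1
    omega
  have hR' : (2 : ℝ) ^ R = 2 ^ s * m := by exact_mod_cast hR
  have hconv : ∀ y : ℝ, ∀ i : ℕ, (2 : ℝ) ^ s * (y + sh R i) = (2 ^ R * y + i) / m := by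
    intro y i
    have h1 : (m : ℝ) ≠ 0 := by positivity
    have h2 : (2 : ℝ) ^ s ≠ 0 := by positivity
    unfold sh
    rw [hR']
    field_simp
  have h1 : ∀ i ∈ range (2 ^ R), ((if ⌊(2 : ℝ) ^ s * (p + sh R i)⌋ ≠
      ⌊(2 : ℝ) ^ s * (q + sh R i)⌋ then 1 else 0 : ℕ) : ℤ) ≤
      ⌊(2 ^ R * q + i) / (m : ℝ)⌋ - ⌊(2 ^ R * p + i) / (m : ℝ)⌋ := by
    intro i _
    rw [hconv, hconv]
    have h2 : ⌊(2 ^ R * p + i) / (m : ℝ)⌋ ≤ ⌊(2 ^ R * q + i) / (m : ℝ)⌋ := by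
      apply Int.floor_mono
      apply div_le_div_of_nonneg_right _ (Nat.cast_nonneg m)
      have : (2 : ℝ) ^ R * p ≤ 2 ^ R * q := mul_le_mul_of_nonneg_left hpq (by positivity)
      linarith
    split_ifs with h3
    · push_cast
      omega
    · push_cast
      omega
  have h4 : ((#{i ∈ range (2 ^ R) | ⌊(2 : ℝ) ^ s * (p + sh R i)⌋ ≠
      ⌊(2 : ℝ) ^ s * (q + sh R i)⌋} : ℕ) : ℤ) ≤
      ∑ i ∈ range (2 ^ R), ⌊(2 ^ R * q + i) / (m : ℝ)⌋ -
        ∑ i ∈ range (2 ^ R), ⌊(2 ^ R * p + i) / (m : ℝ)⌋ := by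
    rw [card_filter, ← sum_sub_distrib]
    push_cast
    refine sum_le_sum fun i hi => ?_
    have := h1 i hi
    push_cast at this
    exact this
  set N : ℕ := ⌈(2 : ℝ) ^ R * (q - p)⌉₊ with hN
  have hN1 : (2 : ℝ) ^ R * (q - p) ≤ N := Nat.le_ceil _
  have hN2 : (N : ℝ) < 2 ^ R * (q - p) + 1 :=
    Nat.ceil_lt_add_one (mul_nonneg (by positivity) (by linarith))
  have h5 : ∑ i ∈ range (2 ^ R), ⌊(2 ^ R * q + i) / (m : ℝ)⌋ ≤
      ∑ i ∈ range (2 ^ R), ⌊(2 ^ R * p + N + i) / (m : ℝ)⌋ := by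
    refine sum_le_sum fun i _ => Int.floor_mono ?_
    apply div_le_div_of_nonneg_right _ (Nat.cast_nonneg m)
    rw [mul_sub] at hN1
    linarith
  have h6 := sum_floor_add m (2 ^ s) hm0 (2 ^ R * p) N
  rw [← hR] at h6
  have h7 : ((#{i ∈ range (2 ^ R) | ⌊(2 : ℝ) ^ s * (p + sh R i)⌋ ≠
      ⌊(2 : ℝ) ^ s * (q + sh R i)⌋} : ℕ) : ℤ) ≤ 2 ^ s * N := by
    push_cast at h6
    linarith
  have h8 : ((#{i ∈ range (2 ^ R) | ⌊(2 : ℝ) ^ s * (p + sh R i)⌋ ≠
      ⌊(2 : ℝ) ^ s * (q + sh R i)⌋} : ℕ) : ℝ) ≤ 2 ^ s * N := by exact_mod_cast h7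
  refine h8.trans (mul_le_mul_of_nonneg_left hN2.le (by positivity))

namespace Pcs

variable {Ω : Type*} [Fintype Ω] (P : Pcs Ω)

omit [Fintype Ω] in
/-- the shifted points -/
def shift (P : Pcs Ω) (u : ℝ) : Pcs Ω where
  x := fun ω => P.x ω + u
  W := P.W
  δ := P.δ
  T := P.T
  mono := fun j ω ω' h => P.mono j ω ω' (by linarith)
  nest := P.nest
  δ_pos := P.δ_pos
  sep := fun ω ω' h => by
    have := P.sep ω ω' (by linarith)
    linarith
  diam := fun ω ω' => by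
    have := P.diam ω ω'
    linarith
  bot := P.bot

lemma shift_mem (u : ℝ) (j : ℕ) (ω : Ω) : (P.shift u).mem j ω = P.mem j ω := rfl

lemma shift_hi (u : ℝ) (j : ℕ) (ω : Ω) : (P.shift u).hi j ω = P.hi j ω + u := by
  apply le_antisymm
  · obtain ⟨a, ha, ha'⟩ := (P.shift u).exists_hi j ω
    rw [← ha']
    have h1 : P.x a ≤ P.hi j ω := P.le_hi ha
    show P.x a + u ≤ _
    linarith
  · obtain ⟨a, ha, ha'⟩ := P.exists_hi j ω
    have h1 : (P.shift u).x a ≤ (P.shift u).hi j ω := (P.shift u).le_hi (ω := ω) ha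
    rw [← ha']
    exact h1

lemma shift_lo (u : ℝ) (j : ℕ) (ω : Ω) : (P.shift u).lo j ω = P.lo j ω + u := by
  apply le_antisymm
  · obtain ⟨a, ha, ha'⟩ := P.exists_lo j ω
    have h1 : (P.shift u).lo j ω ≤ (P.shift u).x a := (P.shift u).lo_le (ω := ω) ha
    rw [← ha']
    exact h1
  · obtain ⟨a, ha, ha'⟩ := (P.shift u).exists_lo j ω
    rw [← ha']
    have h1 : P.lo j ω ≤ P.x a := P.lo_le ha
    show _ ≤ P.x a + u
    linarith

lemma shift_len (u : ℝ) (j : ℕ) (ω : Ω) : (P.shift u).len j ω = P.len j ω := by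
  unfold len
  rw [P.shift_hi, P.shift_lo]
  show P.hi j ω + u - (P.lo j ω + u) + P.δ = _
  ring

lemma shift_tm (u : ℝ) (j : ℕ) (ω : Ω) : (P.shift u).tm j ω = P.tm j ω := by
  apply le_antisymm
  · apply (P.shift u).tm_le
    rw [P.shift_len]
    exact P.tm_spec j ω
  · apply P.tm_le
    rw [← P.shift_len u]
    exact (P.shift u).tm_spec j ω

/-- the piece `W j ω` is cut by the grid of scale `s` -/
def Cut (P : Pcs Ω) (s j : ℕ) (ω : Ω) : Prop :=
  ∃ ω', P.W j ω' = P.W j ω ∧ P.D s ω' ≠ P.D s ω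

open Classical in
/-- **a fixed piece is cut by few shifted grids** -/
theorem card_Cut_le {R g : ℕ} (hR : P.T ≤ R) (j : ℕ) (ω : Ω) (hg : g ≤ P.tm j ω) :
    (#{i ∈ range (2 ^ R) | (P.shift (sh R i)).Cut (P.tm j ω - g) j ω} : ℝ) ≤
      2 ^ R * (9 / 2 ^ g) := by
  set s := P.tm j ω - g with hs
  have htT := P.tm_le_T j ω
  have hlohi : P.lo j ω ≤ P.hi j ω := (P.lo_le rfl).trans (P.le_hi rfl)
  have h1 := card_cut_le hlohi (s := s) (R := R) (by omega)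
  have h2 : (#{i ∈ range (2 ^ R) | (P.shift (sh R i)).Cut s j ω} : ℝ) ≤
      #{i ∈ range (2 ^ R) | ⌊(2 : ℝ) ^ s * (P.lo j ω + sh R i)⌋ ≠
        ⌊(2 : ℝ) ^ s * (P.hi j ω + sh R i)⌋} := by
    have h3 : #{i ∈ range (2 ^ R) | (P.shift (sh R i)).Cut s j ω} ≤
      #{i ∈ range (2 ^ R) | ⌊(2 : ℝ) ^ s * (P.lo j ω + sh R i)⌋ ≠
        ⌊(2 : ℝ) ^ s * (P.hi j ω + sh R i)⌋} := by
      refine card_le_card fun i hi => ?_
      obtain ⟨h4, ω', h5, h6⟩ := mem_filter.1 hi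
      refine mem_filter.2 ⟨h4, fun h7 => h6 ?_⟩
      have hb : ∀ a, P.W j a = P.W j ω → (P.shift (sh R i)).D s a =
          ⌊(2 : ℝ) ^ s * (P.lo j ω + sh R i)⌋ := by
        intro a ha
        apply le_antisymm
        · rw [h7]
          apply Int.floor_mono
          apply mul_le_mul_of_nonneg_left _ (by positivity)
          have := P.le_hi ha
          show P.x a + _ ≤ _
          linarith
        · apply Int.floor_mono
          apply mul_le_mul_of_nonneg_left _ (by positivity)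
          have := P.lo_le ha
          show _ ≤ P.x a + _
          linarith
      rw [hb ω' h5, hb ω rfl]
    exact_mod_cast h3
  refine (h2.trans h1).trans ?_
  have h8 := P.tm_lt j ω
  have h9 : (2 : ℝ) ^ P.tm j ω = 2 ^ s * 2 ^ g := by
    rw [← pow_add]
    congr 1
    omega
  have h10 : P.hi j ω - P.lo j ω ≤ P.len j ω := by
    unfold len
    linarith [P.δ_pos]
  have h11 : (2 : ℝ) ^ s * 2 ^ g ≤ 2 ^ R := by
    rw [← h9]
    exact pow_le_pow_right₀ (by norm_num) (by omega)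
  have hgpos : (0 : ℝ) < 2 ^ g := by positivity
  have hspos : (0 : ℝ) < 2 ^ s := by positivity
  have hRpos : (0 : ℝ) < 2 ^ R := by positivity
  rw [h9] at h8
  have h12 : (2 : ℝ) ^ s * 2 ^ g * (P.hi j ω - P.lo j ω) ≤ 8 := by
    have := mul_le_mul_of_nonneg_left h10 (show (0 : ℝ) ≤ 2 ^ s * 2 ^ g by positivity)
    linarith
  rw [mul_div_assoc', le_div_iff₀ hgpos]
  have h13 : (2 : ℝ) ^ s * (2 ^ R * (P.hi j ω - P.lo j ω) + 1) * 2 ^ g =
      2 ^ R * (2 ^ s * 2 ^ g * (P.hi j ω - P.lo j ω)) + 2 ^ s * 2 ^ g := by ring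
  rw [h13]
  nlinarith

end Pcs

end Vale.Agent.P065.H268
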