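import Vale.Agent.P065.H268.TimeAcct
import Vale.Agent.P065.H268.TimeGrid
import Vale.Agent.P065.H587.Ent

/-!
# P065, package TIME: the cover lemma and the account, averaged over all lines (helper268)

`μ` is any law, `Y` the line (and the column, ...), `R t` nested boxes which determine the dyadic
cell `P.D t`, `th t` any set of boxes of scale `t`.
-/

set_option autoImplicit false

namespace Vale.Agent.P065.H268

open Finset Vale.Agent.P065.Ent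

variable {Ω β η : Type*} [Fintype Ω]

/-- probabilities of different values -/
lemma sum_Pr_le {α γ : Type*} {μ : Ω → ℝ} (hμ : IsProb μ) (X : Ω → α) (Z : Ω → γ)
    (hXZ : Det X Z) (S : Finset Ω) (z : γ) (hz : ∀ ω ∈ S, Z ω = z)
    (hinj : ∀ ω ∈ S, ∀ ω' ∈ S, X ω = X ω' → ω = ω') :
    ∑ ω ∈ S, Pr μ X (X ω) ≤ Pr μ Z z := by
  classical
  unfold Pr
  rw [sum_comm]
  refine sum_le_sum fun ω' _ => ?_
  by_cases h : ∃ ω ∈ S, X ω' = X ω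
  · obtain ⟨ω, hω, h1⟩ := h
    rw [sum_eq_single ω]
    · rw [if_pos h1, if_pos ((hXZ _ _ h1).trans (hz ω hω))]
    · intro ω'' h2 h3
      rw [if_neg]
      intro h4
      exact h3 (hinj ω'' h2 ω hω (h4.symm.trans h1))
    · intro h2
      exact absurd hω h2
  · push Not at h
    rw [sum_eq_zero fun ω hω => if_neg (h ω hω)]
    split_ifs
    · exact hμ.nonneg ω'
    · exact le_rfl

namespace Avg

variable (P : Pcs Ω) (μ : Ω → ℝ) (Y : Ω → η) (R : ℕ → Ω → β)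

/-- probability of the next dyadic cell, given the box -/
noncomputable def ka (t : ℕ) (ω : Ω) : ℝ :=
  Pr μ (fun ω => (P.D (t + 1) ω, R t ω)) (P.D (t + 1) ω, R t ω) / Pr μ (R t) (R t ω)

/-- probability of the next box, given the box, the next dyadic cell and the line -/
noncomputable def kb (t : ℕ) (ω : Ω) : ℝ :=
  Pr μ (fun ω => (R (t + 1) ω, Y ω)) (R (t + 1) ω, Y ω) /
    Pr μ (fun ω => ((P.D (t + 1) ω, R t ω), Y ω)) ((P.D (t + 1) ω, R t ω), Y ω)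

variable {P μ Y R}

lemma ka_pos (hμ : IsProb μ) (t : ℕ) {ω : Ω} (h : 0 < μ ω) : 0 < ka P μ R t ω :=
  div_pos (Pr_pos hμ _ h) (Pr_pos hμ _ h)

lemma kb_pos (hμ : IsProb μ) (t : ℕ) {ω : Ω} (h : 0 < μ ω) : 0 < kb P μ Y R t ω :=
  div_pos (Pr_pos hμ _ h) (Pr_pos hμ _ h)

lemma ka_le_one (hμ : IsProb μ) (t : ℕ) (ω : Ω) : ka P μ R t ω ≤ 1 :=
  div_le_one_of_le₀ (Pr_mono hμ (det_snd _ _) ω) (Pr_nonneg hμ _ _)

lemma kb_le_one (hμ : IsProb μ) (hRD : ∀ t, Det (R t) (P.D t)) (hR : ∀ t, Det (R (t + 1)) (R t))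
    (t : ℕ) (ω : Ω) : kb P μ Y R t ω ≤ 1 :=
  div_le_one_of_le₀ (Pr_mono hμ ((((det_fst _ _).trans (hRD (t + 1))).pair
    ((det_fst _ _).trans (hR t))).pair (det_snd _ _)) ω) (Pr_nonneg hμ _ _)

open Classical in
/-- the kernel of one line is a kernel -/
lemma kab_sum (hμ : IsProb μ) (hRD : ∀ t, Det (R t) (P.D t)) (hR : ∀ t, Det (R (t + 1)) (R t))
    (y : η) (t : ℕ) (S : Finset Ω) (hS : ∀ ω ∈ S, Y ω = y ∧ 0 < μ ω)
    (hS1 : ∀ ω ∈ S, ∀ ω' ∈ S, R t ω = R t ω')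
    (hS2 : ∀ ω ∈ S, ∀ ω' ∈ S, R (t + 1) ω = R (t + 1) ω' → ω = ω') :
    ∑ ω ∈ S, ka P μ R t ω * kb P μ Y R t ω ≤ 1 := by
  rcases S.eq_empty_or_nonempty with rfl | ⟨ω₁, hω₁⟩
  · simp
  have hne : Nonempty Ω := ⟨ω₁⟩
  have hrep : ∀ c ∈ S.image (P.D (t + 1)), ∃ ω ∈ S, P.D (t + 1) ω = c := by
    intro c hc
    obtain ⟨ω, hω, rfl⟩ := mem_image.1 hc
    exact ⟨ω, hω, rfl⟩
  choose! r hr1 hr2 using hrep
  have h1 : ∑ ω ∈ S, ka P μ R t ω * kb P μ Y R t ω =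
      ∑ c ∈ S.image (P.D (t + 1)), ∑ ω ∈ S with P.D (t + 1) ω = c,
        ka P μ R t ω * kb P μ Y R t ω :=
    (sum_fiberwise_of_maps_to (fun ω hω => mem_image_of_mem _ hω) _).symm
  rw [h1]
  have h2 : ∀ c ∈ S.image (P.D (t + 1)), ∑ ω ∈ S with P.D (t + 1) ω = c,
      ka P μ R t ω * kb P μ Y R t ω ≤ ka P μ R t (r c) := by
    intro c hc
    have hrS := hr1 c hc
    have h3 : ∀ ω ∈ S.filter (fun ω => P.D (t + 1) ω = c), ka P μ R t ω * kb P μ Y R t ω =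
        ka P μ R t (r c) * (Pr μ (fun ω => (R (t + 1) ω, Y ω)) (R (t + 1) ω, Y ω) /
          Pr μ (fun ω => ((P.D (t + 1) ω, R t ω), Y ω))
            ((P.D (t + 1) (r c), R t (r c)), Y (r c))) := by
      intro ω hω
      obtain ⟨hω1, hω2⟩ := mem_filter.1 hω
      have e1 : P.D (t + 1) ω = P.D (t + 1) (r c) := by rw [hω2, hr2 c hc]
      have e2 : R t ω = R t (r c) := hS1 ω hω1 _ hrS
      have e3 : Y ω = Y (r c) := by rw [(hS ω hω1).1, (hS _ hrS).1]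
      unfold ka kb
      rw [e1, e2, e3]
    rw [sum_congr rfl h3, ← mul_sum, ← sum_div]
    refine mul_le_of_le_one_right (ka_pos hμ t (hS _ hrS).2).le ?_
    refine div_le_one_of_le₀ ?_ (Pr_nonneg hμ _ _)
    refine sum_Pr_le hμ _ _ ((((det_fst _ _).trans (hRD (t + 1))).pair
      ((det_fst _ _).trans (hR t))).pair (det_snd _ _)) _ _ ?_ ?_
    · intro ω hω
      obtain ⟨hω1, hω2⟩ := mem_filter.1 hω
      have e1 : P.D (t + 1) ω = P.D (t + 1) (r c) := by rw [hω2, hr2 c hc]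
      have e2 : R t ω = R t (r c) := hS1 ω hω1 _ hrS
      have e3 : Y ω = Y (r c) := by rw [(hS ω hω1).1, (hS _ hrS).1]
      rw [e1, e2, e3]
    · intro ω hω ω' hω' h
      exact hS2 ω (mem_filter.1 hω).1 ω' (mem_filter.1 hω').1 (Prod.mk.inj h).1
  refine (sum_le_sum h2).trans ?_
  have h4 : ∀ c ∈ S.image (P.D (t + 1)), ka P μ R t (r c) =
      Pr μ (fun ω => (P.D (t + 1) ω, R t ω)) (P.D (t + 1) (r c), R t (r c)) /
        Pr μ (R t) (R t ω₁) := by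
    intro c hc
    unfold ka
    rw [hS1 _ (hr1 c hc) _ hω₁]
  rw [sum_congr rfl h4, ← sum_div]
  refine div_le_one_of_le₀ ?_ (Pr_nonneg hμ _ _)
  have h5 : ∑ c ∈ S.image (P.D (t + 1)),
      Pr μ (fun ω => (P.D (t + 1) ω, R t ω)) (P.D (t + 1) (r c), R t (r c)) =
      ∑ ω ∈ (S.image (P.D (t + 1))).image r,
        Pr μ (fun ω => (P.D (t + 1) ω, R t ω)) (P.D (t + 1) ω, R t ω) :=
    (sum_image (f := fun ω => Pr μ (fun ω => (P.D (t + 1) ω, R t ω)) (P.D (t + 1) ω, R t ω))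
      fun c hc c' hc' h => by rw [← hr2 c hc, ← hr2 c' hc', h]).symm
  rw [h5]
  refine sum_Pr_le hμ _ _ (det_snd _ _) _ _ ?_ ?_
  · intro ω hω
    obtain ⟨c, hc, rfl⟩ := mem_image.1 hω
    exact hS1 _ (hr1 c hc) _ hω₁
  · intro ω hω ω' hω' h
    obtain ⟨c, hc, rfl⟩ := mem_image.1 hω
    obtain ⟨c', hc', rfl⟩ := mem_image.1 hω'
    have h6 := (Prod.mk.inj h).1
    rw [hr2 c hc, hr2 c' hc'] at h6
    rw [h6]

variable (μ Y R) in
/-- a kernel on the boxes of every line -/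
structure Ker (κ : ℕ → Ω → ℝ) : Prop where
  pos : ∀ t ω, 0 < μ ω → 0 < κ t ω
  congr : ∀ t ω ω', 0 < μ ω → 0 < μ ω' → Y ω = Y ω' → R (t + 1) ω = R (t + 1) ω' →
    κ t ω = κ t ω'
  sum_le : ∀ t (y : η) (S : Finset Ω), (∀ ω ∈ S, Y ω = y ∧ 0 < μ ω) →
    (∀ ω ∈ S, ∀ ω' ∈ S, R t ω = R t ω') →
    (∀ ω ∈ S, ∀ ω' ∈ S, R (t + 1) ω = R (t + 1) ω' → ω = ω') → ∑ ω ∈ S, κ t ω ≤ 1

/-- the kernel of the law, with the guard loss of the line -/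
lemma ker_ab (hμ : IsProb μ) (hRD : ∀ t, Det (R t) (P.D t)) (hR : ∀ t, Det (R (t + 1)) (R t)) :
    Ker μ Y R fun t ω => ka P μ R t ω * kb P μ Y R t ω where
  pos := fun t ω h => mul_pos (ka_pos hμ t h) (kb_pos hμ t h)
  congr := fun t ω ω' _ _ e3 h => by
    have e1 := hRD (t + 1) ω ω' h
    have e2 := hR t ω ω' h
    unfold ka kb
    rw [e1, e2, e3, h]
  sum_le := fun t y S hS h1 h2 => kab_sum hμ hRD hR y t S hS h1 h2

variable (μ Y R) in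
/-- the probability of the next box, given the box and the line -/
noncomputable def kl (t : ℕ) (ω : Ω) : ℝ :=
  Pr μ (fun ω => (R (t + 1) ω, Y ω)) (R (t + 1) ω, Y ω) /
    Pr μ (fun ω => (R t ω, Y ω)) (R t ω, Y ω)

/-- the kernel of every line itself -/
lemma ker_l (hμ : IsProb μ) (hR : ∀ t, Det (R (t + 1)) (R t)) : Ker μ Y R (kl μ Y R) where
  pos := fun t ω h => div_pos (Pr_pos hμ _ h) (Pr_pos hμ _ h)
  congr := fun t ω ω' _ _ e3 h => by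
    have e2 := hR t ω ω' h
    unfold kl
    rw [e2, e3, h]
  sum_le := fun t y S hS h1 h2 => by
    classical
    rcases S.eq_empty_or_nonempty with rfl | ⟨ω₁, hω₁⟩
    · simp
    have h3 : ∀ ω ∈ S, kl μ Y R t ω = Pr μ (fun ω => (R (t + 1) ω, Y ω)) (R (t + 1) ω, Y ω) /
        Pr μ (fun ω => (R t ω, Y ω)) (R t ω₁, Y ω₁) := by
      intro ω hω
      unfold kl
      rw [h1 ω hω ω₁ hω₁, (hS ω hω).1, (hS ω₁ hω₁).1]
    rw [sum_congr rfl h3, ← sum_div]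
    refine div_le_one_of_le₀ ?_ (Pr_nonneg hμ _ _)
    refine sum_Pr_le hμ _ _ (((det_fst _ _).trans (hR t)).pair (det_snd _ _)) _ _ ?_ ?_
    · intro ω hω
      rw [h1 ω hω ω₁ hω₁, (hS ω hω).1, (hS ω₁ hω₁).1]
    · intro ω hω ω' hω' h
      exact h2 ω hω ω' hω' (Prod.mk.inj h).1

open Classical in
/-- the line `y` -/
noncomputable def lin (P : Pcs Ω) (Y : Ω → η) (R : ℕ → Ω → β) (hμ : IsProb μ)
    (hRD : ∀ t, Det (R t) (P.D t)) (hR : ∀ t, Det (R (t + 1)) (R t))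
    (th : ℕ → Ω → Prop) (hth : ∀ t ω ω', R t ω = R t ω' → th t ω → th t ω')
    {κ : ℕ → Ω → ℝ} (hκ : Ker μ Y R κ) (y : η) :
    Lin P β where
  A := {ω | Y ω = y ∧ 0 < μ ω}
  p := μ
  p_nonneg := hμ.nonneg
  R := R
  R_D := fun t ω _ ω' _ h => hRD t ω ω' h
  R_succ := fun t ω _ ω' _ h => hR t ω ω' h
  th := th
  th_congr := fun t ω _ ω' _ h => hth t ω ω' h
  κ := κ
  κ_pos := fun t ω hω => hκ.pos t ω (mem_filter.1 hω).2.2
  κ_congr := fun t ω hω ω' hω' h => hκ.congr t ω ω' (mem_filter.1 hω).2.2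
    (mem_filter.1 hω').2.2 (by rw [(mem_filter.1 hω).2.1, (mem_filter.1 hω').2.1]) h
  κ_sum := fun t S hS h1 h2 => hκ.sum_le t y S (fun ω hω => (mem_filter.1 (hS hω)).2) h1 h2

end Avg

/-- a block which is split by the line and is not cut by the boxes -/
def Good (P : Pcs Ω) (μ : Ω → ℝ) (Y : Ω → η) (R : ℕ → Ω → β) (ρ : ℝ) (g j : ℕ) (ω : Ω) : Prop :=
  Pr μ (fun ω => (P.W (j + 1) ω, Y ω)) (P.W (j + 1) ω, Y ω) ≤
      ρ * Pr μ (fun ω => (P.W j ω, Y ω)) (P.W j ω, Y ω) ∧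
    ∀ ω', 0 < μ ω' → Y ω' = Y ω → P.W j ω' = P.W j ω →
      R (P.tm j ω - g) ω' = R (P.tm j ω - g) ω

open Classical in
/-- the digits with a thick scale among the next `M` scales -/
noncomputable def Cov (P : Pcs Ω) (th : ℕ → Ω → Prop) (M : ℕ) (ω : Ω) : Finset ℕ :=
  {z ∈ range P.T | ∃ v, v < P.T ∧ th v ω ∧ z ≤ v ∧ v ≤ z + M}

open Classical in
/-- **the time account, averaged over all lines**, for any kernel `κ`: `ζ` is any bound for the sum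
of the cover lemma (see `exists_zeta`) -/
theorem time_account_ker (P : Pcs Ω) {μ : Ω → ℝ} (hμ : IsProb μ) (Y : Ω → η) (R : ℕ → Ω → β)
    (hRD : ∀ t, Det (R t) (P.D t)) (hR : ∀ t, Det (R (t + 1)) (R t))
    (th : ℕ → Ω → Prop) (hth : ∀ t ω ω', R t ω = R t ω' → th t ω → th t ω')
    {κ : ℕ → Ω → ℝ} (hκ : Avg.Ker μ Y R κ)
    {ρ : ℝ} (hρ : 0 ≤ ρ) (hρ1 : ρ ≤ 1) (g n₀ A₀ L₀ M : ℕ) (hM : g + L₀ * (2 + A₀) ≤ M + 1)
    {c : ℝ} (hc : 0 < c) {ζ : ℝ}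
    (hζ : ∑ i ∈ Icc A₀ n₀, 2 * (i : ℝ) * (Real.exp c * ρ) ^ i ≤ ζ) :
    ∑ ω, μ ω * ∑ j ∈ range n₀, min (L₀ : ℝ) ((P.tm (j + 1) ω : ℝ) - P.tm j ω) ≤
      ∑ ω, μ ω * #(Cov P th M ω) +
      L₀ * ∑ ω, μ ω * #{j ∈ range n₀ | g ≤ P.tm j ω ∧ ¬ Good P μ Y R ρ g j ω} +
      L₀ * (c⁻¹ * ∑ ω, μ ω * ∑ t ∈ range P.T with ¬ th t ω, -Real.log (κ t ω) +
        ζ * (1 + ∑ ω, μ ω * #{t ∈ range P.T | th t ω})) +
      (g + L₀ * (2 + A₀)) := by
  let L : η → Lin P β := Avg.lin P Y R hμ hRD hR th hth hκ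
  have hLA : ∀ y ω, ω ∈ (L y).A ↔ Y ω = y ∧ 0 < μ ω := by
    intro y ω
    show ω ∈ ({ω | Y ω = y ∧ 0 < μ ω} : Finset Ω) ↔ _
    simp
  -- sums over flags are sums over the lines
  have hsplit : ∀ F : Ω → ℝ, ∑ ω, μ ω * F ω =
      ∑ y ∈ univ.image Y, ∑ ω ∈ (L y).A, μ ω * F ω := by
    intro F
    rw [← sum_fiberwise_of_maps_to (fun ω (_ : ω ∈ univ) => mem_image_of_mem Y (mem_univ ω))]
    refine sum_congr rfl fun y _ => ?_
    symm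
    refine sum_subset_zero_on_sdiff ?_ ?_ fun _ _ => rfl
    · intro ω hω
      rw [hLA] at hω
      exact mem_filter.2 ⟨mem_univ _, hω.1⟩
    · intro ω hω
      rw [mem_sdiff, mem_filter, hLA] at hω
      have h1 : ¬ 0 < μ ω := fun h => hω.2 ⟨hω.1.2, h⟩
      have h2 : μ ω = 0 := le_antisymm (not_lt.1 h1) (hμ.nonneg ω)
      rw [h2, zero_mul]
  -- masses
  have hms : ∀ y j ω, Y ω = y → (L y).ms j ω =
      Pr μ (fun ω => (P.W j ω, Y ω)) (P.W j ω, Y ω) := by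
    intro y j ω hy
    have e1 : Pr μ (fun ω => (P.W j ω, Y ω)) (P.W j ω, Y ω) =
        ∑ ω' ∈ univ.filter (fun ω' => (P.W j ω', Y ω') = (P.W j ω, Y ω)), μ ω' := by
      unfold Pr
      rw [sum_filter]
      refine sum_congr rfl fun a _ => ?_
      by_cases h : (P.W j a, Y a) = (P.W j ω, Y ω)
      · rw [if_pos h, if_pos h]
      · rw [if_neg h, if_neg h]
    rw [e1]
    unfold Lin.ms
    refine sum_subset_zero_on_sdiff ?_ ?_ fun _ _ => rfl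
    · intro ω' hω'
      obtain ⟨h1, h2⟩ := mem_filter.1 hω'
      rw [hLA] at h1
      refine mem_filter.2 ⟨mem_univ _, ?_⟩
      rw [h2, h1.1, hy]
    · intro ω' hω'
      obtain ⟨h1, h2⟩ := mem_sdiff.1 hω'
      have h3 := Prod.mk.inj (mem_filter.1 h1).2
      by_contra hne
      have hpos : 0 < μ ω' := lt_of_le_of_ne (hμ.nonneg ω') (Ne.symm hne)
      exact h2 (mem_filter.2 ⟨(hLA y ω').2 ⟨h3.2.trans hy, hpos⟩, h3.1⟩)
  have hgood : ∀ y j ω, Y ω = y → Good P μ Y R ρ g j ω → (L y).good ρ g j ω := by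
    intro y j ω hy h
    refine ⟨?_, fun ω' hω' h' => ?_⟩
    · rw [hms y (j + 1) ω hy, hms y j ω hy]
      exact h.1
    · rw [hLA] at hω'
      exact h.2 ω' hω'.2 (hω'.1.trans hy.symm) h'
  -- the account of one flag
  set gap : η → Ω → ℝ := fun y ω => ∑ a ∈ (L y).starts ω,
    (if A₀ ≤ #((L y).gb ρ g n₀ a ω) then (#((L y).gb ρ g n₀ a ω) : ℝ) else 0) with hgap
  have hacc : ∀ y, ∀ ω ∈ (L y).A, ∑ j ∈ range n₀,
      min (L₀ : ℝ) ((P.tm (j + 1) ω : ℝ) - P.tm j ω) ≤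
      #(Cov P th M ω) + L₀ * #{j ∈ range n₀ | g ≤ P.tm j ω ∧ ¬ Good P μ Y R ρ g j ω} +
      L₀ * gap y ω + (g + L₀ * (2 + A₀)) := by
    intro y ω hω
    have hy := ((hLA y ω).1 hω).1
    have h1 := (L y).account ρ g n₀ A₀ L₀ M hM ω
    have h2 : #{j ∈ range n₀ | g ≤ P.tm j ω ∧ ¬ (L y).good ρ g j ω} ≤
        #{j ∈ range n₀ | g ≤ P.tm j ω ∧ ¬ Good P μ Y R ρ g j ω} := by
      refine card_le_card fun j hj => ?_
      obtain ⟨h3, h4, h5⟩ := mem_filter.1 hj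
      exact mem_filter.2 ⟨h3, h4, fun h => h5 (hgood y j ω hy h)⟩
    have h3 : #((L y).cov M ω) = #(Cov P th M ω) := rfl
    have h4 : ∑ j ∈ range n₀, min (L₀ : ℝ) ((P.tm (j + 1) ω : ℝ) - P.tm j ω) =
        ((∑ j ∈ range n₀, min L₀ (P.tm (j + 1) ω - P.tm j ω) : ℕ) : ℝ) := by
      push_cast
      refine sum_congr rfl fun j _ => ?_
      rw [Nat.cast_sub (P.tm_mono (Nat.le_succ j) ω)]
    rw [h4]
    have h5 : ((∑ j ∈ range n₀, min L₀ (P.tm (j + 1) ω - P.tm j ω) : ℕ) : ℝ) ≤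
        ((#((L y).cov M ω) + L₀ * #{j ∈ range n₀ | g ≤ P.tm j ω ∧ ¬ (L y).good ρ g j ω} +
      L₀ * ∑ a ∈ (L y).starts ω,
        (if A₀ ≤ #((L y).gb ρ g n₀ a ω) then #((L y).gb ρ g n₀ a ω) else 0) +
      (g + L₀ * (2 + A₀)) : ℕ) : ℝ) := by exact_mod_cast h1
    refine h5.trans ?_
    rw [h3]
    push_cast
    have h6 : (L₀ : ℝ) * #{j ∈ range n₀ | g ≤ P.tm j ω ∧ ¬ (L y).good ρ g j ω} ≤
        L₀ * #{j ∈ range n₀ | g ≤ P.tm j ω ∧ ¬ Good P μ Y R ρ g j ω} :=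
      mul_le_mul_of_nonneg_left (by exact_mod_cast h2) (Nat.cast_nonneg _)
    simp only [hgap]
    linarith
  -- the cover lemma for one line
  have hcov : ∀ y, ∑ ω ∈ (L y).A, μ ω * gap y ω ≤
      c⁻¹ * ∑ ω ∈ (L y).A, μ ω * ∑ t ∈ range P.T with ¬ th t ω, -Real.log (κ t ω) +
      ζ * ∑ ω ∈ (L y).A, μ ω * (1 + #{t ∈ range P.T | th t ω}) := by
    intro y
    have h1 := (L y).cover hρ hρ1 g n₀ A₀ hc
    refine h1.trans (add_le_add le_rfl ?_)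
    · have hz0 : 0 ≤ ∑ i ∈ Icc A₀ n₀, 2 * (i : ℝ) * (Real.exp c * ρ) ^ i :=
        sum_nonneg fun i _ => by positivity
      have h2 : 0 ≤ ∑ ω ∈ (L y).A, (L y).p ω * #((L y).starts ω) :=
        sum_nonneg fun ω _ => mul_nonneg (hμ.nonneg ω) (Nat.cast_nonneg _)
      calc (∑ i ∈ Icc A₀ n₀, 2 * (i : ℝ) * (Real.exp c * ρ) ^ i) *
            ∑ ω ∈ (L y).A, (L y).p ω * #((L y).starts ω)
          ≤ ζ * ∑ ω ∈ (L y).A, (L y).p ω * #((L y).starts ω) :=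
            mul_le_mul_of_nonneg_right hζ h2
        _ ≤ ζ * ∑ ω ∈ (L y).A, μ ω * (1 + #{t ∈ range P.T | th t ω}) := by
            refine mul_le_mul_of_nonneg_left ?_ (hz0.trans hζ)
            refine sum_le_sum fun ω _ => mul_le_mul_of_nonneg_left ?_ (hμ.nonneg ω)
            have h3 := (L y).card_starts ω
            exact_mod_cast h3
  -- sum over the lines
  have hsum1 : ∑ ω, μ ω * ∑ j ∈ range n₀, min (L₀ : ℝ) ((P.tm (j + 1) ω : ℝ) - P.tm j ω) ≤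
      ∑ y ∈ univ.image Y, ∑ ω ∈ (L y).A, μ ω * (#(Cov P th M ω) +
        L₀ * #{j ∈ range n₀ | g ≤ P.tm j ω ∧ ¬ Good P μ Y R ρ g j ω} +
        (g + L₀ * (2 + A₀))) + L₀ * ∑ y ∈ univ.image Y, ∑ ω ∈ (L y).A, μ ω * gap y ω := by
    rw [hsplit, mul_sum, ← sum_add_distrib]
    refine sum_le_sum fun y _ => ?_
    rw [mul_sum, ← sum_add_distrib]
    refine sum_le_sum fun ω hω => ?_
    have h1 := mul_le_mul_of_nonneg_left (hacc y ω hω) (hμ.nonneg ω)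
    refine h1.trans (le_of_eq ?_)
    ring
  rw [← hsplit] at hsum1
  have hsum2 : ∑ y ∈ univ.image Y, ∑ ω ∈ (L y).A, μ ω * gap y ω ≤
      c⁻¹ * ∑ ω, μ ω * ∑ t ∈ range P.T with ¬ th t ω, -Real.log (κ t ω) +
      ζ * ∑ ω, μ ω * (1 + #{t ∈ range P.T | th t ω}) := by
    refine (sum_le_sum fun y _ => hcov y).trans (le_of_eq ?_)
    rw [sum_add_distrib, ← mul_sum, ← mul_sum, ← hsplit, ← hsplit]
  have hsum4 : ∑ ω, μ ω * (1 + (#{t ∈ range P.T | th t ω} : ℝ)) =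
      1 + ∑ ω, μ ω * #{t ∈ range P.T | th t ω} := by
    simp only [mul_add, mul_one, sum_add_distrib, hμ.sum]
  have hsum5 : ∑ ω, μ ω * (#(Cov P th M ω) +
        L₀ * #{j ∈ range n₀ | g ≤ P.tm j ω ∧ ¬ Good P μ Y R ρ g j ω} +
        (g + L₀ * (2 + A₀) : ℝ)) = ∑ ω, μ ω * #(Cov P th M ω) +
      L₀ * ∑ ω, μ ω * #{j ∈ range n₀ | g ≤ P.tm j ω ∧ ¬ Good P μ Y R ρ g j ω} +
      (g + L₀ * (2 + A₀)) := by
    have h1 : ∀ ω, μ ω * (#(Cov P th M ω) +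
        L₀ * #{j ∈ range n₀ | g ≤ P.tm j ω ∧ ¬ Good P μ Y R ρ g j ω} +
        (g + L₀ * (2 + A₀) : ℝ)) = μ ω * #(Cov P th M ω) +
        L₀ * (μ ω * #{j ∈ range n₀ | g ≤ P.tm j ω ∧ ¬ Good P μ Y R ρ g j ω}) +
        μ ω * (g + L₀ * (2 + A₀)) := fun ω => by ring
    rw [sum_congr rfl fun ω _ => h1 ω, sum_add_distrib, sum_add_distrib, ← mul_sum, ← sum_mul,
      hμ.sum, one_mul]
  have hL0 : (0 : ℝ) ≤ L₀ := Nat.cast_nonneg _
  rw [hsum4] at hsum2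
  have h7 := mul_le_mul_of_nonneg_left hsum2 hL0
  rw [hsum5] at hsum1
  linarith

open Classical in
/-- **the time account, averaged over all lines**: kernel of the law `μ` itself, with the guard
loss of the boxes of the lines -/
theorem time_account (P : Pcs Ω) {μ : Ω → ℝ} (hμ : IsProb μ) (Y : Ω → η) (R : ℕ → Ω → β)
    (hRD : ∀ t, Det (R t) (P.D t)) (hR : ∀ t, Det (R (t + 1)) (R t))
    (th : ℕ → Ω → Prop) (hth : ∀ t ω ω', R t ω = R t ω' → th t ω → th t ω')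
    {ρ : ℝ} (hρ : 0 ≤ ρ) (hρ1 : ρ ≤ 1) (g n₀ A₀ L₀ M : ℕ) (hM : g + L₀ * (2 + A₀) ≤ M + 1)
    {c : ℝ} (hc : 0 < c) {ζ : ℝ}
    (hζ : ∑ i ∈ Icc A₀ n₀, 2 * (i : ℝ) * (Real.exp c * ρ) ^ i ≤ ζ) :
    ∑ ω, μ ω * ∑ j ∈ range n₀, min (L₀ : ℝ) ((P.tm (j + 1) ω : ℝ) - P.tm j ω) ≤
      ∑ ω, μ ω * #(Cov P th M ω) +
      L₀ * ∑ ω, μ ω * #{j ∈ range n₀ | g ≤ P.tm j ω ∧ ¬ Good P μ Y R ρ g j ω} +
      L₀ * (c⁻¹ * (∑ ω, μ ω * ∑ t ∈ range P.T with ¬ th t ω, -Real.log (Avg.ka P μ R t ω) +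
          ∑ t ∈ range P.T, Hc μ (R (t + 1)) (fun ω => ((P.D (t + 1) ω, R t ω), Y ω))) +
        ζ * (1 + ∑ ω, μ ω * #{t ∈ range P.T | th t ω})) +
      (g + L₀ * (2 + A₀)) := by
  have h0 := time_account_ker P hμ Y R hRD hR th hth (Avg.ker_ab (Y := Y) hμ hRD hR) hρ hρ1
    g n₀ A₀ L₀ M hM hc hζ
  refine h0.trans ?_
  have hsum0 : ∑ ω, μ ω * ∑ t ∈ range P.T with ¬ th t ω,
        -Real.log (Avg.ka P μ R t ω * Avg.kb P μ Y R t ω) =
      ∑ ω, μ ω * ∑ t ∈ range P.T with ¬ th t ω,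
        (-Real.log (Avg.ka P μ R t ω) + -Real.log (Avg.kb P μ Y R t ω)) := by
    refine sum_congr rfl fun ω _ => ?_
    rcases (hμ.nonneg ω).eq_or_lt with h | h
    · rw [← h, zero_mul, zero_mul]
    · congr 1
      refine sum_congr rfl fun t _ => ?_
      rw [Real.log_mul (Avg.ka_pos hμ t h).ne' (Avg.kb_pos hμ t h).ne']
      ring
  have hsum3 : ∑ ω, μ ω * ∑ t ∈ range P.T with ¬ th t ω,
        (-Real.log (Avg.ka P μ R t ω) + -Real.log (Avg.kb P μ Y R t ω)) ≤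
      ∑ ω, μ ω * ∑ t ∈ range P.T with ¬ th t ω, -Real.log (Avg.ka P μ R t ω) +
        ∑ t ∈ range P.T, Hc μ (R (t + 1)) (fun ω => ((P.D (t + 1) ω, R t ω), Y ω)) := by
    have h1 : ∀ t, Hc μ (R (t + 1)) (fun ω => ((P.D (t + 1) ω, R t ω), Y ω)) =
        ∑ ω, μ ω * -Real.log (Avg.kb P μ Y R t ω) := by
      intro t
      rw [Hc_eq_sum hμ]
      refine sum_congr rfl fun ω _ => ?_
      unfold Avg.kb
      rw [Pr_congr (X := fun ω => (R (t + 1) ω, ((P.D (t + 1) ω, R t ω), Y ω)))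
        (Y := fun ω => (R (t + 1) ω, Y ω))
        ((det_fst _ _).pair ((det_snd _ _).trans (det_snd _ _)))
        ((det_fst _ _).pair ((((det_fst _ _).trans (hRD (t + 1))).pair
          ((det_fst _ _).trans (hR t))).pair (det_snd _ _))) ω]
    rw [sum_congr rfl fun t _ => h1 t, sum_comm, ← sum_add_distrib]
    refine sum_le_sum fun ω _ => ?_
    rw [sum_add_distrib, mul_add, ← mul_sum]
    refine add_le_add le_rfl (mul_le_mul_of_nonneg_left ?_ (hμ.nonneg ω))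
    refine sum_le_sum_of_subset_of_nonneg (filter_subset _ _) fun t _ _ => ?_
    have h2 : 0 ≤ Avg.kb P μ Y R t ω := div_nonneg (Pr_nonneg hμ _ _) (Pr_nonneg hμ _ _)
    have h3 := Real.log_nonpos h2 (Avg.kb_le_one hμ hRD hR t ω)
    linarith
  have hL0 : (0 : ℝ) ≤ L₀ := Nat.cast_nonneg _
  have hc0 : 0 ≤ c⁻¹ := (inv_pos.2 hc).le
  rw [← hsum0] at hsum3
  have h6 := mul_le_mul_of_nonneg_left hsum3 hc0
  have h7 := mul_le_mul_of_nonneg_left h6 hL0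
  rw [mul_add, mul_add (L₀ : ℝ) (c⁻¹ * _)]
  linarith

open Classical in
/-- **the time account, averaged over all lines**: kernel of the lines themselves. The surprise
is the conditional entropy of the next box, given the box and the line, at the scales which are not
thick. -/
theorem time_account_line (P : Pcs Ω) {μ : Ω → ℝ} (hμ : IsProb μ) (Y : Ω → η) (R : ℕ → Ω → β)
    (hRD : ∀ t, Det (R t) (P.D t)) (hR : ∀ t, Det (R (t + 1)) (R t))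
    (th : ℕ → Ω → Prop) (hth : ∀ t ω ω', R t ω = R t ω' → th t ω → th t ω')
    {ρ : ℝ} (hρ : 0 ≤ ρ) (hρ1 : ρ ≤ 1) (g n₀ A₀ L₀ M : ℕ) (hM : g + L₀ * (2 + A₀) ≤ M + 1)
    {c : ℝ} (hc : 0 < c) {ζ : ℝ}
    (hζ : ∑ i ∈ Icc A₀ n₀, 2 * (i : ℝ) * (Real.exp c * ρ) ^ i ≤ ζ) :
    ∑ ω, μ ω * ∑ j ∈ range n₀, min (L₀ : ℝ) ((P.tm (j + 1) ω : ℝ) - P.tm j ω) ≤
      ∑ ω, μ ω * #(Cov P th M ω) +
      L₀ * ∑ ω, μ ω * #{j ∈ range n₀ | g ≤ P.tm j ω ∧ ¬ Good P μ Y R ρ g j ω} +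
      L₀ * (c⁻¹ * ∑ ω, μ ω * ∑ t ∈ range P.T with ¬ th t ω, -Real.log (Avg.kl μ Y R t ω) +
        ζ * (1 + ∑ ω, μ ω * #{t ∈ range P.T | th t ω})) +
      (g + L₀ * (2 + A₀)) :=
  time_account_ker P hμ Y R hRD hR th hth (Avg.ker_l hμ hR) hρ hρ1 g n₀ A₀ L₀ M hM hc hζ

end Vale.Agent.P065.H268
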