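import Vale.Agent.P065.H268.TimeGeo

/-!
# P065, package TIME: the cover lemma (helper268)

A line is a set `A` of flags with masses `p`; the boxes `R t` are nested and determine the dyadic
cell of the time (`R = P.D` is allowed); `κ` is a kernel on the tree of the boxes, `th` a set of
boxes (the thick ones). A gap of a flag is a maximal interval of scales without thick box on its
path. The number of good blocks in the gaps with many good blocks is controlled by the surprise of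
the kernel in the gaps.
-/

set_option autoImplicit false

namespace Vale.Agent.P065.H268

open Finset

/-- the data of the cover lemma -/
structure Lin {Ω : Type*} [Fintype Ω] (P : Pcs Ω) (β : Type*) where
  A : Finset Ω
  p : Ω → ℝ
  p_nonneg : ∀ ω, 0 ≤ p ω
  R : ℕ → Ω → β
  R_D : ∀ t, ∀ ω ∈ A, ∀ ω' ∈ A, R t ω = R t ω' → P.D t ω = P.D t ω'
  R_succ : ∀ t, ∀ ω ∈ A, ∀ ω' ∈ A, R (t + 1) ω = R (t + 1) ω' → R t ω = R t ω'
  th : ℕ → Ω → Prop
  th_congr : ∀ t, ∀ ω ∈ A, ∀ ω' ∈ A, R t ω = R t ω' → th t ω → th t ω'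
  κ : ℕ → Ω → ℝ
  κ_pos : ∀ t, ∀ ω ∈ A, 0 < κ t ω
  κ_congr : ∀ t, ∀ ω ∈ A, ∀ ω' ∈ A, R (t + 1) ω = R (t + 1) ω' → κ t ω = κ t ω'
  κ_sum : ∀ t, ∀ S ⊆ A, (∀ ω ∈ S, ∀ ω' ∈ S, R t ω = R t ω') →
    (∀ ω ∈ S, ∀ ω' ∈ S, R (t + 1) ω = R (t + 1) ω' → ω = ω') → ∑ ω ∈ S, κ t ω ≤ 1

namespace Lin

variable {Ω β : Type*} [Fintype Ω] {P : Pcs Ω} (L : Lin P β)

lemma κ_le_one (t : ℕ) {ω : Ω} (h : ω ∈ L.A) : L.κ t ω ≤ 1 := by
  have := L.κ_sum t {ω} (by simpa using h) (by simp) (by simp)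
  simpa using this

/-- boxes are nested -/
lemma R_nest {s t : ℕ} (h : s ≤ t) {ω ω' : Ω} (hω : ω ∈ L.A) (hω' : ω' ∈ L.A)
    (hR : L.R t ω = L.R t ω') : L.R s ω = L.R s ω' := by
  induction t, h using Nat.le_induction with
  | base => exact hR
  | succ n _ ih => exact ih (L.R_succ n ω hω ω' hω' hR)

/-- the tree form of Kraft's inequality for the kernel -/
lemma tree_kraft (τ : Ω → ℕ) (N : ℕ) : ∀ (a : ℕ) (S : Finset Ω), S ⊆ L.A →
    (∀ ω ∈ S, ∀ ω' ∈ S, L.R a ω = L.R a ω') → (∀ ω ∈ S, a ≤ τ ω) → (∀ ω ∈ S, τ ω ≤ a + N) →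
    (∀ ω ∈ S, ∀ ω' ∈ S, L.R (τ ω) ω' = L.R (τ ω) ω → ω' = ω) →
    ∑ ω ∈ S, ∏ t ∈ Ico a (τ ω), L.κ t ω ≤ 1 := by
  classical
  induction N with
  | zero =>
    intro a S hS hD h1 h2 h3
    have h4 : ∀ ω ∈ S, τ ω = a := fun ω hω => le_antisymm (by simpa using h2 ω hω) (h1 ω hω)
    have h5 : #S ≤ 1 := by
      rw [card_le_one]
      intro ω hω ω' hω'
      refine (h3 ω' hω' ω hω ?_)
      rw [h4 ω' hω']
      exact hD _ hω _ hω'
    have h6 : ∑ ω ∈ S, ∏ t ∈ Ico a (τ ω), L.κ t ω = ∑ ω ∈ S, (1 : ℝ) := by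
      refine sum_congr rfl fun ω hω => ?_
      rw [h4 ω hω, Ico_self, prod_empty]
    rw [h6, sum_const, nsmul_eq_mul, mul_one]
    exact_mod_cast h5
  | succ N ih =>
    intro a S hS hD h1 h2 h3
    by_cases hex : ∃ ω ∈ S, τ ω = a
    · obtain ⟨ω₀, hω₀, hτ⟩ := hex
      have h5 : S = {ω₀} := by
        ext ω
        rw [mem_singleton]
        constructor
        · intro hω
          refine (h3 ω₀ hω₀ ω hω ?_)
          rw [hτ]
          exact hD _ hω _ hω₀
        · rintro rfl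
          exact hω₀
      rw [h5, sum_singleton, hτ, Ico_self, prod_empty]
    · push Not at hex
      have h4 : ∀ ω ∈ S, a + 1 ≤ τ ω := fun ω hω => by
        have := h1 ω hω
        have := hex ω hω
        omega
      -- classes of the cells of scale `a + 1`
      rcases S.eq_empty_or_nonempty with rfl | ⟨ω₁, -⟩
      · simp
      have : Nonempty Ω := ⟨ω₁⟩
      have hrep : ∀ c ∈ S.image (L.R (a + 1)), ∃ ω ∈ S, L.R (a + 1) ω = c := by
        intro c hc
        obtain ⟨ω, hω, rfl⟩ := mem_image.1 hc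
        exact ⟨ω, hω, rfl⟩
      choose! r hr1 hr2 using hrep
      have h6 : ∑ ω ∈ S, ∏ t ∈ Ico a (τ ω), L.κ t ω =
          ∑ c ∈ S.image (L.R (a + 1)), ∑ ω ∈ S with L.R (a + 1) ω = c,
            ∏ t ∈ Ico a (τ ω), L.κ t ω :=
        (sum_fiberwise_of_maps_to (fun ω hω => mem_image_of_mem _ hω) _).symm
      rw [h6]
      have h7 : ∀ c ∈ S.image (L.R (a + 1)), ∑ ω ∈ S with L.R (a + 1) ω = c,
          ∏ t ∈ Ico a (τ ω), L.κ t ω ≤ L.κ a (r c) := by
        intro c hc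
        have h8 : ∀ ω ∈ S.filter (fun ω => L.R (a + 1) ω = c), ∏ t ∈ Ico a (τ ω), L.κ t ω =
            L.κ a (r c) * ∏ t ∈ Ico (a + 1) (τ ω), L.κ t ω := by
          intro ω hω
          obtain ⟨hω1, hω2⟩ := mem_filter.1 hω
          rw [prod_eq_prod_Ico_succ_bot (by have := h4 ω hω1; omega)]
          congr 1
          exact L.κ_congr a ω (hS hω1) (r c) (hS (hr1 c hc)) (by rw [hω2, hr2 c hc])
        rw [sum_congr rfl h8, ← mul_sum]
        have h9 := ih (a + 1) (S.filter (fun ω => L.R (a + 1) ω = c))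
          ((filter_subset _ _).trans hS)
          (fun ω hω ω' hω' => by rw [(mem_filter.1 hω).2, (mem_filter.1 hω').2])
          (fun ω hω => h4 ω (mem_filter.1 hω).1)
          (fun ω hω => by
            have := h2 ω (mem_filter.1 hω).1
            omega)
          (fun ω hω ω' hω' h => h3 ω (mem_filter.1 hω).1 ω' (mem_filter.1 hω').1 h)
        exact mul_le_of_le_one_right (L.κ_pos a _ (hS (hr1 c hc))).le h9
      refine (sum_le_sum h7).trans ?_
      have hinj : ∀ c ∈ S.image (L.R (a + 1)), ∀ c' ∈ S.image (L.R (a + 1)),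
          r c = r c' → c = c' := by
        intro c hc c' hc' h
        rw [← hr2 c hc, ← hr2 c' hc', h]
      have h10 : ∑ c ∈ S.image (L.R (a + 1)), L.κ a (r c) =
          ∑ ω ∈ (S.image (L.R (a + 1))).image r, L.κ a ω :=
        (sum_image (fun c hc c' hc' h => hinj c hc c' hc' h)).symm
      rw [h10]
      refine L.κ_sum a _ ?_ ?_ ?_
      · intro ω hω
        obtain ⟨c, hc, rfl⟩ := mem_image.1 hω
        exact hS (hr1 c hc)
      · intro ω hω ω' hω'
        obtain ⟨c, hc, rfl⟩ := mem_image.1 hω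
        obtain ⟨c', hc', rfl⟩ := mem_image.1 hω'
        exact hD _ (hr1 c hc) _ (hr1 c' hc')
      · intro ω hω ω' hω' h
        obtain ⟨c, hc, rfl⟩ := mem_image.1 hω
        obtain ⟨c', hc', rfl⟩ := mem_image.1 hω'
        rw [hr2 c hc, hr2 c' hc'] at h
        rw [h]

open Classical in
/-- mass of the piece of level `j` -/
noncomputable def ms (L : Lin P β) (j : ℕ) (ω : Ω) : ℝ :=
  ∑ ω' ∈ L.A with P.W j ω' = P.W j ω, L.p ω'

lemma ms_nonneg (j : ℕ) (ω : Ω) : 0 ≤ L.ms j ω := sum_nonneg fun ω' _ => L.p_nonneg ω'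

lemma ms_congr {j : ℕ} {ω ω' : Ω} (h : P.W j ω = P.W j ω') : L.ms j ω = L.ms j ω' := by
  unfold ms
  rw [h]

lemma ms_anti {i j : ℕ} (h : i ≤ j) (ω : Ω) : L.ms j ω ≤ L.ms i ω := by
  classical
  unfold ms
  refine sum_le_sum_of_subset_of_nonneg ?_ fun ω' _ _ => L.p_nonneg ω'
  intro ω' hω'
  rw [mem_filter] at hω' ⊢
  exact ⟨hω'.1, P.nest_le h hω'.2⟩

/-- **two maximal pieces**: the mass of the part of a cell covered by long pieces of small mass -/
lemma two_mass {b : ℕ} {M : ℝ} (hM : 0 ≤ M) (E : Finset Ω) (hE : E ⊆ L.A)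
    (hD : ∀ ω ∈ E, ∀ ω' ∈ E, P.D b ω = P.D b ω') (i : Ω → ℕ)
    (ht : ∀ ω ∈ E, P.tm (i ω) ω ≤ b) (hm : ∀ ω ∈ E, L.ms (i ω) ω ≤ M) :
    ∑ ω ∈ E, L.p ω ≤ 2 * M := by
  classical
  rcases E.eq_empty_or_nonempty with rfl | hne
  · simpa using hM
  obtain ⟨u, hu, hu'⟩ := exists_min_image E P.x hne
  obtain ⟨v, hv, hv'⟩ := exists_max_image E P.x hne
  -- the members whose piece contains `w`
  have key : ∀ w : Ω, ∑ ω ∈ E with P.W (i ω) ω = P.W (i ω) w, L.p ω ≤ M := by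
    intro w
    rcases (E.filter fun ω => P.W (i ω) ω = P.W (i ω) w).eq_empty_or_nonempty with h0 | h0
    · rw [h0, sum_empty]
      exact hM
    · obtain ⟨s, hs, hs'⟩ := exists_min_image _ i h0
      obtain ⟨hs1, hs2⟩ := mem_filter.1 hs
      refine le_trans ?_ (hm s hs1)
      unfold ms
      refine sum_le_sum_of_subset_of_nonneg ?_ fun ω' _ _ => L.p_nonneg ω'
      intro ω hω
      have h1 := hs' ω hω
      obtain ⟨hω1, hω2⟩ := mem_filter.1 hω
      rw [mem_filter]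
      refine ⟨hE hω1, ?_⟩
      rw [hs2]
      exact P.nest_le h1 hω2
  have hcov : E ⊆ (E.filter fun ω => P.W (i ω) ω = P.W (i ω) u) ∪
      (E.filter fun ω => P.W (i ω) ω = P.W (i ω) v) := by
    intro ω hω
    rw [mem_union, mem_filter, mem_filter]
    rcases P.mid (hD u hu v hv) (hu' ω hω) (hv' ω hω) (ht ω hω) with h | h
    · exact Or.inl ⟨hω, h⟩
    · exact Or.inr ⟨hω, h⟩
  calc ∑ ω ∈ E, L.p ω ≤ ∑ ω ∈ (E.filter fun ω => P.W (i ω) ω = P.W (i ω) u) ∪
        (E.filter fun ω => P.W (i ω) ω = P.W (i ω) v), L.p ω :=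
        sum_le_sum_of_subset_of_nonneg hcov fun ω' _ _ => L.p_nonneg ω'
    _ ≤ ∑ ω ∈ E with P.W (i ω) ω = P.W (i ω) u, L.p ω +
        ∑ ω ∈ E with P.W (i ω) ω = P.W (i ω) v, L.p ω := by
        rw [← sum_union_inter]
        exact le_add_of_nonneg_right (sum_nonneg fun ω' _ => L.p_nonneg ω')
    _ ≤ 2 * M := by
        have := key u
        have := key v
        linarith

/-- `a` is the first scale of a gap -/
def st (L : Lin P β) (a : ℕ) (ω : Ω) : Prop := a = 0 ∨ ∃ b, a = b + 1 ∧ L.th b ω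

lemma exists_en (a : ℕ) (ω : Ω) : ∃ b, a ≤ b ∧ (L.th b ω ∨ P.T ≤ b) :=
  ⟨max a P.T, le_max_left _ _, Or.inr (le_max_right _ _)⟩

open Classical in
/-- the end of the gap: the next thick scale -/
noncomputable def en (L : Lin P β) (a : ℕ) (ω : Ω) : ℕ := Nat.find (L.exists_en a ω)

lemma le_en (a : ℕ) (ω : Ω) : a ≤ L.en a ω := by
  classical
  exact (Nat.find_spec (L.exists_en a ω)).1

lemma en_spec (a : ℕ) (ω : Ω) : L.th (L.en a ω) ω ∨ P.T ≤ L.en a ω := by
  classical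
  exact (Nat.find_spec (L.exists_en a ω)).2

lemma en_le {a b : ℕ} {ω : Ω} (h : a ≤ b) (h' : L.th b ω ∨ P.T ≤ b) : L.en a ω ≤ b := by
  classical
  exact Nat.find_min' (L.exists_en a ω) ⟨h, h'⟩

lemma en_le_max (a : ℕ) (ω : Ω) : L.en a ω ≤ max a P.T :=
  L.en_le (le_max_left _ _) (Or.inr (le_max_right _ _))

lemma not_th {a t : ℕ} {ω : Ω} (h1 : a ≤ t) (h2 : t < L.en a ω) : ¬ L.th t ω := by
  intro h
  have := L.en_le h1 (Or.inl h)
  omega

lemma lt_T {a t : ℕ} {ω : Ω} (h1 : a ≤ t) (h2 : t < L.en a ω) : t < P.T := by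
  by_contra h
  have := L.en_le (ω := ω) h1 (Or.inr (not_lt.1 h))
  omega

/-- the last cell of the gap determines its end -/
lemma en_congr {a : ℕ} {ω ω' : Ω} (hω : ω ∈ L.A) (hω' : ω' ∈ L.A)
    (h : L.R (L.en a ω) ω' = L.R (L.en a ω) ω) : L.en a ω' = L.en a ω := by
  apply le_antisymm
  · refine L.en_le (L.le_en a ω) ?_
    rcases L.en_spec a ω with h1 | h1
    · exact Or.inl (L.th_congr _ ω hω ω' hω' h.symm h1)
    · exact Or.inr h1
  · by_contra hcon
    push Not at hcon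
    have h2 := L.le_en a ω'
    rcases L.en_spec a ω' with h1 | h1
    · exact L.not_th h2 hcon (L.th_congr _ ω' hω' ω hω (L.R_nest hcon.le hω' hω h) h1)
    · have := L.lt_T h2 hcon
      omega

lemma st_congr {a : ℕ} {ω ω' : Ω} (hω : ω ∈ L.A) (hω' : ω' ∈ L.A)
    (h : L.R a ω = L.R a ω') (hs : L.st a ω) : L.st a ω' := by
  rcases hs with h0 | ⟨b, hb, hb'⟩
  · exact Or.inl h0
  · refine Or.inr ⟨b, hb, L.th_congr b ω hω ω' hω' (L.R_nest (by omega) hω hω' h) hb'⟩

/-- a block which is split by the line and which is not cut by the grid -/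
def good (L : Lin P β) (ρ : ℝ) (g j : ℕ) (ω : Ω) : Prop :=
  L.ms (j + 1) ω ≤ ρ * L.ms j ω ∧
    ∀ ω' ∈ L.A, P.W j ω' = P.W j ω → L.R (P.tm j ω - g) ω' = L.R (P.tm j ω - g) ω

open Classical in
/-- the good blocks of a gap -/
noncomputable def gb (L : Lin P β) (ρ : ℝ) (g n₀ a : ℕ) (ω : Ω) : Finset ℕ :=
  {j ∈ range n₀ | L.good ρ g j ω ∧ a + g ≤ P.tm j ω ∧ P.tm (j + 1) ω ≤ L.en a ω}

/-- the surprise of the gap -/
noncomputable def sp (L : Lin P β) (a : ℕ) (ω : Ω) : ℝ :=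
  ∑ t ∈ Ico a (L.en a ω), -Real.log (L.κ t ω)

lemma sp_nonneg (a : ℕ) {ω : Ω} (hω : ω ∈ L.A) : 0 ≤ L.sp a ω :=
  sum_nonneg fun t _ => by
    have := Real.log_nonpos (L.κ_pos t ω hω).le (L.κ_le_one t hω)
    linarith

/-- the masses of nested good blocks -/
lemma ms_good {ρ : ℝ} (hρ : 0 ≤ ρ) {g : ℕ} {M : ℝ} (ω : Ω) (J : Finset ℕ) :
    (∀ j ∈ J, L.good ρ g j ω) → (∀ j ∈ J, L.ms j ω ≤ M) →
    ∀ i, (∀ j ∈ J, j < i) → J.Nonempty → L.ms i ω ≤ ρ ^ #J * M := by
  classical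
  induction J using Finset.induction_on_max with
  | empty => intro _ _ i _ h; exact absurd h (by simp)
  | insert m J hm ih =>
    intro h1 h2 i h3 _
    have hmJ : m ∉ J := fun h => lt_irrefl _ (hm m h)
    rw [card_insert_of_notMem hmJ, pow_succ]
    have hg := (h1 m (mem_insert_self _ _)).1
    have hi : m + 1 ≤ i := h3 m (mem_insert_self _ _)
    have h4 : L.ms i ω ≤ ρ * L.ms m ω := (L.ms_anti hi ω).trans hg
    rcases J.eq_empty_or_nonempty with rfl | hJ
    · simp only [card_empty, pow_zero, one_mul]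
      exact h4.trans (mul_le_mul_of_nonneg_left (h2 m (mem_insert_self _ _)) hρ)
    · have h5 := ih (fun j hj => h1 j (mem_insert_of_mem hj))
        (fun j hj => h2 j (mem_insert_of_mem hj)) m hm hJ
      calc L.ms i ω ≤ ρ * L.ms m ω := h4
        _ ≤ ρ * (ρ ^ #J * M) := mul_le_mul_of_nonneg_left h5 hρ
        _ = ρ ^ #J * ρ * M := by ring

open Classical in
/-- **the cover lemma**, one cell -/
lemma cover_cell {ρ : ℝ} (hρ : 0 ≤ ρ) (hρ1 : ρ ≤ 1) (g n₀ a n : ℕ) (c : ℝ) (ω₀ : Ω) :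
    ∑ ω ∈ L.A with L.R a ω = L.R a ω₀ ∧ n ≤ #(L.gb ρ g n₀ a ω) ∧ L.sp a ω ≤ c * n, L.p ω ≤
      2 * Real.exp (c * n) * ρ ^ n * ∑ ω ∈ L.A with L.R a ω = L.R a ω₀, L.p ω := by
  set Q := L.A.filter fun ω => L.R a ω = L.R a ω₀ with hQ
  set M := ∑ ω ∈ Q, L.p ω with hM
  have hM0 : 0 ≤ M := sum_nonneg fun ω _ => L.p_nonneg ω
  set E := L.A.filter fun ω => L.R a ω = L.R a ω₀ ∧ n ≤ #(L.gb ρ g n₀ a ω) ∧ L.sp a ω ≤ c * n
    with hE
  have hEA : E ⊆ L.A := filter_subset _ _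
  have hEQ : E ⊆ Q := by
    intro ω hω
    have h1 := mem_filter.1 hω
    exact mem_filter.2 ⟨h1.1, h1.2.1⟩
  have hexp : 1 ≤ Real.exp (c * n) ∨ E = ∅ := by
    rcases E.eq_empty_or_nonempty with h0 | ⟨ω, hω⟩
    · exact Or.inr h0
    · left
      rw [Real.one_le_exp_iff]
      exact (L.sp_nonneg a (hEA hω)).trans (mem_filter.1 hω).2.2.2
  rcases hexp with hexp | hemp
  swap
  · rw [hemp, sum_empty]
    positivity
  rcases Nat.eq_zero_or_pos n with hn | hn
  · rw [hn, pow_zero, mul_one]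
    have h1 : ∑ ω ∈ E, L.p ω ≤ M :=
      sum_le_sum_of_subset_of_nonneg hEQ fun ω _ _ => L.p_nonneg ω
    rw [hn] at hexp
    nlinarith
  -- classes of last cells
  have : Nonempty Ω := ⟨ω₀⟩
  let key : Ω → ℕ × β := fun ω => (L.en a ω, L.R (L.en a ω) ω)
  have hrep : ∀ q ∈ E.image key, ∃ ω ∈ E, key ω = q := by
    intro q hq
    obtain ⟨ω, hω, rfl⟩ := mem_image.1 hq
    exact ⟨ω, hω, rfl⟩
  choose! r hr1 hr2 using hrep
  -- one class
  have hclass : ∀ q ∈ E.image key, ∑ ω ∈ E with key ω = q, L.p ω ≤ 2 * (ρ ^ n * M) := by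
    intro q hq
    have hne : ∀ ω ∈ E, (L.gb ρ g n₀ a ω).Nonempty := by
      intro ω hω
      rw [← card_pos]
      have := (mem_filter.1 hω).2.2.1
      omega
    let i : Ω → ℕ := fun ω => (L.gb ρ g n₀ a ω).sup id + 1
    have hi : ∀ ω ∈ E, ∃ j ∈ L.gb ρ g n₀ a ω, i ω = j + 1 := by
      intro ω hω
      obtain ⟨j, hj, hj'⟩ := exists_mem_eq_sup _ (hne ω hω) id
      exact ⟨j, hj, by simp only [i, hj', id]⟩
    refine L.two_mass (b := q.1) (by positivity) _ ((filter_subset _ _).trans hEA) ?_ i ?_ ?_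
    · intro ω hω ω' hω'
      have h1 := (mem_filter.1 hω).2
      have h2 := (mem_filter.1 hω').2
      have h3 : key ω = key ω' := h1.trans h2.symm
      have h4 : L.en a ω = q.1 := congrArg Prod.fst h1
      have h5 : L.en a ω' = q.1 := congrArg Prod.fst h2
      have h6 : L.R (L.en a ω) ω = L.R (L.en a ω') ω' := congrArg Prod.snd h3
      rw [h4, h5] at h6
      exact L.R_D _ ω (hEA (mem_filter.1 hω).1) ω' (hEA (mem_filter.1 hω').1) h6
    · intro ω hω
      obtain ⟨hω1, hω2⟩ := mem_filter.1 hω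
      obtain ⟨j, hj, hj'⟩ := hi ω hω1
      rw [hj']
      have h1 := (mem_filter.1 hj).2.2.2
      have h2 : L.en a ω = q.1 := congrArg Prod.fst hω2
      omega
    · intro ω hω
      obtain ⟨hω1, hω2⟩ := mem_filter.1 hω
      have hcard := (mem_filter.1 hω1).2.2.1
      have hDa := (mem_filter.1 hω1).2.1
      have h1 : L.ms (i ω) ω ≤ ρ ^ #(L.gb ρ g n₀ a ω) * M := by
        refine L.ms_good hρ (g := g) ω _ (fun j hj => (mem_filter.1 hj).2.1) ?_ _ ?_ (hne ω hω1)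
        · intro j hj
          obtain ⟨-, hgood, htm, -⟩ := mem_filter.1 hj
          unfold ms
          refine sum_le_sum_of_subset_of_nonneg ?_ fun ω' _ _ => L.p_nonneg ω'
          intro ω' hω'
          obtain ⟨h2, h3⟩ := mem_filter.1 hω'
          refine mem_filter.2 ⟨h2, ?_⟩
          rw [← hDa]
          exact L.R_nest (by omega) h2 (hEA hω1) (hgood.2 ω' h2 h3)
        · intro j hj
          exact Nat.lt_succ_of_le (le_sup (f := id) hj)
      exact h1.trans (mul_le_mul_of_nonneg_right (pow_le_pow_of_le_one hρ hρ1 hcard) hM0)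
  -- the number of classes
  have hcount : #(E.image key) * Real.exp (-(c * n)) ≤ 1 := by
    have hinj : ∀ q ∈ E.image key, ∀ q' ∈ E.image key, r q = r q' → q = q' := by
      intro q hq q' hq' h
      rw [← hr2 q hq, ← hr2 q' hq', h]
    have h1 := L.tree_kraft (fun ω => L.en a ω) (max a P.T - a) a ((E.image key).image r)
      (by
        intro ω hω
        obtain ⟨q, hq, rfl⟩ := mem_image.1 hω
        exact hEA (hr1 q hq))
      (by
        intro ω hω ω' hω'
        obtain ⟨q, hq, rfl⟩ := mem_image.1 hω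
        obtain ⟨q', hq', rfl⟩ := mem_image.1 hω'
        rw [(mem_filter.1 (hr1 q hq)).2.1, (mem_filter.1 (hr1 q' hq')).2.1])
      (fun ω _ => L.le_en a ω)
      (fun ω _ => by
        have h2 := L.en_le_max a ω
        have h3 : a ≤ max a P.T := le_max_left _ _
        omega)
      (by
        intro ω hω ω' hω' h
        obtain ⟨q, hq, rfl⟩ := mem_image.1 hω
        obtain ⟨q', hq', rfl⟩ := mem_image.1 hω'
        have h2 := L.en_congr (hEA (hr1 q hq)) (hEA (hr1 q' hq')) h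
        have h3 : key (r q') = key (r q) := by
          simp only [key]
          rw [h2, h]
        rw [hr2 q hq, hr2 q' hq'] at h3
        rw [h3])
    rw [sum_image (fun q hq q' hq' h => hinj q hq q' hq' h)] at h1
    refine le_trans ?_ h1
    rw [← nsmul_eq_mul]
    refine card_nsmul_le_sum _ _ _ fun q hq => ?_
    have h2 := (mem_filter.1 (hr1 q hq)).2.2.2
    have h3 : ∏ t ∈ Ico a (L.en a (r q)), L.κ t (r q) = Real.exp (-L.sp a (r q)) := by
      unfold sp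
      rw [← sum_neg_distrib, Real.exp_sum]
      refine prod_congr rfl fun t _ => ?_
      rw [neg_neg, Real.exp_log (L.κ_pos t _ (hEA (hr1 q hq)))]
    rw [h3]
    exact Real.exp_le_exp.2 (by linarith)
  have hcount' : (#(E.image key) : ℝ) ≤ Real.exp (c * n) := by
    rw [Real.exp_neg] at hcount
    have := Real.exp_pos (c * n)
    rwa [← div_eq_mul_inv, div_le_one this] at hcount
  have h6 : ∑ ω ∈ E, L.p ω = ∑ q ∈ E.image key, ∑ ω ∈ E with key ω = q, L.p ω :=
    (sum_fiberwise_of_maps_to (fun ω hω => mem_image_of_mem _ hω) _).symm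
  rw [h6]
  calc ∑ q ∈ E.image key, ∑ ω ∈ E with key ω = q, L.p ω
      ≤ #(E.image key) • (2 * (ρ ^ n * M)) := sum_le_card_nsmul _ _ _ hclass
    _ = #(E.image key) * (2 * (ρ ^ n * M)) := nsmul_eq_mul _ _
    _ ≤ Real.exp (c * n) * (2 * (ρ ^ n * M)) :=
        mul_le_mul_of_nonneg_right hcount' (by positivity)
    _ = 2 * Real.exp (c * n) * ρ ^ n * M := by ring

end Lin

end Vale.Agent.P065.H268
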