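import Vale.Agent.P065.H268.TimeCover

/-!
# P065, package TIME: the cover lemma, summed over all gaps (helper268)
-/

set_option autoImplicit false

namespace Vale.Agent.P065.H268

open Finset

namespace Lin

variable {Ω β : Type*} [Fintype Ω] {P : Pcs Ω} (L : Lin P β)

open Classical in
/-- the cover lemma for all gaps which start at the scale `a` -/
lemma cover_scale {ρ : ℝ} (hρ : 0 ≤ ρ) (hρ1 : ρ ≤ 1) (g n₀ a n : ℕ) (c : ℝ) :
    ∑ ω ∈ L.A with L.st a ω ∧ n ≤ #(L.gb ρ g n₀ a ω) ∧ L.sp a ω ≤ c * n, L.p ω ≤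
      2 * Real.exp (c * n) * ρ ^ n * ∑ ω ∈ L.A with L.st a ω, L.p ω := by
  set B := L.A.filter fun ω => L.st a ω with hB
  set E := L.A.filter fun ω => L.st a ω ∧ n ≤ #(L.gb ρ g n₀ a ω) ∧ L.sp a ω ≤ c * n with hE
  have h1 : ∑ ω ∈ E, L.p ω = ∑ q ∈ B.image (L.R a), ∑ ω ∈ E with L.R a ω = q, L.p ω := by
    refine (sum_fiberwise_of_maps_to (fun ω hω => mem_image_of_mem _ ?_) _).symm
    obtain ⟨h2, h3⟩ := mem_filter.1 hω
    exact mem_filter.2 ⟨h2, h3.1⟩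
  have h2 : ∑ ω ∈ B, L.p ω = ∑ q ∈ B.image (L.R a), ∑ ω ∈ B with L.R a ω = q, L.p ω :=
    (sum_fiberwise_of_maps_to (fun ω hω => mem_image_of_mem _ hω) _).symm
  rw [h1, h2, mul_sum]
  refine sum_le_sum fun q hq => ?_
  obtain ⟨ω₀, hω₀, rfl⟩ := mem_image.1 hq
  obtain ⟨hA₀, hst₀⟩ := mem_filter.1 hω₀
  have h3 := L.cover_cell hρ hρ1 g n₀ a n c ω₀
  have h4 : (B.filter fun ω => L.R a ω = L.R a ω₀) = L.A.filter fun ω => L.R a ω = L.R a ω₀ := by
    ext ω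
    simp only [hB, mem_filter]
    constructor
    · rintro ⟨⟨h5, -⟩, h6⟩
      exact ⟨h5, h6⟩
    · rintro ⟨h5, h6⟩
      exact ⟨⟨h5, L.st_congr hA₀ h5 h6.symm hst₀⟩, h6⟩
  rw [h4]
  refine le_trans (sum_le_sum_of_subset_of_nonneg ?_ fun ω _ _ => L.p_nonneg ω) h3
  intro ω hω
  simp only [hE, mem_filter] at hω ⊢
  exact ⟨hω.1.1, hω.2, hω.1.2.2⟩

open Classical in
/-- the first scales of the gaps of a flag -/
noncomputable def starts (L : Lin P β) (ω : Ω) : Finset ℕ := {a ∈ range (P.T + 1) | L.st a ω}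

open Classical in
/-- the number of gaps is at most one plus the number of thick scales -/
lemma card_starts (ω : Ω) : #(L.starts ω) ≤ 1 + #{t ∈ range P.T | L.th t ω} := by
  have h1 : L.starts ω ⊆ insert 0 (({t ∈ range P.T | L.th t ω} : Finset ℕ).image (· + 1)) := by
    intro a ha
    obtain ⟨h2, h3⟩ := mem_filter.1 ha
    rw [mem_insert, mem_image]
    rcases h3 with h3 | ⟨b, rfl, h3⟩
    · exact Or.inl h3
    · right
      refine ⟨b, ?_, rfl⟩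
      rw [mem_filter, mem_range]
      rw [mem_range] at h2
      exact ⟨by omega, h3⟩
  calc #(L.starts ω) ≤ #(insert 0 (({t ∈ range P.T | L.th t ω} : Finset ℕ).image (· + 1))) :=
        card_le_card h1
    _ ≤ #(({t ∈ range P.T | L.th t ω} : Finset ℕ).image (· + 1)) + 1 := card_insert_le _ _
    _ ≤ 1 + #{t ∈ range P.T | L.th t ω} := by
        have := card_image_le (s := ({t ∈ range P.T | L.th t ω} : Finset ℕ)) (f := (· + 1))
        omega

/-- gaps with different first scales are disjoint -/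
lemma gap_disj {a a' t : ℕ} {ω : Ω} (h : L.st a' ω) (haa : a < a') (h1 : a' ≤ t)
    (h2 : t < L.en a ω) : False := by
  rcases h with h | ⟨b, rfl, h⟩
  · omega
  · exact L.not_th (a := a) (t := b) (by omega) (by omega) h

open Classical in
/-- the total surprise of the gaps -/
lemma sum_sp_le {ω : Ω} (hω : ω ∈ L.A) : ∑ a ∈ L.starts ω, L.sp a ω ≤
    ∑ t ∈ range P.T with ¬ L.th t ω, -Real.log (L.κ t ω) := by
  unfold sp
  rw [← sum_biUnion]
  · refine sum_le_sum_of_subset_of_nonneg ?_ fun t _ _ => ?_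
    · intro t ht
      obtain ⟨a, ha, ha'⟩ := mem_biUnion.1 ht
      rw [mem_Ico] at ha'
      rw [mem_filter, mem_range]
      exact ⟨L.lt_T ha'.1 ha'.2, L.not_th ha'.1 ha'.2⟩
    · have := Real.log_nonpos (L.κ_pos t ω hω).le (L.κ_le_one t hω)
      linarith
  · intro a ha a' ha' hne
    rw [Function.onFun, disjoint_left]
    intro t h1 h2
    rw [mem_Ico] at h1 h2
    have s1 := (mem_filter.1 ha).2
    have s2 := (mem_filter.1 ha').2
    rcases lt_or_gt_of_ne hne with h | h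
    · exact L.gap_disj s2 h h2.1 h1.2
    · exact L.gap_disj s1 h h1.1 h2.2

lemma card_gb_le (ρ : ℝ) (g n₀ a : ℕ) (ω : Ω) : #(L.gb ρ g n₀ a ω) ≤ n₀ := by
  classical
  refine (card_filter_le _ _).trans ?_
  rw [card_range]

open Classical in
/-- **the cover lemma** -/
theorem cover {ρ : ℝ} (hρ : 0 ≤ ρ) (hρ1 : ρ ≤ 1) (g n₀ A₀ : ℕ) {c : ℝ} (hc : 0 < c) :
    ∑ ω ∈ L.A, L.p ω * ∑ a ∈ L.starts ω,
        (if A₀ ≤ #(L.gb ρ g n₀ a ω) then (#(L.gb ρ g n₀ a ω) : ℝ) else 0) ≤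
      c⁻¹ * ∑ ω ∈ L.A, L.p ω * ∑ t ∈ range P.T with ¬ L.th t ω, -Real.log (L.κ t ω) +
      (∑ i ∈ Icc A₀ n₀, 2 * i * (Real.exp c * ρ) ^ i) *
        ∑ ω ∈ L.A, L.p ω * #(L.starts ω) := by
  -- one gap
  have h1 : ∀ ω a, (if A₀ ≤ #(L.gb ρ g n₀ a ω) then (#(L.gb ρ g n₀ a ω) : ℝ) else 0) ≤
      c⁻¹ * max (L.sp a ω) 0 + ∑ i ∈ Icc A₀ n₀,
        (if i ≤ #(L.gb ρ g n₀ a ω) ∧ L.sp a ω ≤ c * i then (i : ℝ) else 0) := by
    intro ω a
    set n := #(L.gb ρ g n₀ a ω) with hn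
    have hnn : n ≤ n₀ := L.card_gb_le ρ g n₀ a ω
    have hs0 : 0 ≤ ∑ i ∈ Icc A₀ n₀, (if i ≤ n ∧ L.sp a ω ≤ c * i then (i : ℝ) else 0) :=
      sum_nonneg fun i _ => by split_ifs <;> positivity
    have hm : 0 ≤ c⁻¹ * max (L.sp a ω) 0 := mul_nonneg (inv_pos.2 hc).le (le_max_right _ _)
    split_ifs with hA
    · by_cases h2 : L.sp a ω ≤ c * n
      · have h3 : (n : ℝ) ≤ ∑ i ∈ Icc A₀ n₀,
            (if i ≤ n ∧ L.sp a ω ≤ c * i then (i : ℝ) else 0) := by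
          have h4 := single_le_sum (f := fun i : ℕ =>
            (if i ≤ n ∧ L.sp a ω ≤ c * i then (i : ℝ) else 0))
            (fun i _ => by
              show (0 : ℝ) ≤ if i ≤ n ∧ L.sp a ω ≤ c * i then (i : ℝ) else 0
              split_ifs <;> positivity) (mem_Icc.2 ⟨hA, hnn⟩)
          rwa [if_pos ⟨le_rfl, h2⟩] at h4
        linarith
      · push Not at h2
        have h3 : (n : ℝ) ≤ c⁻¹ * max (L.sp a ω) 0 := by
          rw [inv_mul_eq_div, le_div_iff₀ hc]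
          calc (n : ℝ) * c = c * n := mul_comm _ _
            _ ≤ L.sp a ω := h2.le
            _ ≤ _ := le_max_left _ _
        linarith
    · linarith
  -- sum over the gaps of one flag
  have h2 : ∀ ω ∈ L.A, ∑ a ∈ L.starts ω,
        (if A₀ ≤ #(L.gb ρ g n₀ a ω) then (#(L.gb ρ g n₀ a ω) : ℝ) else 0) ≤
      c⁻¹ * ∑ t ∈ range P.T with ¬ L.th t ω, -Real.log (L.κ t ω) +
      ∑ a ∈ L.starts ω, ∑ i ∈ Icc A₀ n₀,
        (if i ≤ #(L.gb ρ g n₀ a ω) ∧ L.sp a ω ≤ c * i then (i : ℝ) else 0) := by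
    intro ω hω
    refine (sum_le_sum fun a _ => h1 ω a).trans ?_
    rw [sum_add_distrib, ← mul_sum]
    refine add_le_add (mul_le_mul_of_nonneg_left ?_ (inv_pos.2 hc).le) le_rfl
    rw [sum_congr rfl fun a _ => max_eq_left (L.sp_nonneg a hω)]
    exact L.sum_sp_le hω
  refine (sum_le_sum fun ω hω => mul_le_mul_of_nonneg_left (h2 ω hω) (L.p_nonneg ω)).trans ?_
  simp only [mul_add, sum_add_distrib]
  refine add_le_add (le_of_eq ?_) ?_
  · rw [mul_sum]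
    exact sum_congr rfl fun ω _ => by ring
  -- exchange the sums
  have h3 : ∀ ω, L.p ω * ∑ a ∈ L.starts ω, ∑ i ∈ Icc A₀ n₀,
        (if i ≤ #(L.gb ρ g n₀ a ω) ∧ L.sp a ω ≤ c * i then (i : ℝ) else 0) =
      ∑ a ∈ range (P.T + 1), ∑ i ∈ Icc A₀ n₀,
        (i : ℝ) * (if L.st a ω ∧ i ≤ #(L.gb ρ g n₀ a ω) ∧ L.sp a ω ≤ c * i
          then L.p ω else 0) := by
    intro ω
    unfold starts
    rw [sum_filter, mul_sum]
    refine sum_congr rfl fun a _ => ?_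
    split_ifs with h
    · rw [mul_sum]
      refine sum_congr rfl fun i _ => ?_
      by_cases h4 : i ≤ #(L.gb ρ g n₀ a ω) ∧ L.sp a ω ≤ c * i
      · rw [if_pos h4, if_pos ⟨h, h4⟩, mul_comm]
      · rw [if_neg h4, if_neg fun h5 => h4 h5.2, mul_zero, mul_zero]
    · rw [mul_zero]
      refine (sum_eq_zero fun i _ => ?_).symm
      rw [if_neg fun h5 => h h5.1, mul_zero]
  rw [sum_congr rfl fun ω _ => h3 ω, sum_comm]
  have h4 : ∀ a, ∑ ω ∈ L.A, ∑ i ∈ Icc A₀ n₀,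
        (i : ℝ) * (if L.st a ω ∧ i ≤ #(L.gb ρ g n₀ a ω) ∧ L.sp a ω ≤ c * i
          then L.p ω else 0) ≤
      (∑ i ∈ Icc A₀ n₀, 2 * i * (Real.exp c * ρ) ^ i) * ∑ ω ∈ L.A with L.st a ω, L.p ω := by
    intro a
    rw [sum_comm, sum_mul]
    refine sum_le_sum fun i _ => ?_
    rw [← mul_sum, ← sum_filter]
    have h5 := L.cover_scale hρ hρ1 g n₀ a i c
    calc (i : ℝ) * ∑ ω ∈ L.A with L.st a ω ∧ i ≤ #(L.gb ρ g n₀ a ω) ∧ L.sp a ω ≤ c * i, L.p ω
        ≤ i * (2 * Real.exp (c * i) * ρ ^ i * ∑ ω ∈ L.A with L.st a ω, L.p ω) :=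
          mul_le_mul_of_nonneg_left h5 (Nat.cast_nonneg i)
      _ = 2 * i * (Real.exp c * ρ) ^ i * ∑ ω ∈ L.A with L.st a ω, L.p ω := by
          rw [mul_pow, ← Real.exp_nat_mul, mul_comm (i : ℝ) c]
          ring
  refine (sum_le_sum fun a _ => h4 a).trans (le_of_eq ?_)
  rw [← mul_sum]
  congr 1
  have h6 : ∀ a, ∑ ω ∈ L.A with L.st a ω, L.p ω =
      ∑ ω ∈ L.A, if L.st a ω then L.p ω else 0 := fun a => sum_filter _ _
  rw [sum_congr rfl fun a _ => h6 a, sum_comm]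
  refine sum_congr rfl fun ω _ => ?_
  unfold starts
  rw [← sum_filter, sum_const, nsmul_eq_mul, mul_comm]

end Lin

/-- the constant of the cover lemma is small for large `A₀` -/
lemma exists_zeta {r : ℝ} (hr : 0 ≤ r) (hr1 : r < 1) {ε : ℝ} (hε : 0 < ε) :
    ∃ A₀ : ℕ, ∀ n₀ : ℕ, ∑ i ∈ Icc A₀ n₀, 2 * (i : ℝ) * r ^ i ≤ ε := by
  have h1 : Summable fun i : ℕ => 2 * (i : ℝ) * r ^ i := by
    have h2 := summable_pow_mul_geometric_of_norm_lt_one (R := ℝ) 1 (r := r)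
      (by rwa [Real.norm_of_nonneg hr])
    refine (h2.mul_left 2).congr fun i => ?_
    rw [pow_one]
    ring
  have h3 := tendsto_sum_nat_add fun i : ℕ => 2 * (i : ℝ) * r ^ i
  obtain ⟨A₀, h4⟩ := Filter.eventually_atTop.1 (h3.eventually_lt_const hε)
  refine ⟨A₀, fun n₀ => ?_⟩
  have h5 := h4 A₀ le_rfl
  have h6 : Summable fun i : ℕ => 2 * ((i + A₀ : ℕ) : ℝ) * r ^ (i + A₀) :=
    (summable_nat_add_iff A₀).2 h1
  have h7 : ∑ i ∈ Icc A₀ n₀, 2 * (i : ℝ) * r ^ i =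
      ∑ i ∈ range (n₀ + 1 - A₀), 2 * ((i + A₀ : ℕ) : ℝ) * r ^ (i + A₀) := by
    have h8 : Icc A₀ n₀ = Ico A₀ (n₀ + 1) := by
      ext i
      rw [mem_Icc, mem_Ico]
      omega
    rw [h8, sum_Ico_eq_sum_range]
    exact sum_congr rfl fun i _ => by rw [add_comm A₀ i]
  rw [h7]
  refine (h6.sum_le_tsum _ fun i _ => by positivity).trans h5.le

end Vale.Agent.P065.H268
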