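import Vale.Agent.P065.H154.Cut
import Vale.Agent.P065.H268.TimeShift

/-!
# P065: the near-cut content, averaged over the time shifts (helper268)

On top of helper154's pointwise estimate `sup_le`.
-/

set_option autoImplicit false

open Finset Real

noncomputable section

namespace Vale.Agent.P065.H268

open Vale.Agent.P065.Ent Vale.Agent.P065.H154

/-- telescoping sum with a gap -/
lemma sum_gap (b : ℕ → ℝ) (hb : ∀ u, b (u + 1) ≤ b u) {c : ℝ} (hc : ∀ u, c ≤ b u) (g T : ℕ) :
    ∑ t ∈ range T, (-b (t + g) + b t) ≤ g * (b 0 - c) := by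
  induction g with
  | zero => simp
  | succ g ih =>
    have hanti : ∀ m n : ℕ, m ≤ n → b n ≤ b m := by
      intro m n h
      induction n, h using Nat.le_induction with
      | base => exact le_rfl
      | succ n _ ih => exact (hb n).trans ih
    have e : ∀ t, (-b (t + (g + 1)) + b t) = (-b (t + g) + b t) + (b (t + g) - b (t + g + 1)) := by
      intro t
      have : t + (g + 1) = t + g + 1 := by ring
      rw [this]
      ring
    rw [sum_congr rfl fun t _ => e t, sum_add_distrib]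
    have h2 : ∑ t ∈ range T, (b (t + g) - b (t + g + 1)) = b g - b (T + g) := by
      induction T with
      | zero => simp
      | succ T ih2 =>
        rw [sum_range_succ]
        have h3 : ∑ x ∈ range T, (b (x + g) - b (x + g + 1)) = b g - b (T + g) := by
          clear ih ih2 e
          induction T with
          | zero => simp
          | succ T ih3 => rw [sum_range_succ, ih3, show T + 1 + g = T + g + 1 by ring]; ring
        rw [h3, show T + 1 + g = T + g + 1 by ring]
        ring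
    rw [h2]
    push_cast
    have h4 := hanti 0 g (Nat.zero_le g)
    have h5 := hc (T + g)
    linarith

lemma two_pow_sub {M i : ℕ} (h : i ≤ M) : (2 : ℝ) ^ (M - i) = 2 ^ M / 2 ^ i := by
  rw [eq_div_iff (by positivity), ← pow_add, Nat.sub_add_cancel h]

lemma card_near_le (x : ℝ) {M g t : ℕ} (h : t + g ≤ M) :
    (#{m ∈ range (2 ^ M) | near M m g t x} : ℝ) ≤ 2 ^ M * (2 / 2 ^ g) := by
  have h1 := card_near x h
  have h2 : (#{m ∈ range (2 ^ M) | near M m g t x} : ℝ) ≤ 2 * 2 ^ (M - g) := by exact_mod_cast h1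
  rw [two_pow_sub (by omega)] at h2
  refine h2.trans (le_of_eq ?_)
  ring

lemma sum_near (x : ℝ) {M g t : ℕ} (h : t + g ≤ M) {c : ℝ} (hc : 0 ≤ c) :
    ∑ m ∈ range (2 ^ M), (if near M m g t x then c else 0) ≤ 2 ^ M * (2 / 2 ^ g) * c := by
  rw [← sum_filter, sum_const, nsmul_eq_mul]
  exact mul_le_mul_of_nonneg_right (card_near_le x h) hc

variable {Ω : Type*} [Fintype Ω] {α γ : Type*} {β : ℕ → Type*} {μ : Ω → ℝ} {x : Ω → ℝ}
  {N : ∀ t, Ω → β t} {ρ : Ω → α} {c : Ω → γ}

lemma geom_tail (g K : ℕ) : ∑ i ∈ Ico g (g + K), (1 : ℝ) / 2 ^ i ≤ 2 / 2 ^ g := by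
  have h : ∀ K : ℕ, ∑ i ∈ Ico g (g + K), (1 : ℝ) / 2 ^ i = 2 / 2 ^ g - 2 / 2 ^ (g + K) := by
    intro K
    induction K with
    | zero => simp
    | succ K ih =>
      rw [← add_assoc, sum_Ico_succ_top (by omega), ih, pow_succ]
      field_simp
      ring
  rw [h]
  have : (0 : ℝ) ≤ 2 / 2 ^ (g + K) := by positivity
  linarith

/-- **the near-cut content of one flag**, averaged over the shifts -/
theorem near_content_one (hμ : IsProb μ) (hN : ∀ t, Det (N (t + 1)) (N t)) (hx : Det ρ x)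
    (hρ : ∀ t, Det ρ (N t)) (hc : Det (N 0) c) {M g T K : ℕ} (hg : 2 ≤ g)
    (hM : T + (g + 1 + K) ≤ M) {ω : Ω} (hω : 0 < μ ω) :
    ∑ m ∈ range (2 ^ M), ∑ t ∈ range T, (if near M m g t (x ω) then sup M m μ x N t ω else 0) ≤
      2 ^ M * (2 / 2 ^ g * (g + 2) * (-log (Pr μ ρ (ρ ω)) + log (Pr μ c (c ω))) +
        T / 2 ^ (g + K) * (-log (Pr μ ρ (ρ ω)))) := by
  classical
  set b : ℕ → ℝ := fun u => log (ball μ x N u ω) with hb
  set L : ℝ := -log (Pr μ ρ (ρ ω)) with hL
  have hr : 0 < Pr μ ρ (ρ ω) := Pr_pos hμ ρ hω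
  have hbp : ∀ u, 0 < ball μ x N u ω := fun u => hr.trans_le (le_ball hμ hx hρ u ω)
  have hanti : ∀ u v, u ≤ v → b v ≤ b u := fun u v h =>
    Real.log_le_log (hbp v) (ball_anti (x := x) hμ hN h ω)
  have hlow : ∀ u, -L ≤ b u := by
    intro u
    rw [hL, neg_neg]
    exact Real.log_le_log hr (le_ball hμ hx hρ u ω)
  have hL0 : 0 ≤ L := by
    have := Real.log_nonpos hr.le (Pr_le_one hμ ρ (ρ ω))
    linarith
  have hball0 : ball μ x N 0 ω ≤ Pr μ c (c ω) := by
    unfold ball Pr
    refine sum_le_sum fun ω' _ => ?_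
    split_ifs with h1 h2 h2
    · exact le_rfl
    · exact absurd (hc _ _ h1.2) h2
    · exact hμ.nonneg _
    · exact le_rfl
  have hb0 : b 0 + L ≤ L + log (Pr μ c (c ω)) := by
    have := Real.log_le_log (hbp 0) hball0
    linarith
  set Λ : ℝ := b 0 + L with hΛ
  have hΛ0 : 0 ≤ Λ := by
    have := hlow 0
    linarith
  -- the pointwise bound
  have h1 : ∀ m, ∀ t, (if near M m g t (x ω) then sup M m μ x N t ω else 0) ≤
      (if near M m g t (x ω) then (-b (t + (g + 1)) + b t) else 0) +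
      ∑ i ∈ Ico (g + 1) (g + 1 + K), (if near M m i t (x ω) then
        (-b (t + (i + 1)) + b (t + i)) else 0) +
      (if near M m (g + 1 + K) t (x ω) then L else 0) := by
    intro m t
    have hd : ∀ u v, u ≤ v → 0 ≤ -b v + b u := fun u v h => by
      have := hanti u v h
      linarith
    by_cases h : near M m g t (x ω)
    · rw [if_pos h, if_pos h]
      exact sup_le hμ hN hx hρ hg hω h
    · rw [if_neg h, if_neg h]
      have h2 : 0 ≤ ∑ i ∈ Ico (g + 1) (g + 1 + K), (if near M m i t (x ω) then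
          (-b (t + (i + 1)) + b (t + i)) else 0) := by
        refine sum_nonneg fun i _ => ?_
        split_ifs
        · exact hd _ _ (by omega)
        · exact le_rfl
      have h3 : 0 ≤ (if near M m (g + 1 + K) t (x ω) then L else 0) := by
        split_ifs
        · exact hL0
        · exact le_rfl
      linarith
  refine (sum_le_sum fun m _ => sum_le_sum fun t _ => h1 m t).trans ?_
  rw [sum_comm]
  have h2 : ∀ t ∈ range T, ∑ m ∈ range (2 ^ M), ((if near M m g t (x ω) then
      (-b (t + (g + 1)) + b t) else 0) +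
      ∑ i ∈ Ico (g + 1) (g + 1 + K), (if near M m i t (x ω) then
        (-b (t + (i + 1)) + b (t + i)) else 0) +
      (if near M m (g + 1 + K) t (x ω) then L else 0)) ≤
      2 ^ M * (2 / 2 ^ g) * (-b (t + (g + 1)) + b t) +
      ∑ i ∈ Ico (g + 1) (g + 1 + K), 2 ^ M * (2 / 2 ^ i) * (-b (t + (i + 1)) + b (t + i)) +
      2 ^ M * (2 / 2 ^ (g + 1 + K)) * L := by
    intro t ht
    have ht' := mem_range.1 ht
    rw [sum_add_distrib, sum_add_distrib]
    refine add_le_add (add_le_add ?_ ?_) ?_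
    · exact sum_near (x ω) (by omega) (by have := hanti t (t + (g + 1)) (by omega); linarith)
    · rw [sum_comm]
      refine sum_le_sum fun i hi => ?_
      have hi' := mem_Ico.1 hi
      exact sum_near (x ω) (by omega)
        (by have := hanti (t + i) (t + (i + 1)) (by omega); linarith)
    · exact sum_near (x ω) (by omega) hL0
  refine (sum_le_sum h2).trans ?_
  rw [sum_add_distrib, sum_add_distrib]
  have s1 : ∑ t ∈ range T, 2 ^ M * (2 / 2 ^ g) * (-b (t + (g + 1)) + b t) ≤
      2 ^ M * (2 / 2 ^ g) * ((g + 1 : ℕ) * Λ) := by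
    rw [← mul_sum]
    refine mul_le_mul_of_nonneg_left ?_ (by positivity)
    have := sum_gap b (fun u => hanti _ _ (Nat.le_succ u)) hlow (g + 1) T
    rw [hΛ]
    linarith
  have s2 : ∑ t ∈ range T, ∑ i ∈ Ico (g + 1) (g + 1 + K),
      2 ^ M * (2 / 2 ^ i) * (-b (t + (i + 1)) + b (t + i)) ≤ 2 ^ M * (2 / 2 ^ g) * Λ := by
    rw [sum_comm]
    calc ∑ i ∈ Ico (g + 1) (g + 1 + K), ∑ t ∈ range T,
          2 ^ M * (2 / 2 ^ i) * (-b (t + (i + 1)) + b (t + i))
        ≤ ∑ i ∈ Ico (g + 1) (g + 1 + K), 2 ^ M * (2 / 2 ^ i) * Λ := by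
          refine sum_le_sum fun i _ => ?_
          rw [← mul_sum]
          refine mul_le_mul_of_nonneg_left ?_ (by positivity)
          have h3 := sum_gap (fun u => b (u + i)) (fun u => hanti _ _ (by omega))
            (fun u => hlow (u + i)) 1 T
          have h4 : ∑ t ∈ range T, (-b (t + (i + 1)) + b (t + i)) =
              ∑ t ∈ range T, (-b (t + 1 + i) + b (t + i)) :=
            sum_congr rfl fun t _ => by rw [show t + (i + 1) = t + 1 + i by ring]
          rw [h4]
          refine h3.trans ?_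
          have h5 := hanti 0 (0 + i) (by omega)
          rw [hΛ]
          push_cast
          linarith
      _ = 2 ^ M * 2 * Λ * ∑ i ∈ Ico (g + 1) (g + 1 + K), (1 : ℝ) / 2 ^ i := by
          rw [mul_sum]
          refine sum_congr rfl fun i _ => ?_
          ring
      _ ≤ 2 ^ M * 2 * Λ * (2 / 2 ^ (g + 1)) :=
          mul_le_mul_of_nonneg_left (geom_tail (g + 1) K) (by positivity)
      _ = 2 ^ M * (2 / 2 ^ g) * Λ := by
          rw [pow_succ]
          field_simp
  have s3 : ∑ t ∈ range T, 2 ^ M * (2 / 2 ^ (g + 1 + K)) * L = 2 ^ M * (T / 2 ^ (g + K)) * L := by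
    rw [sum_const, card_range, nsmul_eq_mul, show g + 1 + K = g + K + 1 by ring, pow_succ]
    field_simp
  rw [s3]
  have s4 : 2 ^ M * (2 / 2 ^ g) * ((g + 1 : ℕ) * Λ) + 2 ^ M * (2 / 2 ^ g) * Λ =
      2 ^ M * (2 / 2 ^ g * (g + 2) * Λ) := by
    push_cast
    ring
  have s5 : 2 ^ M * (2 / 2 ^ g * (g + 2) * Λ) ≤
      2 ^ M * (2 / 2 ^ g * (g + 2) * (L + log (Pr μ c (c ω)))) := by
    refine mul_le_mul_of_nonneg_left (mul_le_mul_of_nonneg_left hb0 (by positivity))
      (by positivity)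
  linarith

/-- **the near-cut content**, averaged over the shifts -/
theorem near_content (hμ : IsProb μ) (hN : ∀ t, Det (N (t + 1)) (N t)) (hx : Det ρ x)
    (hρ : ∀ t, Det ρ (N t)) (hc : Det (N 0) c) {M g T K : ℕ} (hg : 2 ≤ g)
    (hM : T + (g + 1 + K) ≤ M) :
    ∑ m ∈ range (2 ^ M), ∑ ω, μ ω * ∑ t ∈ range T,
      (if near M m g t (x ω) then sup M m μ x N t ω else 0) ≤
      2 ^ M * (2 / 2 ^ g * (g + 2) * Hc μ ρ c + T / 2 ^ (g + K) * H μ ρ) := by
  rw [sum_comm]
  have h1 : ∀ ω, ∑ m ∈ range (2 ^ M), μ ω * ∑ t ∈ range T,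
      (if near M m g t (x ω) then sup M m μ x N t ω else 0) ≤
      μ ω * (2 ^ M * (2 / 2 ^ g * (g + 2) * (-log (Pr μ ρ (ρ ω)) + log (Pr μ c (c ω))) +
        T / 2 ^ (g + K) * (-log (Pr μ ρ (ρ ω))))) := by
    intro ω
    rw [← mul_sum]
    rcases (hμ.nonneg ω).eq_or_lt with h0 | h0
    · rw [← h0, zero_mul, zero_mul]
    · exact mul_le_mul_of_nonneg_left (near_content_one hμ hN hx hρ hc hg hM h0) h0.le
  refine (sum_le_sum fun ω _ => h1 ω).trans (le_of_eq ?_)
  have hHc : Hc μ ρ c = H μ ρ - H μ c := by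
    refine Hc_eq (Det.refl _) ((hρ 0).trans hc) (det_fst _ _)
  rw [hHc]
  unfold H
  rw [← sum_sub_distrib, mul_sum, mul_sum, ← sum_add_distrib, mul_sum]
  refine sum_congr rfl fun ω _ => ?_
  ring

end Vale.Agent.P065.H268
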