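import Vale.Agent.P065.H268.TimeNear

/-!
# P065: near the midpoint or near the ends of a dyadic cell (helper268)

The near-cut content for any family of `near` conditions with the two properties used in
helper154's `Cut`: the shifts for which a point is near are few, and the scales at which it is near
but the next scale is not.
-/

set_option autoImplicit false

open Finset Real

noncomputable section

namespace Vale.Agent.P065.H268

open Vale.Agent.P065.Ent Vale.Agent.P065.H154

/-- the two properties of a family of `near` conditions -/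
structure NearFam (nr : ℕ → ℕ → ℕ → ℕ → ℝ → Prop) : Prop where
  card : ∀ (x : ℝ) {M g t : ℕ}, t + g ≤ M →
    ∃ S : Finset ℕ, (∀ m < 2 ^ M, nr M m g t x → m ∈ S) ∧ #S ≤ 2 * 2 ^ (M - g)
  same : ∀ {M m g t n : ℕ}, 2 ≤ g → g < n → ∀ {x x' : ℝ}, nr M m g t x → ¬ nr M m n t x →
    |x' - x| < 1 / 2 ^ (t + n) → cell M m (t + 1) x' = cell M m (t + 1) x

theorem nearFam_near : NearFam near where
  card x {_ _ _} h := ⟨_, fun _ hm hn => mem_filter.2 ⟨mem_range.2 hm, hn⟩, card_near x h⟩
  same hg hn _ _ h1 h2 h3 := same_half hg hn h1 h2 h3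

/-- the point is close to an end of its cell of scale `t` -/
def nearE (M m g t : ℕ) (x : ℝ) : Prop :=
  cell M m (t + g) x % 2 ^ g = 0 ∨ cell M m (t + g) x % 2 ^ g = 2 ^ g - 1

instance (M m g t : ℕ) (x : ℝ) : Decidable (nearE M m g t x) := by
  unfold nearE; infer_instance

theorem nearFam_nearE : NearFam nearE where
  card x {M g t} h := by
    refine ⟨{m ∈ range (2 ^ M) | cell M m (t + g) x % 2 ^ g = 0} ∪
      {m ∈ range (2 ^ M) | cell M m (t + g) x % 2 ^ g = 2 ^ g - 1}, ?_, ?_⟩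
    · intro m hm hn
      rw [mem_union, mem_filter, mem_filter]
      rcases hn with hn | hn
      · exact Or.inl ⟨mem_range.2 hm, hn⟩
      · exact Or.inr ⟨mem_range.2 hm, hn⟩
    · refine (card_union_le _ _).trans ?_
      have h2 := card_cell_mod x (n := g) (u := t + g) (by omega) h 0
      have h3 := card_cell_mod x (n := g) (u := t + g) (by omega) h (2 ^ g - 1)
      omega
  same := by
    intro M m g t n hg hn x x' h1 h2 h3
    set c := cell M m (t + n) x with hc
    set c' := cell M m (t + n) x' with hc'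
    have h4 : c' ≤ c + 1 ∧ c ≤ c' + 1 := by
      rw [abs_lt] at h3
      have hp : (0 : ℝ) < 2 ^ (t + n) := by positivity
      have e1 : (2 : ℝ) ^ (t + n) * (x' - x) < 1 := by
        calc (2 : ℝ) ^ (t + n) * (x' - x) < 2 ^ (t + n) * (1 / 2 ^ (t + n)) :=
              mul_lt_mul_of_pos_left h3.2 hp
          _ = 1 := by field_simp
      have e2 : (2 : ℝ) ^ (t + n) * (x - x') < 1 := by
        calc (2 : ℝ) ^ (t + n) * (x - x') < 2 ^ (t + n) * (1 / 2 ^ (t + n)) :=
              mul_lt_mul_of_pos_left (by linarith [h3.1]) hp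
          _ = 1 := by field_simp
      constructor
      · rw [hc, hc']
        unfold cell
        rw [← Int.floor_add_one]
        apply Int.floor_mono
        linarith
      · rw [hc, hc']
        unfold cell
        rw [← Int.floor_add_one]
        apply Int.floor_mono
        linarith
    obtain ⟨k, rfl⟩ : ∃ k, n = g + k := ⟨n - g, by omega⟩
    have hk : 1 ≤ k := by omega
    obtain ⟨g', rfl⟩ : ∃ g', g = g' + 2 := ⟨g - 2, by omega⟩
    have e1 : cell M m (t + 1) x = c / 2 ^ (g' + k + 1) := by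
      rw [hc, cell_div M m (t + 1) (g' + k + 1)]
      congr 2
      omega
    have e2 : cell M m (t + 1) x' = c' / 2 ^ (g' + k + 1) := by
      rw [hc', cell_div M m (t + 1) (g' + k + 1)]
      congr 2
      omega
    have e3 : cell M m (t + (g' + 2)) x = c / 2 ^ k := by
      rw [hc, cell_div M m (t + (g' + 2)) k]
      congr 2
      omega
    rw [e1, e2]
    set A : ℤ := 2 ^ g' with hA
    set B : ℤ := 2 ^ k with hB
    have hA1 : 1 ≤ A := one_le_pow₀ (by norm_num)
    have hB2 : 2 ≤ B := by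
      calc (2 : ℤ) = 2 ^ 1 := (pow_one 2).symm
        _ ≤ 2 ^ k := pow_le_pow_right₀ (by norm_num) hk
    have p1 : (2 : ℤ) ^ (g' + k + 1) = 2 * (A * B) := by rw [hA, hB]; ring
    have p2 : (2 : ℤ) ^ (g' + 2) = 4 * A := by rw [hA]; ring
    have p4 : (2 : ℤ) ^ (g' + 2 + k) = 4 * (A * B) := by rw [hA, hB]; ring
    unfold nearE at h1 h2
    rw [← hc, p4] at h2
    rw [e3, p2] at h1
    rw [p1]
    have hAB : B ≤ A * B := by nlinarith
    obtain ⟨q, r, hr0, hr1, hcr⟩ : ∃ q r : ℤ, 0 ≤ r ∧ r < 4 * (A * B) ∧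
        c = 4 * (A * B) * q + r :=
      ⟨c / (4 * (A * B)), c % (4 * (A * B)), Int.emod_nonneg _ (by positivity),
        Int.emod_lt_of_pos _ (by positivity), (Int.mul_ediv_add_emod _ _).symm⟩
    have hr : c % (4 * (A * B)) = r := by
      rw [hcr, Int.add_comm, Int.add_mul_emod_self_left, Int.emod_eq_of_lt hr0 hr1]
    rw [hr] at h2
    have h5 : c / B = 4 * A * q + r / B := by
      rw [hcr, show 4 * (A * B) * q + r = r + B * (4 * A * q) by ring,
        Int.add_mul_ediv_left _ _ (by positivity)]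
      ring
    have h6 : (c / B) % (4 * A) = r / B := by
      rw [h5, Int.add_comm, Int.add_mul_emod_self_left]
      apply Int.emod_eq_of_lt
      · exact Int.ediv_nonneg hr0 (by positivity)
      · rw [Int.ediv_lt_iff_lt_mul (by positivity)]
        linarith
    rw [h6] at h1
    have h7 : r < B ∨ 4 * (A * B) - B ≤ r := by
      have b1 := Int.mul_ediv_add_emod r B
      have b2 : 0 ≤ r % B := Int.emod_nonneg _ (by positivity)
      have b3 : r % B < B := Int.emod_lt_of_pos _ (by positivity)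
      rcases h1 with h1 | h1
      · rw [h1] at b1
        left
        linarith
      · rw [h1] at b1
        right
        nlinarith
    have h8 : ∀ z : ℤ, 0 ≤ z → z < 2 * (A * B) → (4 * (A * B) * q + z) / (2 * (A * B)) = 2 * q := by
      intro z hz0 hz1
      rw [show 4 * (A * B) * q + z = z + (2 * (A * B)) * (2 * q) by ring,
        Int.add_mul_ediv_left _ _ (by positivity), Int.ediv_eq_zero_of_lt hz0 hz1, zero_add]
    have h9 : ∀ z : ℤ, 2 * (A * B) ≤ z → z < 4 * (A * B) →
        (4 * (A * B) * q + z) / (2 * (A * B)) = 2 * q + 1 := by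
      intro z hz0 hz1
      rw [show 4 * (A * B) * q + z = (z - 2 * (A * B)) + (2 * (A * B)) * (2 * q + 1) by ring,
        Int.add_mul_ediv_left _ _ (by positivity), Int.ediv_eq_zero_of_lt (by linarith)
          (by linarith), zero_add]
    have h10 : c' = 4 * (A * B) * q + (r + (c' - c)) := by rw [hcr]; ring
    push Not at h2
    obtain ⟨h21, h22⟩ := h2
    rcases h7 with h7 | h7
    · rw [hcr, h8 r hr0 (by linarith), h10, h8]
      · omega
      · linarith
    · rw [hcr, h9 r (by linarith) hr1, h10, h9]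
      · linarith
      · omega

section main

variable {nr : ℕ → ℕ → ℕ → ℕ → ℝ → Prop}

open Classical in
lemma sum_nr (hnr : NearFam nr) (x : ℝ) {M g t : ℕ} (h : t + g ≤ M) {c : ℝ} (hc : 0 ≤ c) :
    ∑ m ∈ range (2 ^ M), (if nr M m g t x then c else 0) ≤ 2 ^ M * (2 / 2 ^ g) * c := by
  rw [← sum_filter, sum_const, nsmul_eq_mul]
  refine mul_le_mul_of_nonneg_right ?_ hc
  obtain ⟨S, hS, hS'⟩ := hnr.card x h
  have h1 : #{m ∈ range (2 ^ M) | nr M m g t x} ≤ #S := card_le_card fun m hm => by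
    obtain ⟨h2, h3⟩ := mem_filter.1 hm
    exact hS m (mem_range.1 h2) h3
  have h2 : (#{m ∈ range (2 ^ M) | nr M m g t x} : ℝ) ≤ 2 * 2 ^ (M - g) := by
    exact_mod_cast h1.trans hS'
  rw [two_pow_sub (by omega)] at h2
  refine h2.trans (le_of_eq ?_)
  ring

variable {Ω : Type*} [Fintype Ω] {α γ : Type*} {β : ℕ → Type*} {μ : Ω → ℝ} {x : Ω → ℝ}
  {N : ∀ t, Ω → β t} {ρ : Ω → α} {c : Ω → γ}

lemma ball_le_Pr' (hnr : NearFam nr) (hμ : IsProb μ) (hN : ∀ t, Det (N (t + 1)) (N t))
    {M m g t n : ℕ} (hg : 2 ≤ g)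
    (hn : g < n) {ω : Ω} (h1 : nr M m g t (x ω)) (h2 : ¬ nr M m n t (x ω)) :
    ball μ x N (t + n) ω ≤
      Pr μ (fun ω => (cell M m (t + 1) (x ω), N t ω)) (cell M m (t + 1) (x ω), N t ω) := by
  unfold ball Pr
  refine sum_le_sum fun ω' _ => ?_
  split_ifs with h3 h4 h4
  · exact le_rfl
  · exfalso
    refine h4 ?_
    show (cell M m (t + 1) (x ω'), N t ω') = (cell M m (t + 1) (x ω), N t ω)
    rw [hnr.same hg hn h1 h2 h3.1, det_le hN (Nat.le_add_right t n) _ _ h3.2]
  · exact hμ.nonneg _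
  · exact le_rfl

open Classical in
/-- the surprise in one cell -/
lemma sup_le' (hnr : NearFam nr) (hμ : IsProb μ) (hN : ∀ t, Det (N (t + 1)) (N t)) (hx : Det ρ x)
    (hρ : ∀ t, Det ρ (N t)) {M m g t K : ℕ} (hg : 2 ≤ g) {ω : Ω} (hω : 0 < μ ω)
    (h1 : nr M m g t (x ω)) :
    sup M m μ x N t ω ≤ (-log (ball μ x N (t + (g + 1)) ω) + log (ball μ x N t ω)) +
      ∑ i ∈ Ico (g + 1) (g + 1 + K), (if nr M m i t (x ω) then
        (-log (ball μ x N (t + (i + 1)) ω) + log (ball μ x N (t + i) ω)) else 0) +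
      (if nr M m (g + 1 + K) t (x ω) then -log (Pr μ ρ (ρ ω)) else 0) := by
  have hr : 0 < Pr μ ρ (ρ ω) := Pr_pos hμ ρ hω
  have hb : ∀ u, 0 < ball μ x N u ω := fun u => hr.trans_le (le_ball hμ hx hρ u ω)
  have hd : ∀ u v, u ≤ v → 0 ≤ -log (ball μ x N v ω) + log (ball μ x N u ω) := by
    intro u v huv
    have := Real.log_le_log (hb v) (ball_anti (x := x) hμ hN huv ω)
    linarith
  have hr1 : Pr μ ρ (ρ ω) ≤ 1 := Pr_le_one hμ ρ _
  have hr2 : 0 ≤ -log (Pr μ ρ (ρ ω)) := by
    have := Real.log_nonpos hr.le hr1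
    linarith
  have hc1 : log (Pr μ (fun ω => (cell M m t (x ω), N t ω)) (cell M m t (x ω), N t ω)) ≤
      log (ball μ x N t ω) :=
    Real.log_le_log (hr.trans_le (rho_le_Pr hμ hx hρ M m t t ω)) (Pr_cell_le hμ M m t ω)
  have hlast : 0 ≤ (if nr M m (g + 1 + K) t (x ω) then -log (Pr μ ρ (ρ ω)) else 0) := by
    split_ifs
    · exact hr2
    · exact le_rfl
  have hterm : ∀ i, 0 ≤ (if nr M m i t (x ω) then
      (-log (ball μ x N (t + (i + 1)) ω) + log (ball μ x N (t + i) ω)) else 0) := by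
    intro i
    split_ifs
    · exact hd _ _ (by omega)
    · exact le_rfl
  by_cases hall : ∀ i ∈ Icc (g + 1) (g + 1 + K), nr M m i t (x ω)
  · have h2 : ∀ k ≤ K, ∑ i ∈ Ico (g + 1) (g + 1 + k), (if nr M m i t (x ω) then
        (-log (ball μ x N (t + (i + 1)) ω) + log (ball μ x N (t + i) ω)) else 0) =
        -log (ball μ x N (t + (g + 1 + k)) ω) + log (ball μ x N (t + (g + 1)) ω) := by
      intro k hk
      induction k with
      | zero => simp
      | succ k ih =>
        rw [← add_assoc, sum_Ico_succ_top (by omega), ih (by omega),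
          if_pos (hall _ (mem_Icc.2 ⟨by omega, by omega⟩))]
        ring
    rw [h2 K le_rfl, if_pos (hall _ (mem_Icc.2 ⟨by omega, le_rfl⟩))]
    have h3 : log (Pr μ ρ (ρ ω)) ≤
        log (Pr μ (fun ω => (cell M m (t + 1) (x ω), N t ω)) (cell M m (t + 1) (x ω), N t ω)) :=
      Real.log_le_log hr (rho_le_Pr hμ hx hρ M m t (t + 1) ω)
    have h5 : log (ball μ x N (t + (g + 1 + K)) ω) ≤ 0 := by
      apply Real.log_nonpos (hb _).le
      unfold ball
      calc _ ≤ ∑ ω', μ ω' := sum_le_sum fun ω' _ => by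
            split_ifs
            · exact le_rfl
            · exact hμ.nonneg _
        _ = 1 := hμ.sum
    unfold H154.sup
    linarith
  · push Not at hall
    obtain ⟨i₀, hi₀, hi₁⟩ := hall
    have hex : ∃ i, g + 1 ≤ i ∧ ¬ nr M m i t (x ω) := ⟨i₀, (mem_Icc.1 hi₀).1, hi₁⟩
    set n := Nat.find hex with hn
    obtain ⟨hn1, hn2⟩ := Nat.find_spec hex
    rw [← hn] at hn1 hn2
    have hn3 : n ≤ g + 1 + K :=
      (Nat.find_min' hex ⟨(mem_Icc.1 hi₀).1, hi₁⟩).trans (mem_Icc.1 hi₀).2
    have hn4 : ∀ i, g + 1 ≤ i → i < n → nr M m i t (x ω) := by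
      intro i h3 h4
      by_contra h5
      exact Nat.find_min hex h4 ⟨h3, h5⟩
    have h2 : ∀ k, g + 1 + k ≤ n → ∑ i ∈ Ico (g + 1) (g + 1 + k), (if nr M m i t (x ω) then
        (-log (ball μ x N (t + (i + 1)) ω) + log (ball μ x N (t + i) ω)) else 0) =
        -log (ball μ x N (t + (g + 1 + k)) ω) + log (ball μ x N (t + (g + 1)) ω) := by
      intro k hk
      induction k with
      | zero => simp
      | succ k ih =>
        rw [← add_assoc, sum_Ico_succ_top (by omega), ih (by omega),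
          if_pos (hn4 _ (by omega) (by omega))]
        ring
    have h3 := h2 (n - (g + 1)) (by omega)
    rw [Nat.add_sub_cancel' hn1] at h3
    have h4 : ∑ i ∈ Ico (g + 1) n, (if nr M m i t (x ω) then
        (-log (ball μ x N (t + (i + 1)) ω) + log (ball μ x N (t + i) ω)) else 0) ≤
        ∑ i ∈ Ico (g + 1) (g + 1 + K), (if nr M m i t (x ω) then
        (-log (ball μ x N (t + (i + 1)) ω) + log (ball μ x N (t + i) ω)) else 0) :=
      sum_le_sum_of_subset_of_nonneg (Ico_subset_Ico_right hn3) fun i _ _ => hterm i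
    have h5 : log (ball μ x N (t + n) ω) ≤
        log (Pr μ (fun ω => (cell M m (t + 1) (x ω), N t ω)) (cell M m (t + 1) (x ω), N t ω)) :=
      Real.log_le_log (hb _) (ball_le_Pr' hnr hμ hN hg (by omega) h1 hn2)
    unfold H154.sup
    linarith

open Classical in
/-- **the near content of one flag**, averaged over the shifts -/
theorem nr_content_one (hnr : NearFam nr) (hμ : IsProb μ) (hN : ∀ t, Det (N (t + 1)) (N t))
    (hx : Det ρ x) (hρ : ∀ t, Det ρ (N t)) (hc : Det (N 0) c) {M g T K : ℕ} (hg : 2 ≤ g)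
    (hM : T + (g + 1 + K) ≤ M) {ω : Ω} (hω : 0 < μ ω) :
    ∑ m ∈ range (2 ^ M), ∑ t ∈ range T, (if nr M m g t (x ω) then sup M m μ x N t ω else 0) ≤
      2 ^ M * (2 / 2 ^ g * (g + 2) * (-log (Pr μ ρ (ρ ω)) + log (Pr μ c (c ω))) +
        T / 2 ^ (g + K) * (-log (Pr μ ρ (ρ ω)))) := by
  set b : ℕ → ℝ := fun u => log (ball μ x N u ω) with hb
  set L : ℝ := -log (Pr μ ρ (ρ ω)) with hL
  have hr : 0 < Pr μ ρ (ρ ω) := Pr_pos hμ ρ hω
  have hbp : ∀ u, 0 < ball μ x N u ω := fun u => hr.trans_le (le_ball hμ hx hρ u ω)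
  have hanti : ∀ u v, u ≤ v → b v ≤ b u := fun u v h =>
    Real.log_le_log (hbp v) (ball_anti (x := x) hμ hN h ω)
  have hlow : ∀ u, -L ≤ b u := by
    intro u
    rw [hL, neg_neg]
    exact Real.log_le_log hr (le_ball hμ hx hρ u ω)
  have hL0 : 0 ≤ L := by
    have := Real.log_nonpos hr.le (Pr_le_one hμ ρ (ρ ω))
    linarith
  have hball0 : ball μ x N 0 ω ≤ Pr μ c (c ω) := by
    unfold ball Pr
    refine sum_le_sum fun ω' _ => ?_
    split_ifs with h1 h2 h2
    · exact le_rfl
    · exact absurd (hc _ _ h1.2) h2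
    · exact hμ.nonneg _
    · exact le_rfl
  have hb0 : b 0 + L ≤ L + log (Pr μ c (c ω)) := by
    have := Real.log_le_log (hbp 0) hball0
    linarith
  set Λ : ℝ := b 0 + L with hΛ
  have hΛ0 : 0 ≤ Λ := by
    have := hlow 0
    linarith
  have h1 : ∀ m, ∀ t, (if nr M m g t (x ω) then sup M m μ x N t ω else 0) ≤
      (if nr M m g t (x ω) then (-b (t + (g + 1)) + b t) else 0) +
      ∑ i ∈ Ico (g + 1) (g + 1 + K), (if nr M m i t (x ω) then
        (-b (t + (i + 1)) + b (t + i)) else 0) +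
      (if nr M m (g + 1 + K) t (x ω) then L else 0) := by
    intro m t
    have hd : ∀ u v, u ≤ v → 0 ≤ -b v + b u := fun u v h => by
      have := hanti u v h
      linarith
    by_cases h : nr M m g t (x ω)
    · rw [if_pos h, if_pos h]
      exact sup_le' hnr hμ hN hx hρ hg hω h
    · rw [if_neg h, if_neg h]
      have h2 : 0 ≤ ∑ i ∈ Ico (g + 1) (g + 1 + K), (if nr M m i t (x ω) then
          (-b (t + (i + 1)) + b (t + i)) else 0) := by
        refine sum_nonneg fun i _ => ?_
        split_ifs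
        · exact hd _ _ (by omega)
        · exact le_rfl
      have h3 : 0 ≤ (if nr M m (g + 1 + K) t (x ω) then L else 0) := by
        split_ifs
        · exact hL0
        · exact le_rfl
      linarith
  refine (sum_le_sum fun m _ => sum_le_sum fun t _ => h1 m t).trans ?_
  rw [sum_comm]
  have h2 : ∀ t ∈ range T, ∑ m ∈ range (2 ^ M), ((if nr M m g t (x ω) then
      (-b (t + (g + 1)) + b t) else 0) +
      ∑ i ∈ Ico (g + 1) (g + 1 + K), (if nr M m i t (x ω) then
        (-b (t + (i + 1)) + b (t + i)) else 0) +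
      (if nr M m (g + 1 + K) t (x ω) then L else 0)) ≤
      2 ^ M * (2 / 2 ^ g) * (-b (t + (g + 1)) + b t) +
      ∑ i ∈ Ico (g + 1) (g + 1 + K), 2 ^ M * (2 / 2 ^ i) * (-b (t + (i + 1)) + b (t + i)) +
      2 ^ M * (2 / 2 ^ (g + 1 + K)) * L := by
    intro t ht
    have ht' := mem_range.1 ht
    rw [sum_add_distrib, sum_add_distrib]
    refine add_le_add (add_le_add ?_ ?_) ?_
    · exact sum_nr hnr (x ω) (by omega) (by have := hanti t (t + (g + 1)) (by omega); linarith)
    · rw [sum_comm]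
      refine sum_le_sum fun i hi => ?_
      have hi' := mem_Ico.1 hi
      exact sum_nr hnr (x ω) (by omega)
        (by have := hanti (t + i) (t + (i + 1)) (by omega); linarith)
    · exact sum_nr hnr (x ω) (by omega) hL0
  refine (sum_le_sum h2).trans ?_
  rw [sum_add_distrib, sum_add_distrib]
  have s1 : ∑ t ∈ range T, 2 ^ M * (2 / 2 ^ g) * (-b (t + (g + 1)) + b t) ≤
      2 ^ M * (2 / 2 ^ g) * ((g + 1 : ℕ) * Λ) := by
    rw [← mul_sum]
    refine mul_le_mul_of_nonneg_left ?_ (by positivity)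
    have := sum_gap b (fun u => hanti _ _ (Nat.le_succ u)) hlow (g + 1) T
    rw [hΛ]
    linarith
  have s2 : ∑ t ∈ range T, ∑ i ∈ Ico (g + 1) (g + 1 + K),
      2 ^ M * (2 / 2 ^ i) * (-b (t + (i + 1)) + b (t + i)) ≤ 2 ^ M * (2 / 2 ^ g) * Λ := by
    rw [sum_comm]
    calc ∑ i ∈ Ico (g + 1) (g + 1 + K), ∑ t ∈ range T,
          2 ^ M * (2 / 2 ^ i) * (-b (t + (i + 1)) + b (t + i))
        ≤ ∑ i ∈ Ico (g + 1) (g + 1 + K), 2 ^ M * (2 / 2 ^ i) * Λ := by
          refine sum_le_sum fun i _ => ?_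
          rw [← mul_sum]
          refine mul_le_mul_of_nonneg_left ?_ (by positivity)
          have h3 := sum_gap (fun u => b (u + i)) (fun u => hanti _ _ (by omega))
            (fun u => hlow (u + i)) 1 T
          have h4 : ∑ t ∈ range T, (-b (t + (i + 1)) + b (t + i)) =
              ∑ t ∈ range T, (-b (t + 1 + i) + b (t + i)) :=
            sum_congr rfl fun t _ => by rw [show t + (i + 1) = t + 1 + i by ring]
          rw [h4]
          refine h3.trans ?_
          have h5 := hanti 0 (0 + i) (by omega)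
          rw [hΛ]
          push_cast
          linarith
      _ = 2 ^ M * 2 * Λ * ∑ i ∈ Ico (g + 1) (g + 1 + K), (1 : ℝ) / 2 ^ i := by
          rw [mul_sum]
          refine sum_congr rfl fun i _ => ?_
          ring
      _ ≤ 2 ^ M * 2 * Λ * (2 / 2 ^ (g + 1)) :=
          mul_le_mul_of_nonneg_left (geom_tail (g + 1) K) (by positivity)
      _ = 2 ^ M * (2 / 2 ^ g) * Λ := by
          rw [pow_succ]
          field_simp
  have s3 : ∑ t ∈ range T, 2 ^ M * (2 / 2 ^ (g + 1 + K)) * L = 2 ^ M * (T / 2 ^ (g + K)) * L := by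
    rw [sum_const, card_range, nsmul_eq_mul, show g + 1 + K = g + K + 1 by ring, pow_succ]
    field_simp
  rw [s3]
  have s4 : 2 ^ M * (2 / 2 ^ g) * ((g + 1 : ℕ) * Λ) + 2 ^ M * (2 / 2 ^ g) * Λ =
      2 ^ M * (2 / 2 ^ g * (g + 2) * Λ) := by
    push_cast
    ring
  have s5 : 2 ^ M * (2 / 2 ^ g * (g + 2) * Λ) ≤
      2 ^ M * (2 / 2 ^ g * (g + 2) * (L + log (Pr μ c (c ω)))) := by
    refine mul_le_mul_of_nonneg_left (mul_le_mul_of_nonneg_left hb0 (by positivity))
      (by positivity)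
  linarith

open Classical in
/-- **the near content**, averaged over the shifts -/
theorem nr_content (hnr : NearFam nr) (hμ : IsProb μ) (hN : ∀ t, Det (N (t + 1)) (N t))
    (hx : Det ρ x) (hρ : ∀ t, Det ρ (N t)) (hc : Det (N 0) c) {M g T K : ℕ} (hg : 2 ≤ g)
    (hM : T + (g + 1 + K) ≤ M) :
    ∑ m ∈ range (2 ^ M), ∑ ω, μ ω * ∑ t ∈ range T,
      (if nr M m g t (x ω) then sup M m μ x N t ω else 0) ≤
      2 ^ M * (2 / 2 ^ g * (g + 2) * Hc μ ρ c + T / 2 ^ (g + K) * H μ ρ) := by
  rw [sum_comm]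
  have h1 : ∀ ω, ∑ m ∈ range (2 ^ M), μ ω * ∑ t ∈ range T,
      (if nr M m g t (x ω) then sup M m μ x N t ω else 0) ≤
      μ ω * (2 ^ M * (2 / 2 ^ g * (g + 2) * (-log (Pr μ ρ (ρ ω)) + log (Pr μ c (c ω))) +
        T / 2 ^ (g + K) * (-log (Pr μ ρ (ρ ω))))) := by
    intro ω
    rw [← mul_sum]
    rcases (hμ.nonneg ω).eq_or_lt with h0 | h0
    · rw [← h0, zero_mul, zero_mul]
    · exact mul_le_mul_of_nonneg_left (nr_content_one hnr hμ hN hx hρ hc hg hM h0) h0.le
  refine (sum_le_sum fun ω _ => h1 ω).trans (le_of_eq ?_)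
  have hHc : Hc μ ρ c = H μ ρ - H μ c := by
    refine Hc_eq (Det.refl _) ((hρ 0).trans hc) (det_fst _ _)
  rw [hHc]
  unfold H
  rw [← sum_sub_distrib, mul_sum, mul_sum, ← sum_add_distrib, mul_sum]
  refine sum_congr rfl fun ω _ => ?_
  ring

end main

end Vale.Agent.P065.H268
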