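import Vale.Agent.P065.H154.Frame
import Vale.Agent.P065.H268.TimeAv
import Vale.Agent.P065.H268.TimeAvg

/-!
# P065: the time side of the frame (helper268)

For a fixed law on pairs (column, flag), which does not depend on the time shift:
the near-cut content of the boxes `Rt`, the near-cut content along a line, and the number of
blocks which are cut by the grid have small averages over the time shifts.
-/

set_option autoImplicit false

open Finset Real

noncomputable section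

namespace Vale.Agent.P065.H268

open Vale.Agent.P065.UB Vale.Agent.P065.Ent Vale.Agent.P065.H154

section frame

variable {Ω : Type*} [Fintype Ω] (F : Fr Ω) (ln : Ω → Pt) (p : Prm) {Lab : Type*} (lam : Ω → Lab)

/-- labels which do not depend on the time shift and give the same boxes as `Rt` -/
def lab (γ t : ℕ) (q : p.Col × Ω) : p.Col × ℤ × ℕ × ℤ :=
  (q.1, Prm.S q.1.1 (ln q.2), min t (F.T' q.2 + γ), Nf F ln p γ t q.1 q.2)

variable {F ln p lam}

omit [Fintype Ω] in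
lemma lab_det (γ t : ℕ) : Det (lab F ln p γ (t + 1)) (lab F ln p γ t) := by
  rintro ⟨c, ω⟩ ⟨c', ω'⟩ h
  unfold lab at h ⊢
  simp only [Prod.mk.injEq] at h ⊢
  obtain ⟨rfl, h2, h3, h4⟩ := h
  refine ⟨rfl, h2, by omega, ?_⟩
  unfold Nf at h4 ⊢
  rw [← h3] at h4
  have h5 : min t (F.T' ω' + γ) = min t (F.T' ω + γ) := by omega
  rw [h5]
  exact Prm.N_nest (by omega) h4

omit [Fintype Ω] in
lemma rb_lab (γ t : ℕ) : Det (rb F ln p lam) (lab F ln p γ t) := by
  intro q q' h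
  have h1 := rb_Rt (F := F) (ln := ln) (p := p) (lam := lam) 0 γ t q q' h
  have hx := F.xW _ _ (rb_W (F := F) (ln := ln) (p := p) (lam := lam) F.n le_rfl q q' h)
  have hT := F.T'x _ _ hx
  unfold Rt at h1
  unfold lab
  simp only [Prod.mk.injEq] at h1 ⊢
  exact ⟨h1.1, h1.2.1, by rw [hT], h1.2.2.2⟩

omit [Fintype Ω] in
lemma rb_x : Det (rb F ln p lam) (fun q : p.Col × Ω => F.P.x q.2) := by
  intro q q' h
  exact F.xW _ _ (rb_W (F := F) (ln := ln) (p := p) (lam := lam) F.n le_rfl q q' h)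

omit [Fintype Ω] in
lemma lab_col (γ : ℕ) : Det (lab F ln p γ 0) (fun q => q.1) := by
  intro q q' h
  unfold lab at h
  simp only [Prod.mk.injEq] at h
  exact h.1

omit [Fintype Ω] in
/-- in a cell of a scale `≥ t` the labels and the boxes are the same -/
lemma lab_iff (u : ℝ) (γ : ℕ) {s t : ℕ} (hst : t ≤ s) (q q' : p.Col × Ω) :
    (F.D u s q.2, Rt F ln p u γ t q) = (F.D u s q'.2, Rt F ln p u γ t q') ↔
      (cellU u s (F.P.x q.2), lab F ln p γ t q) = (cellU u s (F.P.x q'.2), lab F ln p γ t q') := by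
  have e : ∀ q : p.Col × Ω, cellU u s (F.P.x q.2) = F.D u s q.2 := fun _ => rfl
  rw [e, e]
  unfold Rt lab
  simp only [Prod.mk.injEq]
  constructor
  · rintro ⟨h1, h2, h3, h4, h5⟩
    refine ⟨h1, h2, h3, ?_, h5⟩
    rcases F.T'_cases h4 with ⟨-, hT⟩ | ⟨hT, hT'⟩
    · rw [hT]
    · rw [min_eq_left (by omega), min_eq_left (by omega)]
  · rintro ⟨h1, h2, h3, -, h5⟩
    exact ⟨h1, h2, h3, F.D_det_le u hst _ _ h1, h5⟩

lemma Pr_lab (Q : p.Col × Ω → ℝ) (u : ℝ) (γ : ℕ) {s t : ℕ} (hst : t ≤ s) (q : p.Col × Ω) :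
    Pr Q (fun q => (F.D u s q.2, Rt F ln p u γ t q)) (F.D u s q.2, Rt F ln p u γ t q) =
    Pr Q (fun q => (cellU u s (F.P.x q.2), lab F ln p γ t q))
      (cellU u s (F.P.x q.2), lab F ln p γ t q) := by
  refine Pr_congr (X := fun q => (F.D u s q.2, Rt F ln p u γ t q))
    (Y := fun q => (cellU u s (F.P.x q.2), lab F ln p γ t q)) ?_ ?_ q
  · intro a b h
    exact (lab_iff u γ hst a b).1 h
  · intro a b h
    exact (lab_iff u γ hst a b).2 h

/-- the surprise of the next dyadic cell in the box `Rt` is 154's surprise -/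
lemma neg_log_ka {Q : p.Col × Ω → ℝ} (hQ : IsProb Q) (u : ℝ) (s γ t : ℕ) {q : p.Col × Ω}
    (hq : 0 < Q q) :
    -log (Avg.ka ((F.Q u s).pull (Prod.snd : p.Col × Ω → Ω)) Q (Rt F ln p u γ) t q) =
      supU u Q (fun q => F.P.x q.2) (lab F ln p γ) t q := by
  have e1 := Pr_lab (F := F) (ln := ln) Q u γ (le_refl t) q
  have e2 := Pr_lab (F := F) (ln := ln) Q u γ (Nat.le_succ t) q
  have e3 : Pr Q (Rt F ln p u γ t) (Rt F ln p u γ t q) =
      Pr Q (fun q => (F.D u t q.2, Rt F ln p u γ t q)) (F.D u t q.2, Rt F ln p u γ t q) := by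
    refine Pr_congr (X := Rt F ln p u γ t) (Y := fun q => (F.D u t q.2, Rt F ln p u γ t q))
      ?_ (det_snd _ _) q
    intro a b h
    have := Rt_D (F := F) (ln := ln) (p := p) u γ t a b h
    exact Prod.ext this h
  unfold Avg.ka supU
  have h1 := Pr_pos hQ (fun q : p.Col × Ω => (F.D u (t + 1) q.2, Rt F ln p u γ t q)) hq
  have h2 := Pr_pos hQ (Rt F ln p u γ t) hq
  show -log (Pr Q (fun q : p.Col × Ω => (F.D u (t + 1) q.2, Rt F ln p u γ t q))
    (F.D u (t + 1) q.2, Rt F ln p u γ t q) / Pr Q (Rt F ln p u γ t) (Rt F ln p u γ t q)) = _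
  rw [log_div h1.ne' h2.ne', ← e1, ← e2, e3]
  ring

variable (F ln p)

open Classical in
/-- **the near-cut content** of the boxes `Rt` (guard `γ`, levels `< T`, distance `2 ^ (-g)`) -/
def ncut (Q : p.Col × Ω → ℝ) (γ g T s : ℕ) (u : ℝ) : ℝ :=
  ∑ q, Q q * ∑ t ∈ range T, (if nearU u g t (F.P.x q.2) then
    -log (Avg.ka ((F.Q u s).pull (Prod.snd : p.Col × Ω → Ω)) Q (Rt F ln p u γ) t q) else 0)

variable {F ln p}

lemma ncut_nonneg {Q : p.Col × Ω → ℝ} (hQ : IsProb Q) (γ g T s : ℕ) (u : ℝ) :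
    0 ≤ ncut F ln p Q γ g T s u := by
  refine sum_nonneg fun q _ => mul_nonneg (hQ.nonneg q) (sum_nonneg fun t _ => ?_)
  split_ifs
  · have h1 := Avg.ka_le_one (P := (F.Q u s).pull (Prod.snd : p.Col × Ω → Ω))
      (R := Rt F ln p u γ) hQ t q
    have h0 : 0 ≤ Avg.ka ((F.Q u s).pull (Prod.snd : p.Col × Ω → Ω)) Q (Rt F ln p u γ) t q :=
      div_nonneg (Pr_nonneg hQ _ _) (Pr_nonneg hQ _ _)
    have := log_nonpos h0 h1
    linarith
  · exact le_rfl

/-- **the near-cut content of the boxes has a small average** over the time shifts -/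
theorem avLe_ncut {Q : p.Col × Ω → ℝ} (hQ : IsProb Q) (lam : Ω → Lab) (γ : ℕ) {g : ℕ}
    (hg : 2 ≤ g) (T s : ℕ) {ε : ℝ} (hε : 0 < ε) :
    AvLe (ncut F ln p Q γ g T s)
      (2 / 2 ^ g * (g + 2) * Hc Q (rb F ln p lam) (fun q : p.Col × Ω => q.1) + ε) := by
  classical
  have h := avLe_near (μ := Q) (x := fun q : p.Col × Ω => F.P.x q.2) (N := lab F ln p γ)
    (ρ := rb F ln p lam) (c := fun q : p.Col × Ω => q.1) hQ (lab_det γ) rb_x (rb_lab γ)
    (lab_col γ) hg T hε
  refine h.mono (fun u => ?_) le_rfl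
  unfold ncut
  refine sum_le_sum fun q _ => ?_
  rcases (hQ.nonneg q).eq_or_lt with h0 | h0
  · rw [← h0, zero_mul, zero_mul]
  · refine mul_le_mul_of_nonneg_left (sum_le_sum fun t _ => ?_) h0.le
    by_cases h1 : nearU u g t (F.P.x q.2)
    · rw [if_pos h1, if_pos h1, neg_log_ka hQ u s γ t h0]
    · rw [if_neg h1, if_neg h1]

variable (F p)

open Classical in
/-- the near-cut content along a variable `Y` (line and column) -/
def ncutY {β : Type*} (Q : p.Col × Ω → ℝ) (Y : p.Col × Ω → β) (g T : ℕ) (u : ℝ) : ℝ :=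
  ∑ q, Q q * ∑ t ∈ range T, (if nearU u g t (F.P.x q.2) then
    -log (Pr Q (fun q => (F.D u (t + 1) q.2, (F.D u t q.2, Y q)))
      (F.D u (t + 1) q.2, (F.D u t q.2, Y q)) /
      Pr Q (fun q => (F.D u t q.2, Y q)) (F.D u t q.2, Y q)) else 0)

variable {F p}

lemma ncutY_nonneg {β : Type*} {Q : p.Col × Ω → ℝ} (hQ : IsProb Q) (Y : p.Col × Ω → β)
    (g T : ℕ) (u : ℝ) : 0 ≤ ncutY F p Q Y g T u := by
  refine sum_nonneg fun q _ => mul_nonneg (hQ.nonneg q) (sum_nonneg fun t _ => ?_)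
  split_ifs
  · have h1 : Pr Q (fun q => (F.D u (t + 1) q.2, (F.D u t q.2, Y q)))
      (F.D u (t + 1) q.2, (F.D u t q.2, Y q)) /
      Pr Q (fun q => (F.D u t q.2, Y q)) (F.D u t q.2, Y q) ≤ 1 :=
      div_le_one_of_le₀ (Pr_mono hQ (det_snd (fun q : p.Col × Ω => F.D u (t + 1) q.2)
        (fun q => (F.D u t q.2, Y q))) q) (Pr_nonneg hQ _ _)
    have h0 : 0 ≤ Pr Q (fun q => (F.D u (t + 1) q.2, (F.D u t q.2, Y q)))
      (F.D u (t + 1) q.2, (F.D u t q.2, Y q)) /
      Pr Q (fun q => (F.D u t q.2, Y q)) (F.D u t q.2, Y q) :=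
      div_nonneg (Pr_nonneg hQ _ _) (Pr_nonneg hQ _ _)
    have := log_nonpos h0 h1
    linarith
  · exact le_rfl

/-- **the near-cut content along a line has a small average** over the time shifts -/
theorem avLe_ncutY {β : Type*} {Q : p.Col × Ω → ℝ} (hQ : IsProb Q) (Y : p.Col × Ω → β) {g : ℕ}
    (hg : 2 ≤ g) (T : ℕ) {ε : ℝ} (hε : 0 < ε) :
    AvLe (ncutY F p Q Y g T)
      (2 / 2 ^ g * (g + 2) * Hc Q (fun q => (F.P.x q.2, Y q)) Y + ε) := by
  classical
  have h := avLe_near (μ := Q) (x := fun q : p.Col × Ω => F.P.x q.2)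
    (N := fun _ : ℕ => Y) (ρ := fun q : p.Col × Ω => (F.P.x q.2, Y q)) (c := Y) hQ
    (fun _ => Det.refl _) (det_fst _ _) (fun _ => det_snd _ _) (Det.refl _) hg T hε
  refine h.mono (fun u => ?_) le_rfl
  unfold ncutY
  refine sum_le_sum fun q _ => ?_
  rcases (hQ.nonneg q).eq_or_lt with h0 | h0
  · rw [← h0, zero_mul, zero_mul]
  · refine mul_le_mul_of_nonneg_left (sum_le_sum fun t _ => ?_) h0.le
    by_cases h1 : nearU u g t (F.P.x q.2)
    · rw [if_pos h1, if_pos h1]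
      unfold supU
      have e1 : Pr Q (fun q => (F.D u (t + 1) q.2, (F.D u t q.2, Y q)))
          (F.D u (t + 1) q.2, (F.D u t q.2, Y q)) =
          Pr Q (fun q => (cellU u (t + 1) (F.P.x q.2), Y q))
            (cellU u (t + 1) (F.P.x q.2), Y q) := by
        refine Pr_congr (X := fun q => (F.D u (t + 1) q.2, (F.D u t q.2, Y q)))
          (Y := fun q => (cellU u (t + 1) (F.P.x q.2), Y q)) ?_ ?_ q
        · intro a b h
          simp only [Prod.mk.injEq] at h ⊢
          exact ⟨h.1, h.2.2⟩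
        · intro a b h
          simp only [Prod.mk.injEq] at h ⊢
          exact ⟨h.1, F.D_det u t _ _ h.1, h.2⟩
      have h2 := Pr_pos hQ (fun q => (cellU u (t + 1) (F.P.x q.2), Y q)) h0
      have h3 := Pr_pos hQ (fun q => (F.D u t q.2, Y q)) h0
      rw [e1, log_div h2.ne' h3.ne']
      have e2 : Pr Q (fun q => (F.D u t q.2, Y q)) (F.D u t q.2, Y q) =
        Pr Q (fun q => (cellU u t (F.P.x q.2), Y q)) (cellU u t (F.P.x q.2), Y q) := rfl
      rw [e2]
      ring_nf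
      exact le_rfl
    · rw [if_neg h1, if_neg h1]

/-- **the cut blocks** under a law on pairs -/
theorem avLe_cut_pair {κ : Type*} [Fintype κ] (P : Pcs Ω) {Q : κ × Ω → ℝ} (hQ : IsProb Q)
    (g n : ℕ) : AvLe (fun u => ∑ q, Q q * #(P.cutB g n u q.2)) (9 / 2 ^ g * n) := by
  have h := avLe_cut P (ν := fun ω => ∑ k, Q (k, ω)) (fun ω => sum_nonneg fun k _ => hQ.nonneg _)
    (by rw [← hQ.sum, Fintype.sum_prod_type_right]) g n
  refine h.mono (fun u => le_of_eq ?_) le_rfl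
  rw [Fintype.sum_prod_type_right]
  exact sum_congr rfl fun ω _ => by rw [sum_mul]

end frame

end Vale.Agent.P065.H268
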