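import Mathlib

/-!
# P065, package TIME: nested pieces of time and dyadic cells (helper268)

`Pcs Ω` : a finite set of points of time `x ω` (two different ones at distance `≥ δ`) and nested
pieces (`W j ω` is the label of the piece of level `j`, monotone in time). `len j ω` is the length
of the piece, `tm j ω` its scale (`4 ≤ 2 ^ tm * len < 8`), `D t ω` the dyadic cell of scale `t`.
-/

set_option autoImplicit false

namespace Vale.Agent.P065.H268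

open Finset

/-- points of time and nested pieces -/
structure Pcs (Ω : Type*) where
  x : Ω → ℝ
  W : ℕ → Ω → ℕ
  δ : ℝ
  T : ℕ
  mono : ∀ j ω ω', x ω ≤ x ω' → W j ω ≤ W j ω'
  nest : ∀ j ω ω', W (j + 1) ω = W (j + 1) ω' → W j ω = W j ω'
  δ_pos : 0 < δ
  sep : ∀ ω ω', x ω < x ω' → x ω + δ ≤ x ω'
  diam : ∀ ω ω', x ω' - x ω + δ ≤ 1
  bot : 4 ≤ 2 ^ T * δ

namespace Pcs

variable {Ω : Type*} [Fintype Ω] (P : Pcs Ω)

/-- the dyadic cell of scale `t` -/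
noncomputable def D (P : Pcs Ω) (t : ℕ) (ω : Ω) : ℤ := ⌊(2 : ℝ) ^ t * P.x ω⌋

open Classical in
/-- the members of the piece of level `j` -/
noncomputable def mem (P : Pcs Ω) (j : ℕ) (ω : Ω) : Finset Ω := {ω' | P.W j ω' = P.W j ω}

omit [Fintype Ω] in
lemma nest_le {i j : ℕ} (h : i ≤ j) {ω ω' : Ω} (hW : P.W j ω = P.W j ω') :
    P.W i ω = P.W i ω' := by
  induction j, h using Nat.le_induction with
  | base => exact hW
  | succ n _ ih => exact ih (P.nest n ω ω' hW)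

omit [Fintype Ω] in
lemma x_lt {j : ℕ} {ω ω' : Ω} (h : P.W j ω < P.W j ω') : P.x ω < P.x ω' := by
  by_contra hcon
  exact absurd (P.mono j ω' ω (not_lt.1 hcon)) (by omega)

lemma mem_mem (j : ℕ) (ω ω' : Ω) : ω' ∈ P.mem j ω ↔ P.W j ω' = P.W j ω := by
  classical
  unfold mem
  simp

lemma self_mem (j : ℕ) (ω : Ω) : ω ∈ P.mem j ω := (P.mem_mem j ω ω).2 rfl

lemma mem_ne (j : ℕ) (ω : Ω) : (P.mem j ω).Nonempty := ⟨ω, P.self_mem j ω⟩

lemma mem_congr {j : ℕ} {ω ω' : Ω} (h : P.W j ω = P.W j ω') : P.mem j ω = P.mem j ω' := by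
  ext a
  rw [P.mem_mem, P.mem_mem, h]

lemma mem_anti {i j : ℕ} (h : i ≤ j) (ω : Ω) : P.mem j ω ⊆ P.mem i ω := by
  intro a ha
  rw [P.mem_mem] at ha ⊢
  exact P.nest_le h ha

/-- right end of the piece -/
noncomputable def hi (P : Pcs Ω) (j : ℕ) (ω : Ω) : ℝ := (P.mem j ω).sup' (P.mem_ne j ω) P.x

/-- left end of the piece -/
noncomputable def lo (P : Pcs Ω) (j : ℕ) (ω : Ω) : ℝ := (P.mem j ω).inf' (P.mem_ne j ω) P.x

/-- length of the piece -/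
noncomputable def len (P : Pcs Ω) (j : ℕ) (ω : Ω) : ℝ := P.hi j ω - P.lo j ω + P.δ

lemma le_hi {j : ℕ} {ω ω' : Ω} (h : P.W j ω' = P.W j ω) : P.x ω' ≤ P.hi j ω :=
  le_sup' P.x ((P.mem_mem j ω ω').2 h)

lemma lo_le {j : ℕ} {ω ω' : Ω} (h : P.W j ω' = P.W j ω) : P.lo j ω ≤ P.x ω' :=
  inf'_le P.x ((P.mem_mem j ω ω').2 h)

lemma exists_hi (j : ℕ) (ω : Ω) : ∃ ω', P.W j ω' = P.W j ω ∧ P.x ω' = P.hi j ω := by
  obtain ⟨a, ha, h⟩ := exists_mem_eq_sup' (P.mem_ne j ω) P.x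
  exact ⟨a, (P.mem_mem j ω a).1 ha, h.symm⟩

lemma exists_lo (j : ℕ) (ω : Ω) : ∃ ω', P.W j ω' = P.W j ω ∧ P.x ω' = P.lo j ω := by
  obtain ⟨a, ha, h⟩ := exists_mem_eq_inf' (P.mem_ne j ω) P.x
  exact ⟨a, (P.mem_mem j ω a).1 ha, h.symm⟩

lemma δ_le_len (j : ℕ) (ω : Ω) : P.δ ≤ P.len j ω := by
  have h1 := P.le_hi (j := j) (ω := ω) rfl
  have h2 := P.lo_le (j := j) (ω := ω) rfl
  unfold len
  linarith

lemma len_pos (j : ℕ) (ω : Ω) : 0 < P.len j ω := P.δ_pos.trans_le (P.δ_le_len j ω)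

lemma len_le_one (j : ℕ) (ω : Ω) : P.len j ω ≤ 1 := by
  obtain ⟨a, -, ha⟩ := P.exists_hi j ω
  obtain ⟨b, -, hb⟩ := P.exists_lo j ω
  unfold len
  rw [← ha, ← hb]
  exact P.diam b a

lemma sub_le_len {j : ℕ} {ω a b : Ω} (ha : P.W j a = P.W j ω) (hb : P.W j b = P.W j ω) :
    P.x b - P.x a + P.δ ≤ P.len j ω := by
  have h1 := P.le_hi hb
  have h2 := P.lo_le ha
  unfold len
  linarith

lemma hi_congr {j : ℕ} {ω ω' : Ω} (h : P.W j ω = P.W j ω') : P.hi j ω = P.hi j ω' := by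
  obtain ⟨a, ha, ha'⟩ := P.exists_hi j ω
  obtain ⟨b, hb, hb'⟩ := P.exists_hi j ω'
  apply le_antisymm
  · rw [← ha']
    exact P.le_hi (ha.trans h)
  · rw [← hb']
    exact P.le_hi (hb.trans h.symm)

lemma lo_congr {j : ℕ} {ω ω' : Ω} (h : P.W j ω = P.W j ω') : P.lo j ω = P.lo j ω' := by
  obtain ⟨a, ha, ha'⟩ := P.exists_lo j ω
  obtain ⟨b, hb, hb'⟩ := P.exists_lo j ω'
  apply le_antisymm
  · rw [← hb']
    exact P.lo_le (hb.trans h.symm)
  · rw [← ha']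
    exact P.lo_le (ha.trans h)

lemma len_congr {j : ℕ} {ω ω' : Ω} (h : P.W j ω = P.W j ω') : P.len j ω = P.len j ω' := by
  unfold len
  rw [P.hi_congr h, P.lo_congr h]

lemma len_anti {i j : ℕ} (h : i ≤ j) (ω : Ω) : P.len j ω ≤ P.len i ω := by
  obtain ⟨a, ha, ha'⟩ := P.exists_hi j ω
  obtain ⟨b, hb, hb'⟩ := P.exists_lo j ω
  have := P.sub_le_len (P.nest_le h hb) (P.nest_le h ha)
  unfold len at this ⊢
  rw [ha', hb'] at this
  exact this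

lemma exists_tm (j : ℕ) (ω : Ω) : ∃ t : ℕ, 4 ≤ 2 ^ t * P.len j ω :=
  ⟨P.T, P.bot.trans (mul_le_mul_of_nonneg_left (P.δ_le_len j ω) (by positivity))⟩

open Classical in
/-- the scale of the piece -/
noncomputable def tm (P : Pcs Ω) (j : ℕ) (ω : Ω) : ℕ := Nat.find (P.exists_tm j ω)

lemma tm_spec (j : ℕ) (ω : Ω) : 4 ≤ 2 ^ P.tm j ω * P.len j ω := by
  classical
  exact Nat.find_spec (P.exists_tm j ω)

lemma tm_le {j t : ℕ} {ω : Ω} (h : 4 ≤ 2 ^ t * P.len j ω) : P.tm j ω ≤ t := by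
  classical
  exact Nat.find_min' (P.exists_tm j ω) h

lemma tm_le_T (j : ℕ) (ω : Ω) : P.tm j ω ≤ P.T :=
  P.tm_le (P.bot.trans (mul_le_mul_of_nonneg_left (P.δ_le_len j ω) (by positivity)))

lemma tm_pos (j : ℕ) (ω : Ω) : 0 < P.tm j ω := by
  rw [Nat.pos_iff_ne_zero]
  intro h
  have h1 := P.tm_spec j ω
  rw [h, pow_zero, one_mul] at h1
  linarith [P.len_le_one j ω]

lemma tm_lt (j : ℕ) (ω : Ω) : 2 ^ P.tm j ω * P.len j ω < 8 := by
  by_contra hcon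
  push Not at hcon
  have hp := P.tm_pos j ω
  have h1 : 4 ≤ 2 ^ (P.tm j ω - 1) * P.len j ω := by
    have h2 : (2 : ℝ) ^ P.tm j ω = 2 * 2 ^ (P.tm j ω - 1) := by
      rw [← pow_succ']
      congr 1
      omega
    rw [h2, mul_assoc] at hcon
    linarith
  have h3 := P.tm_le h1
  omega

lemma tm_congr {j : ℕ} {ω ω' : Ω} (h : P.W j ω = P.W j ω') : P.tm j ω = P.tm j ω' := by
  apply le_antisymm
  · apply P.tm_le
    rw [P.len_congr h]
    exact P.tm_spec j ω'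
  · apply P.tm_le
    rw [← P.len_congr h]
    exact P.tm_spec j ω

lemma tm_mono {i j : ℕ} (h : i ≤ j) (ω : Ω) : P.tm i ω ≤ P.tm j ω := by
  apply P.tm_le
  exact (P.tm_spec j ω).trans (mul_le_mul_of_nonneg_left (P.len_anti h ω) (by positivity))

lemma spec_of_tm_le {j t : ℕ} {ω : Ω} (h : P.tm j ω ≤ t) : 4 ≤ 2 ^ t * P.len j ω :=
  (P.tm_spec j ω).trans (mul_le_mul_of_nonneg_right
    (pow_le_pow_right₀ (by norm_num) h) (P.len_pos j ω).le)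

/-! ### dyadic cells -/

omit [Fintype Ω] in
lemma D_mono {t : ℕ} {ω ω' : Ω} (h : P.x ω ≤ P.x ω') : P.D t ω ≤ P.D t ω' :=
  Int.floor_mono (mul_le_mul_of_nonneg_left h (by positivity))

omit [Fintype Ω] in
lemma D_succ (t : ℕ) (ω : Ω) : P.D t ω = P.D (t + 1) ω / 2 := by
  unfold D
  rw [pow_succ, mul_right_comm]
  set y := (2 : ℝ) ^ t * P.x ω
  apply le_antisymm
  · rw [Int.le_ediv_iff_mul_le (by norm_num), Int.le_floor]
    push_cast
    linarith [Int.floor_le y]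
  · rw [Int.le_floor]
    have h1 : (⌊y * 2⌋ : ℤ) / 2 * 2 ≤ ⌊y * 2⌋ := Int.ediv_mul_le _ (by norm_num)
    have h2 : (((⌊y * 2⌋ : ℤ) / 2 * 2 : ℤ) : ℝ) ≤ y * 2 :=
      le_trans (by exact_mod_cast h1) (Int.floor_le _)
    push_cast at h2
    linarith

omit [Fintype Ω] in
lemma D_nest {s t : ℕ} (h : s ≤ t) {ω ω' : Ω} (hD : P.D t ω = P.D t ω') :
    P.D s ω = P.D s ω' := by
  induction t, h using Nat.le_induction with
  | base => exact hD
  | succ n _ ih =>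
    apply ih
    rw [P.D_succ n ω, P.D_succ n ω', hD]

omit [Fintype Ω] in
lemma D_close {t : ℕ} {ω ω' : Ω} (h : P.D t ω = P.D t ω') : 2 ^ t * (P.x ω' - P.x ω) < 1 := by
  have h1 := Int.floor_le ((2 : ℝ) ^ t * P.x ω)
  have h2 := Int.lt_floor_add_one ((2 : ℝ) ^ t * P.x ω')
  unfold D at h
  rw [← h] at h2
  rw [mul_sub]
  linarith

omit [Fintype Ω] in
lemma x_eq_of_D {ω ω' : Ω} (h : P.D P.T ω = P.D P.T ω') : P.x ω = P.x ω' := by
  rcases lt_trichotomy (P.x ω) (P.x ω') with h1 | h1 | h1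
  · exfalso
    have h2 := P.sep ω ω' h1
    have h3 := P.D_close h
    have h4 : (2 : ℝ) ^ P.T * P.δ ≤ 2 ^ P.T * (P.x ω' - P.x ω) :=
      mul_le_mul_of_nonneg_left (by linarith) (by positivity)
    linarith [P.bot]
  · exact h1
  · exfalso
    have h2 := P.sep ω' ω h1
    have h3 := P.D_close h.symm
    have h4 : (2 : ℝ) ^ P.T * P.δ ≤ 2 ^ P.T * (P.x ω - P.x ω') :=
      mul_le_mul_of_nonneg_left (by linarith) (by positivity)
    linarith [P.bot]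

omit [Fintype Ω] in
lemma W_eq_of_x {j : ℕ} {ω ω' : Ω} (h : P.x ω = P.x ω') : P.W j ω = P.W j ω' :=
  le_antisymm (P.mono j ω ω' h.le) (P.mono j ω' ω h.ge)

/-- **at most two long pieces meet a cell**: a long piece between two points of a cell contains
one of them -/
lemma mid {t j : ℕ} {ω₁ ω₂ ω₃ : Ω} (h13 : P.D t ω₁ = P.D t ω₃) (h12 : P.x ω₁ ≤ P.x ω₂)
    (h23 : P.x ω₂ ≤ P.x ω₃) (ht : P.tm j ω₂ ≤ t) :
    P.W j ω₂ = P.W j ω₁ ∨ P.W j ω₂ = P.W j ω₃ := by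
  by_contra hcon
  push Not at hcon
  obtain ⟨n1, n3⟩ := hcon
  have l1 : P.W j ω₁ < P.W j ω₂ := lt_of_le_of_ne (P.mono j _ _ h12) (Ne.symm n1)
  have l3 : P.W j ω₂ < P.W j ω₃ := lt_of_le_of_ne (P.mono j _ _ h23) n3
  obtain ⟨a, ha, ha'⟩ := P.exists_lo j ω₂
  obtain ⟨b, hb, hb'⟩ := P.exists_hi j ω₂
  have h1 := P.sep ω₁ a (P.x_lt (by rw [ha]; exact l1))
  have h3 := P.sep b ω₃ (P.x_lt (by rw [hb]; exact l3))
  have h4 := P.spec_of_tm_le ht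
  have h5 := P.D_close h13
  have h6 : P.len j ω₂ ≤ P.x ω₃ - P.x ω₁ := by
    unfold len
    rw [← ha', ← hb']
    have := P.δ_pos
    linarith
  have h7 : (2 : ℝ) ^ t * P.len j ω₂ ≤ 2 ^ t * (P.x ω₃ - P.x ω₁) :=
    mul_le_mul_of_nonneg_left h6 (by positivity)
  linarith

end Pcs

end Vale.Agent.P065.H268
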